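import Mathlib

/-!
# Stability of Brenier maps: the gap argument

Helper lemmas for the hand-ins of problem P074.
-/

namespace Vale.Agent.H20

open MeasureTheory Set

variable {E : Type*} [NormedAddCommGroup E] [InnerProductSpace ℝ E]

/-- The dual subgradient property: `x` is a subgradient of `f` at `T x`. -/
def DualSub (f : E → ℝ) (T : E → E) (x : E) : Prop :=
  ∀ y, f (T x) + inner ℝ x (y - T x) ≤ f y

/-- The gap function. -/
def gapFn (f : E → ℝ) (T S : E → E) (x : E) : ℝ :=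
  f (S x) - f (T x) - inner ℝ x (S x - T x)

theorem gapFn_nonneg {f : E → ℝ} {T S : E → E} {x : E} (hx : DualSub f T x) :
    0 ≤ gapFn f T S x := by
  have := hx (S x)
  unfold gapFn
  linarith

theorem gapFn_lower {f : E → ℝ} {T S : E → E} {x v : E}
    (hx : DualSub f T x) (hxv : DualSub f T (x + v)) :
    inner ℝ v (S x - T (x + v)) ≤ gapFn f T S x := by
  have h1 := hxv (S x)
  have h2 := hx (T (x + v))
  unfold gapFn
  have e1 : inner ℝ (x + v) (S x - T (x + v)) =
      inner ℝ x (S x - T (x + v)) + inner ℝ v (S x - T (x + v)) := inner_add_left _ _ _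
  have e2 : inner ℝ x (S x - T x) =
      inner ℝ x (S x - T (x + v)) + inner ℝ x (T (x + v) - T x) := by
    rw [← inner_add_right]; congr 1; abel
  linarith

theorem dualSub_mono {f : E → ℝ} {T : E → E} {x v : E}
    (hx : DualSub f T x) (hxv : DualSub f T (x + v)) :
    0 ≤ inner ℝ v (T (x + v) - T x) := by
  have h1 := hxv (T x)
  have h2 := hx (T (x + v))
  have e1 : inner ℝ (x + v) (T x - T (x + v)) =
      inner ℝ x (T x - T (x + v)) + inner ℝ v (T x - T (x + v)) := inner_add_left _ _ _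
  have e2 : inner ℝ x (T x - T (x + v)) = - inner ℝ x (T (x + v) - T x) := by
    rw [← inner_neg_right]; congr 1; abel
  have e3 : inner ℝ v (T x - T (x + v)) = - inner ℝ v (T (x + v) - T x) := by
    rw [← inner_neg_right]; congr 1; abel
  linarith

section integral

variable [MeasurableSpace E] [BorelSpace E]

theorem setIntegral_shift_le {μ : Measure E} [μ.IsAddRightInvariant]
    {K : Set E} (hK : MeasurableSet K) (v : E) {g : E → ℝ} (hg : IntegrableOn g K μ)
    (hg0 : 0 ≤ᵐ[μ.restrict K] g) :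
    ∫ x in K ∩ (fun x => x + v) ⁻¹' K, g (x + v) ∂μ ≤ ∫ x in K, g x ∂μ := by
  have hKv : MeasurableSet (K ∩ (fun x => x + v) ⁻¹' K) :=
    hK.inter ((measurable_add_const v) hK)
  have hK' : MeasurableSet (K ∩ (fun x => x - v) ⁻¹' K) :=
    hK.inter ((measurable_sub_const v) hK)
  calc ∫ x in K ∩ (fun x => x + v) ⁻¹' K, g (x + v) ∂μ
      = ∫ x, (K ∩ (fun x => x + v) ⁻¹' K).indicator (fun x => g (x + v)) x ∂μ :=
        (integral_indicator hKv).symm
    _ = ∫ x, (K ∩ (fun x => x - v) ⁻¹' K).indicator g (x + v) ∂μ := by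
        congr 1
        ext x
        by_cases hx : x ∈ K ∩ (fun x => x + v) ⁻¹' K
        · have hx' : x + v ∈ K ∩ (fun x => x - v) ⁻¹' K := by
            refine ⟨hx.2, ?_⟩
            simpa using hx.1
          rw [indicator_of_mem hx, indicator_of_mem hx']
        · have hx' : x + v ∉ K ∩ (fun x => x - v) ⁻¹' K := by
            intro h
            apply hx
            refine ⟨?_, h.1⟩
            simpa using h.2
          rw [indicator_of_notMem hx, indicator_of_notMem hx']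
    _ = ∫ x, (K ∩ (fun x => x - v) ⁻¹' K).indicator g x ∂μ :=
        integral_add_right_eq_self _ v
    _ = ∫ x in K ∩ (fun x => x - v) ⁻¹' K, g x ∂μ := integral_indicator hK'
    _ ≤ ∫ x in K, g x ∂μ :=
        setIntegral_mono_set hg hg0 (Filter.Eventually.of_forall (fun x hx => hx.1))

end integral

section direction

variable [MeasurableSpace E] [BorelSpace E] [SecondCountableTopology E]

theorem gap_dir_lower {μ : Measure E} [μ.IsAddRightInvariant]
    {K : Set E} (hK : MeasurableSet K) (hKfin : μ K ≠ ⊤)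
    {f : E → ℝ} {T S : E → E} {R : ℝ} (hR : 0 ≤ R) (v : E)
    (hT : Measurable T) (hS : Measurable S)
    (hb : IntegrableOn (gapFn f T S) K μ)
    (hgood : ∀ᵐ x ∂μ.restrict K, DualSub f T x ∧ ‖T x‖ ≤ R ∧ ‖S x‖ ≤ R) :
    ∫ x in K, max (inner ℝ v (S x - T x)) 0 ∂μ
        - 4 * ‖v‖ * R * μ.real (K \ (fun x => x + v) ⁻¹' K)
      ≤ ∫ x in K, gapFn f T S x ∂μ := by
  set Kv : Set E := K ∩ (fun x => x + v) ⁻¹' K with hKv_def
  set D : Set E := K \ (fun x => x + v) ⁻¹' K with hD_def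
  have hpre : MeasurableSet ((fun x => x + v) ⁻¹' K) := (measurable_add_const v) hK
  have hKvm : MeasurableSet Kv := hK.inter hpre
  have hDm : MeasurableSet D := hK.diff hpre
  have hKvK : Kv ⊆ K := inter_subset_left
  have hDK : D ⊆ K := sdiff_subset
  have hKlt : μ K < ⊤ := lt_top_iff_ne_top.2 hKfin
  have hKvfin : μ Kv < ⊤ := lt_of_le_of_lt (measure_mono hKvK) hKlt
  have hDfin : μ D < ⊤ := lt_of_le_of_lt (measure_mono hDK) hKlt
  have hunion : Kv ∪ D = K := inter_union_sdiff K _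
  have hdisj : Disjoint Kv D := by
    rw [Set.disjoint_left]
    intro x hx hx'
    exact hx'.2 hx.2
  -- the functions
  set a : E → ℝ := fun x => max (inner ℝ v (S x - T x)) 0 with ha_def
  set g : E → ℝ := fun x => inner ℝ v (T x) + ‖v‖ * R with hg_def
  have ham : Measurable a := (measurable_const.inner (hS.sub hT)).max measurable_const
  have hgm : Measurable g := (measurable_const.inner hT).add measurable_const
  have hvR : 0 ≤ ‖v‖ * R := mul_nonneg (norm_nonneg v) hR
  -- a.e. bounds on K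
  have ha_bd : ∀ᵐ x ∂μ.restrict K, ‖a x‖ ≤ 2 * ‖v‖ * R := by
    filter_upwards [hgood] with x hx
    have h1 : |inner ℝ v (S x - T x)| ≤ ‖v‖ * ‖S x - T x‖ := abs_real_inner_le_norm _ _
    have h2 : ‖S x - T x‖ ≤ R + R := (norm_sub_le _ _).trans (add_le_add hx.2.2 hx.2.1)
    have h3 : ‖v‖ * ‖S x - T x‖ ≤ ‖v‖ * (R + R) :=
      mul_le_mul_of_nonneg_left h2 (norm_nonneg v)
    have h4 := abs_le.1 (h1.trans h3)
    rw [Real.norm_eq_abs, abs_le]
    constructor
    · have : 0 ≤ a x := le_max_right _ _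
      linarith
    · have : a x ≤ ‖v‖ * (R + R) := max_le h4.2 (by linarith)
      linarith
  have hg_bd : ∀ᵐ x ∂μ.restrict K, 0 ≤ g x ∧ g x ≤ 2 * ‖v‖ * R := by
    filter_upwards [hgood] with x hx
    have h1 : |inner ℝ v (T x)| ≤ ‖v‖ * ‖T x‖ := abs_real_inner_le_norm _ _
    have h3 : ‖v‖ * ‖T x‖ ≤ ‖v‖ * R := mul_le_mul_of_nonneg_left hx.2.1 (norm_nonneg v)
    have h4 := abs_le.1 (h1.trans h3)
    constructor
    · simp only [hg_def]; linarith [h4.1]
    · simp only [hg_def]; linarith [h4.2]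
  have haK : IntegrableOn a K μ :=
    IntegrableOn.of_bound hKlt ham.aestronglyMeasurable _ ha_bd
  have hgK : IntegrableOn g K μ := by
    refine IntegrableOn.of_bound hKlt hgm.aestronglyMeasurable (2 * ‖v‖ * R) ?_
    filter_upwards [hg_bd] with x hx
    rw [Real.norm_eq_abs, abs_le]
    constructor <;> linarith [hx.1, hx.2]
  -- good points after translation
  have hgoodv : ∀ᵐ x ∂μ.restrict Kv, DualSub f T (x + v) ∧ ‖T (x + v)‖ ≤ R := by
    have h1 : ∀ᵐ y ∂μ, y ∈ K → (DualSub f T y ∧ ‖T y‖ ≤ R ∧ ‖S y‖ ≤ R) :=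
      (ae_restrict_iff' hK).1 hgood
    have h2 : ∀ᵐ x ∂μ, x + v ∈ K → (DualSub f T (x + v) ∧ ‖T (x + v)‖ ≤ R ∧ ‖S (x + v)‖ ≤ R) :=
      (measurePreserving_add_right μ v).quasiMeasurePreserving.ae h1
    rw [ae_restrict_iff' hKvm]
    filter_upwards [h2] with x hx hxK
    exact ⟨(hx hxK.2).1, (hx hxK.2).2.1⟩
  have hgoodKv : ∀ᵐ x ∂μ.restrict Kv, DualSub f T x ∧ ‖T x‖ ≤ R ∧ ‖S x‖ ≤ R :=
    ae_restrict_of_ae_restrict_of_subset hKvK hgood
  -- integrability on Kv
  have haKv : IntegrableOn a Kv μ := haK.mono_set hKvK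
  have hgKv : IntegrableOn g Kv μ := hgK.mono_set hKvK
  have hgsKv : IntegrableOn (fun x => g (x + v)) Kv μ := by
    refine IntegrableOn.of_bound hKvfin
      (hgm.comp (measurable_add_const v)).aestronglyMeasurable (2 * ‖v‖ * R) ?_
    filter_upwards [hgoodv] with x hx
    have h1 : |inner ℝ v (T (x + v))| ≤ ‖v‖ * ‖T (x + v)‖ := abs_real_inner_le_norm _ _
    have h3 : ‖v‖ * ‖T (x + v)‖ ≤ ‖v‖ * R := mul_le_mul_of_nonneg_left hx.2 (norm_nonneg v)
    have h4 := abs_le.1 (h1.trans h3)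
    rw [Real.norm_eq_abs, abs_le]
    constructor
    · simp only [hg_def]; linarith [h4.1]
    · simp only [hg_def]; linarith [h4.2]
  have hbKv : IntegrableOn (gapFn f T S) Kv μ := hb.mono_set hKvK
  -- step 3
  have hb0 : 0 ≤ᵐ[μ.restrict K] gapFn f T S := by
    filter_upwards [hgood] with x hx
    exact gapFn_nonneg hx.1
  have step3 : ∫ x in Kv, gapFn f T S x ∂μ ≤ ∫ x in K, gapFn f T S x ∂μ :=
    setIntegral_mono_set hb hb0 (Filter.Eventually.of_forall hKvK)
  -- step 4: pointwise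
  have hpt : ∀ᵐ x ∂μ.restrict Kv, a x - (g (x + v) - g x) ≤ gapFn f T S x := by
    filter_upwards [hgoodv, hgoodKv] with x hxv hx
    have h1 : inner ℝ v (S x - T (x + v)) ≤ gapFn f T S x := gapFn_lower hx.1 hxv.1
    have h2 : 0 ≤ inner ℝ v (T (x + v) - T x) := dualSub_mono hx.1 hxv.1
    have h3 : 0 ≤ gapFn f T S x := gapFn_nonneg hx.1
    have e1 : g (x + v) - g x = inner ℝ v (T (x + v) - T x) := by
      simp only [hg_def]
      rw [inner_sub_right]; ring
    have e2 : inner ℝ v (S x - T x)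
        = inner ℝ v (S x - T (x + v)) + inner ℝ v (T (x + v) - T x) := by
      rw [← inner_add_right]; congr 1; abel
    rw [e1]
    have : a x ≤ gapFn f T S x + inner ℝ v (T (x + v) - T x) := by
      apply max_le
      · linarith
      · linarith
    linarith
  have step4 : ∫ x in Kv, (a x - (g (x + v) - g x)) ∂μ ≤ ∫ x in Kv, gapFn f T S x ∂μ :=
    setIntegral_mono_ae_restrict (haKv.sub (hgsKv.sub hgKv)) hbKv hpt
  have split4 : ∫ x in Kv, (a x - (g (x + v) - g x)) ∂μ
      = ∫ x in Kv, a x ∂μ - (∫ x in Kv, g (x + v) ∂μ - ∫ x in Kv, g x ∂μ) := by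
    have h1 : ∫ x in Kv, (a x - (g (x + v) - g x)) ∂μ
        = ∫ x in Kv, a x ∂μ - ∫ x in Kv, (g (x + v) - g x) ∂μ :=
      integral_sub haKv (hgsKv.sub hgKv)
    have h2 : ∫ x in Kv, (g (x + v) - g x) ∂μ
        = ∫ x in Kv, g (x + v) ∂μ - ∫ x in Kv, g x ∂μ :=
      integral_sub hgsKv hgKv
    rw [h1, h2]
  -- step 5
  have haD : ∫ x in D, a x ∂μ ≤ 2 * ‖v‖ * R * μ.real D := by
    have h1 : ∫ x in D, a x ∂μ ≤ ∫ x in D, (2 * ‖v‖ * R) ∂μ := by
      refine setIntegral_mono_ae_restrict (haK.mono_set hDK) (integrableOn_const hDfin.ne) ?_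
      have := ae_restrict_of_ae_restrict_of_subset hDK ha_bd
      filter_upwards [this] with x hx
      exact (le_abs_self _).trans hx
    rw [setIntegral_const, smul_eq_mul] at h1
    linarith
  have hgD : ∫ x in D, g x ∂μ ≤ 2 * ‖v‖ * R * μ.real D := by
    have h1 : ∫ x in D, g x ∂μ ≤ ∫ x in D, (2 * ‖v‖ * R) ∂μ := by
      refine setIntegral_mono_ae_restrict (hgK.mono_set hDK) (integrableOn_const hDfin.ne) ?_
      have := ae_restrict_of_ae_restrict_of_subset hDK hg_bd
      filter_upwards [this] with x hx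
      exact hx.2
    rw [setIntegral_const, smul_eq_mul] at h1
    linarith
  have haU : ∫ x in K, a x ∂μ = ∫ x in Kv, a x ∂μ + ∫ x in D, a x ∂μ := by
    rw [← hunion]
    exact setIntegral_union hdisj hDm (haK.mono_set hKvK) (haK.mono_set hDK)
  have hgU : ∫ x in K, g x ∂μ = ∫ x in Kv, g x ∂μ + ∫ x in D, g x ∂μ := by
    rw [← hunion]
    exact setIntegral_union hdisj hDm (hgK.mono_set hKvK) (hgK.mono_set hDK)
  -- step 6
  have hshift : ∫ x in Kv, g (x + v) ∂μ ≤ ∫ x in K, g x ∂μ :=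
    setIntegral_shift_le hK v hgK (hg_bd.mono (fun x hx => hx.1))
  have e : ∫ x in K, max (inner ℝ v (S x - T x)) 0 ∂μ = ∫ x in K, a x ∂μ := rfl
  rw [e]
  rw [split4] at step4
  nlinarith [step3, step4, haD, hgD, haU, hgU, hshift]

end direction

section shiftdeficit

variable [MeasurableSpace E] [BorelSpace E] [FiniteDimensional ℝ E]

theorem measureReal_diff_shift_le {μ : Measure E} [μ.IsAddHaarMeasure]
    {K : Set E} (hKc : IsCompact K) (hconv : Convex ℝ K) {x₀ : E} {r : ℝ} (hr : 0 < r)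
    (hball : Metric.closedBall x₀ r ⊆ K) {v : E} (hv : ‖v‖ ≤ r) :
    μ.real (K \ (fun x => x + v) ⁻¹' K)
      ≤ (Module.finrank ℝ E : ℝ) * (‖v‖ / r) * μ.real K := by
  set ε : ℝ := ‖v‖ / r with hε_def
  have hε0 : 0 ≤ ε := div_nonneg (norm_nonneg v) hr.le
  have hε1 : ε ≤ 1 := (div_le_one hr).2 hv
  have hx₀ : x₀ ∈ K := hball (Metric.mem_closedBall_self hr.le)
  have hKfin : μ K ≠ ⊤ := hKc.measure_lt_top.ne
  set K' : Set E := AffineMap.homothety x₀ (1 - ε) '' K with hK'_def
  have hK'c : IsCompact K' := hKc.image (AffineMap.homothety_continuous x₀ (1 - ε))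
  have hK'm : MeasurableSet K' := hK'c.measurableSet
  have hsub : K' ⊆ K ∩ (fun x => x + v) ⁻¹' K := by
    rintro y ⟨k, hk, rfl⟩
    have hy : AffineMap.homothety x₀ (1 - ε) k = (1 - ε) • k + ε • x₀ := by
      rw [AffineMap.homothety_apply]
      simp only [vsub_eq_sub, vadd_eq_add, smul_sub, sub_smul, one_smul]
      abel
    constructor
    · rw [hy]
      exact hconv hk hx₀ (by linarith) hε0 (by ring)
    · show AffineMap.homothety x₀ (1 - ε) k + v ∈ K
      rcases eq_or_lt_of_le hε0 with h0 | hpos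
      · have hv0 : v = 0 := by
          have : ‖v‖ = 0 := by
            have := h0.symm
            rw [hε_def, div_eq_zero_iff] at this
            rcases this with h | h
            · exact h
            · exact absurd h hr.ne'
          exact norm_eq_zero.1 this
        rw [hy, hv0, add_zero]
        exact hconv hk hx₀ (by linarith) hε0 (by ring)
      · have hz : x₀ + ε⁻¹ • v ∈ K := by
          apply hball
          rw [Metric.mem_closedBall, dist_eq_norm, add_sub_cancel_left, norm_smul,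
            Real.norm_eq_abs, abs_of_pos (inv_pos.2 hpos), hε_def, inv_div]
          have hvpos : 0 < ‖v‖ := by
            rw [hε_def] at hpos
            rcases (div_pos_iff.1 hpos) with h | h
            · exact h.1
            · exact absurd h.2 (not_lt.2 hr.le)
          rw [div_mul_cancel₀ _ hvpos.ne']
        have e : AffineMap.homothety x₀ (1 - ε) k + v = (1 - ε) • k + ε • (x₀ + ε⁻¹ • v) := by
          rw [hy, smul_add, smul_smul, mul_inv_cancel₀ hpos.ne', one_smul]
          abel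
        rw [e]
        exact hconv hk hz (by linarith) hε0 (by ring)
  have hK'K : K' ⊆ K := hsub.trans inter_subset_left
  have h1 : μ.real (K \ (fun x => x + v) ⁻¹' K) ≤ μ.real (K \ K') := by
    apply measureReal_mono _ (measure_ne_top_of_subset sdiff_subset hKfin)
    intro x hx
    exact ⟨hx.1, fun h => hx.2 (hsub h).2⟩
  have h2 : μ.real (K \ K') + μ.real (K ∩ K') = μ.real K :=
    measureReal_sdiff_add_inter hK'm hKfin
  have h3 : K ∩ K' = K' := inter_eq_right.2 hK'K
  have h4 : μ.real K' = (1 - ε) ^ Module.finrank ℝ E * μ.real K := by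
    rw [measureReal_def, hK'_def, Measure.addHaar_image_homothety, ENNReal.toReal_mul,
      ENNReal.toReal_ofReal (abs_nonneg _), abs_of_nonneg (pow_nonneg (by linarith) _)]
    rfl
  have h5 : 1 + (Module.finrank ℝ E : ℝ) * (-ε) ≤ (1 + (-ε)) ^ Module.finrank ℝ E :=
    one_add_mul_le_pow (by linarith) _
  have h6 : (0 : ℝ) ≤ μ.real K := measureReal_nonneg
  rw [h3, h4] at h2
  have h7 : (1 + (-ε)) ^ Module.finrank ℝ E = (1 - ε) ^ Module.finrank ℝ E := by ring_nf
  rw [h7] at h5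
  nlinarith [h1, h2, h5, h6]

end shiftdeficit

section alldirections

variable [MeasurableSpace E] [BorelSpace E] [SecondCountableTopology E]

theorem norm_le_sum_abs_inner {ι : Type*} [Fintype ι] (b : OrthonormalBasis ι ℝ E) (w : E) :
    ‖w‖ ≤ ∑ i, |inner ℝ (b i) w| := by
  have h := b.sum_repr' w
  calc ‖w‖ = ‖∑ i, inner ℝ (b i) w • b i‖ := by rw [h]
    _ ≤ ∑ i, ‖inner ℝ (b i) w • b i‖ := norm_sum_le _ _
    _ = ∑ i, |inner ℝ (b i) w| := by
        apply Finset.sum_congr rfl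
        intro i _
        rw [norm_smul, b.norm_eq_one, mul_one, Real.norm_eq_abs]

theorem gap_all_dir_lower {μ : Measure E} [μ.IsAddRightInvariant]
    {ι : Type*} [Fintype ι] (b : OrthonormalBasis ι ℝ E)
    {K : Set E} (hK : MeasurableSet K) (hKfin : μ K ≠ ⊤)
    {f : E → ℝ} {T S : E → E} {R : ℝ} (hR : 0 ≤ R) {t β : ℝ} (ht : 0 ≤ t)
    (hT : Measurable T) (hS : Measurable S)
    (hb : IntegrableOn (gapFn f T S) K μ)
    (hgood : ∀ᵐ x ∂μ.restrict K, DualSub f T x ∧ ‖T x‖ ≤ R ∧ ‖S x‖ ≤ R)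
    (hβ : ∀ v : E, ‖v‖ = t → μ.real (K \ (fun x => x + v) ⁻¹' K) ≤ β) :
    t * ∫ x in K, ‖S x - T x‖ ∂μ - 8 * (Fintype.card ι : ℝ) * t * R * β
      ≤ 2 * (Fintype.card ι : ℝ) * ∫ x in K, gapFn f T S x ∂μ := by
  have hKlt : μ K < ⊤ := lt_top_iff_ne_top.2 hKfin
  have hw_bd : ∀ᵐ x ∂μ.restrict K, ‖S x - T x‖ ≤ 2 * R := by
    filter_upwards [hgood] with x hx
    have := (norm_sub_le (S x) (T x)).trans (add_le_add hx.2.2 hx.2.1)
    linarith
  have hwm : Measurable fun x => S x - T x := hS.sub hT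
  -- each direction
  have hdir : ∀ i, t * ∫ x in K, |inner ℝ (b i) (S x - T x)| ∂μ - 8 * t * R * β
      ≤ 2 * ∫ x in K, gapFn f T S x ∂μ := by
    intro i
    have hn1 : ‖t • b i‖ = t := by
      rw [norm_smul, b.norm_eq_one, mul_one, Real.norm_eq_abs, abs_of_nonneg ht]
    have hn2 : ‖-(t • b i)‖ = t := by rw [norm_neg, hn1]
    have h1 := gap_dir_lower hK hKfin hR (t • b i) hT hS hb hgood
    have h2 := gap_dir_lower hK hKfin hR (-(t • b i)) hT hS hb hgood
    rw [hn1] at h1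
    rw [hn2] at h2
    have hβ1 := hβ _ hn1
    have hβ2 := hβ _ hn2
    have htR : 0 ≤ 4 * t * R := by positivity
    have hm1 : Measurable fun x => max (inner ℝ (t • b i) (S x - T x)) 0 :=
      (measurable_const.inner hwm).max measurable_const
    have hm2 : Measurable fun x => max (inner ℝ (-(t • b i)) (S x - T x)) 0 :=
      (measurable_const.inner hwm).max measurable_const
    have hbd1 : ∀ᵐ x ∂μ.restrict K, ‖max (inner ℝ (t • b i) (S x - T x)) 0‖ ≤ t * (2 * R) := by
      filter_upwards [hw_bd] with x hx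
      have h := abs_real_inner_le_norm (t • b i) (S x - T x)
      rw [hn1] at h
      have h' : |inner ℝ (t • b i) (S x - T x)| ≤ t * (2 * R) :=
        h.trans (mul_le_mul_of_nonneg_left hx ht)
      rw [Real.norm_eq_abs, abs_of_nonneg (le_max_right _ _)]
      exact max_le ((le_abs_self _).trans h') (by positivity)
    have hbd2 : ∀ᵐ x ∂μ.restrict K, ‖max (inner ℝ (-(t • b i)) (S x - T x)) 0‖ ≤ t * (2 * R) := by
      filter_upwards [hw_bd] with x hx
      have h := abs_real_inner_le_norm (-(t • b i)) (S x - T x)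
      rw [hn2] at h
      have h' : |inner ℝ (-(t • b i)) (S x - T x)| ≤ t * (2 * R) :=
        h.trans (mul_le_mul_of_nonneg_left hx ht)
      rw [Real.norm_eq_abs, abs_of_nonneg (le_max_right _ _)]
      exact max_le ((le_abs_self _).trans h') (by positivity)
    have hi1 : IntegrableOn (fun x => max (inner ℝ (t • b i) (S x - T x)) 0) K μ :=
      IntegrableOn.of_bound hKlt hm1.aestronglyMeasurable _ hbd1
    have hi2 : IntegrableOn (fun x => max (inner ℝ (-(t • b i)) (S x - T x)) 0) K μ :=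
      IntegrableOn.of_bound hKlt hm2.aestronglyMeasurable _ hbd2
    have hsum : ∫ x in K, max (inner ℝ (t • b i) (S x - T x)) 0 ∂μ
        + ∫ x in K, max (inner ℝ (-(t • b i)) (S x - T x)) 0 ∂μ
        = t * ∫ x in K, |inner ℝ (b i) (S x - T x)| ∂μ := by
      rw [← integral_add hi1 hi2, ← integral_const_mul]
      congr 1
      ext x
      rw [inner_neg_left, inner_smul_left]
      simp only [RCLike.conj_to_real]
      rcases le_total 0 (inner ℝ (b i) (S x - T x)) with h | h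
      · rw [abs_of_nonneg h, max_eq_left (mul_nonneg ht h),
          max_eq_right (by linarith [mul_nonneg ht h])]
        ring
      · rw [abs_of_nonpos h, max_eq_right (mul_nonpos_of_nonneg_of_nonpos ht h),
          max_eq_left (by linarith [mul_nonpos_of_nonneg_of_nonpos ht h])]
        ring
    nlinarith [h1, h2, hβ1, hβ2, hsum, mul_le_mul_of_nonneg_left hβ1 htR,
      mul_le_mul_of_nonneg_left hβ2 htR]
  -- sum over directions
  have hint : ∀ i, IntegrableOn (fun x => |inner ℝ (b i) (S x - T x)|) K μ := by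
    intro i
    refine IntegrableOn.of_bound hKlt
      ((measurable_const.inner hwm).abs).aestronglyMeasurable (2 * R) ?_
    filter_upwards [hw_bd] with x hx
    have h := abs_real_inner_le_norm (b i) (S x - T x)
    rw [b.norm_eq_one, one_mul] at h
    rw [Real.norm_eq_abs, abs_abs]
    exact h.trans hx
  have hnorm_int : IntegrableOn (fun x => ‖S x - T x‖) K μ := by
    refine IntegrableOn.of_bound hKlt hwm.norm.aestronglyMeasurable (2 * R) ?_
    filter_upwards [hw_bd] with x hx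
    rw [Real.norm_eq_abs, abs_of_nonneg (norm_nonneg _)]
    exact hx
  have hle : ∫ x in K, ‖S x - T x‖ ∂μ ≤ ∑ i, ∫ x in K, |inner ℝ (b i) (S x - T x)| ∂μ := by
    rw [← integral_finsetSum _ (fun i _ => hint i)]
    apply integral_mono hnorm_int (integrable_finsetSum _ (fun i _ => hint i))
    intro x
    exact norm_le_sum_abs_inner b _
  have hsumdir := Finset.sum_le_sum (fun i (_ : i ∈ Finset.univ) => hdir i)
  rw [Finset.sum_sub_distrib, ← Finset.mul_sum] at hsumdir
  simp only [Finset.sum_const, Finset.card_univ, nsmul_eq_mul] at hsumdir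
  nlinarith [hsumdir, mul_le_mul_of_nonneg_left hle ht]

end alldirections

section lonebound

variable [MeasurableSpace E] [BorelSpace E] [FiniteDimensional ℝ E]

/-- The key lower bound: the gap integral controls the square of the `L¹` distance. -/
theorem gap_lower_L1 {μ : Measure E} [μ.IsAddHaarMeasure]
    {K : Set E} (hKc : IsCompact K) (hconv : Convex ℝ K) {x₀ : E} {r : ℝ} (hr : 0 < r)
    (hball : Metric.closedBall x₀ r ⊆ K)
    {f : E → ℝ} {T S : E → E} {R : ℝ} (hR : 0 ≤ R)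
    (hT : Measurable T) (hS : Measurable S)
    (hb : IntegrableOn (gapFn f T S) K μ)
    (hgood : ∀ᵐ x ∂μ.restrict K, DualSub f T x ∧ ‖T x‖ ≤ R ∧ ‖S x‖ ≤ R) :
    r * (∫ x in K, ‖S x - T x‖ ∂μ) ^ 2
      ≤ 64 * (Module.finrank ℝ E : ℝ) ^ 3 * R * μ.real K * ∫ x in K, gapFn f T S x ∂μ := by
  have hK : MeasurableSet K := hKc.measurableSet
  have hKfin : μ K ≠ ⊤ := hKc.measure_lt_top.ne
  have hKlt : μ K < ⊤ := hKc.measure_lt_top
  set n : ℝ := (Module.finrank ℝ E : ℝ) with hn_def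
  set V : ℝ := μ.real K with hV_def
  set I : ℝ := ∫ x in K, ‖S x - T x‖ ∂μ with hI_def
  set G : ℝ := ∫ x in K, gapFn f T S x ∂μ with hG_def
  have hn0 : 0 ≤ n := Nat.cast_nonneg _
  have hV0 : 0 ≤ V := measureReal_nonneg
  have hI0 : 0 ≤ I := integral_nonneg (fun x => norm_nonneg _)
  have hG0 : 0 ≤ G := by
    apply setIntegral_nonneg_of_ae_restrict
    filter_upwards [hgood] with x hx
    exact gapFn_nonneg hx.1
  -- I ≤ 2 R V
  have hI_le : I ≤ 2 * R * V := by
    have hw_bd : ∀ᵐ x ∂μ.restrict K, ‖S x - T x‖ ≤ 2 * R := by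
      filter_upwards [hgood] with x hx
      have := (norm_sub_le (S x) (T x)).trans (add_le_add hx.2.2 hx.2.1)
      linarith
    have hnorm_int : IntegrableOn (fun x => ‖S x - T x‖) K μ := by
      refine IntegrableOn.of_bound hKlt (hS.sub hT).norm.aestronglyMeasurable (2 * R) ?_
      filter_upwards [hw_bd] with x hx
      rw [Real.norm_eq_abs, abs_of_nonneg (norm_nonneg _)]
      exact hx
    have h1 : I ≤ ∫ x in K, (2 * R) ∂μ :=
      setIntegral_mono_ae_restrict hnorm_int (integrableOn_const hKfin) hw_bd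
    rw [setIntegral_const, smul_eq_mul] at h1
    linarith
  -- the basic inequality for every t in [0, r]
  have key : ∀ t : ℝ, 0 ≤ t → t ≤ r → t * I - 8 * n * t * R * (n * (t / r) * V) ≤ 2 * n * G := by
    intro t ht htr
    have h := gap_all_dir_lower (μ := μ) (stdOrthonormalBasis ℝ E) hK hKfin hR ht hT hS hb hgood
      (β := n * (t / r) * V) (by
        intro v hv
        have := measureReal_diff_shift_le (μ := μ) hKc hconv hr hball (v := v) (by rw [hv]; exact htr)
        rw [hv] at this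
        exact this)
    simpa [Fintype.card_fin] using h
  -- case analysis
  by_cases hdeg : n ^ 2 * R * V = 0
  · -- degenerate: I = 0
    have hI_zero : I = 0 := by
      rcases mul_eq_zero.1 hdeg with h | h
      · rcases mul_eq_zero.1 h with h | h
        · have hn : n = 0 := by
            exact pow_eq_zero_iff (two_ne_zero) |>.1 h
          have := key r hr.le le_rfl
          rw [hn] at this
          simp only [mul_zero, zero_mul, sub_zero] at this
          nlinarith
        · rw [h] at hI_le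
          linarith
      · rw [h] at hI_le
        linarith
    rw [hI_zero]
    have : 0 ≤ 64 * n ^ 3 * R * V * G := by positivity
    simpa using this
  · have hpos : 0 < n ^ 2 * R * V := lt_of_le_of_ne (by positivity) (Ne.symm hdeg)
    have hnpos : 0 < n := by
      rcases eq_or_lt_of_le hn0 with h | h
      · rw [← h] at hpos; simp at hpos
      · exact h
    have hRpos : 0 < R := by
      rcases eq_or_lt_of_le hR with h | h
      · rw [← h] at hpos; simp at hpos
      · exact h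
    have hVpos : 0 < V := by
      rcases eq_or_lt_of_le hV0 with h | h
      · rw [← h] at hpos; simp at hpos
      · exact h
    have hn1 : 1 ≤ n := by
      have : 0 < Module.finrank ℝ E := by
        rw [hn_def] at hnpos
        exact_mod_cast hnpos
      rw [hn_def]
      exact_mod_cast this
    set t : ℝ := r * I / (16 * n ^ 2 * R * V) with ht_def
    have hden : 0 < 16 * n ^ 2 * R * V := by positivity
    have ht0 : 0 ≤ t := div_nonneg (mul_nonneg hr.le hI0) hden.le
    have htr : t ≤ r := by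
      rw [ht_def, div_le_iff₀ hden]
      have h1 : I ≤ 16 * n ^ 2 * R * V := by
        have : 2 * R * V ≤ 16 * n ^ 2 * R * V := by
          have hRV : 0 ≤ R * V := mul_nonneg hR hV0
          nlinarith [mul_nonneg hRV (sq_nonneg (n - 1)), mul_nonneg hRV hn0]
        linarith
      nlinarith
    have hk := key t ht0 htr
    have e : t * I - 8 * n * t * R * (n * (t / r) * V) = r * I ^ 2 / (32 * n ^ 2 * R * V) := by
      rw [ht_def]
      field_simp
      ring
    rw [e, div_le_iff₀ (by positivity)] at hk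
    nlinarith

end lonebound

section upper

variable [MeasurableSpace E] [BorelSpace E] [SecondCountableTopology E]

theorem gapFn_measurable {f : E → ℝ} (hf : Continuous f)
    {T S : E → E} (hT : Measurable T) (hS : Measurable S) :
    Measurable (gapFn f T S) := by
  show Measurable (fun x => f (S x) - f (T x) - inner ℝ x (S x - T x))
  exact ((hf.measurable.comp hS).sub (hf.measurable.comp hT)).sub
    (measurable_id.inner (hS.sub hT))

theorem gapFn_abs_le {RK R : ℝ} {L : NNReal} {f : E → ℝ} (hf : LipschitzWith L f)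
    {T S : E → E} {x : E} (hx : ‖x‖ ≤ RK) (hTx : ‖T x‖ ≤ R) (hSx : ‖S x‖ ≤ R) :
    |gapFn f T S x| ≤ L * (2 * R) + RK * (2 * R) := by
  have hw : ‖S x - T x‖ ≤ 2 * R := by
    have := (norm_sub_le (S x) (T x)).trans (add_le_add hSx hTx)
    linarith
  have h1 : |f (S x) - f (T x)| ≤ L * (2 * R) := by
    have := hf.dist_le_mul (S x) (T x)
    rw [Real.dist_eq, dist_eq_norm] at this
    exact this.trans (mul_le_mul_of_nonneg_left hw L.coe_nonneg)
  have h2 : |inner ℝ x (S x - T x)| ≤ RK * (2 * R) := by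
    have := abs_real_inner_le_norm x (S x - T x)
    exact this.trans (mul_le_mul hx hw (norm_nonneg _) ((norm_nonneg x).trans hx))
  show |f (S x) - f (T x) - inner ℝ x (S x - T x)| ≤ _
  have := abs_sub (f (S x) - f (T x)) (inner ℝ x (S x - T x))
  linarith

theorem gapFn_integrable {ρ : Measure E} [IsFiniteMeasure ρ] {RK R : ℝ} {L : NNReal}
    (hρK : ∀ᵐ x ∂ρ, ‖x‖ ≤ RK) {f : E → ℝ} (hf : LipschitzWith L f)
    {T S : E → E} (hT : Measurable T) (hS : Measurable S)
    (hTb : ∀ᵐ x ∂ρ, ‖T x‖ ≤ R) (hSb : ∀ᵐ x ∂ρ, ‖S x‖ ≤ R) :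
    Integrable (gapFn f T S) ρ := by
  refine Integrable.of_bound (gapFn_measurable hf.continuous hT hS).aestronglyMeasurable
    (L * (2 * R) + RK * (2 * R)) ?_
  filter_upwards [hρK, hTb, hSb] with x hx hTx hSx
  rw [Real.norm_eq_abs]
  exact gapFn_abs_le hf hx hTx hSx

theorem gap_upper {ρ : Measure E} [IsFiniteMeasure ρ] {RK R : ℝ} {L : NNReal}
    (hρK : ∀ᵐ x ∂ρ, ‖x‖ ≤ RK)
    {f g : E → ℝ} (hf : LipschitzWith L f) (hg : LipschitzWith L g)
    {T S : E → E} (hT : Measurable T) (hS : Measurable S)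
    (hgoodT : ∀ᵐ x ∂ρ, DualSub f T x ∧ ‖T x‖ ≤ R)
    (hgoodS : ∀ᵐ x ∂ρ, DualSub g S x ∧ ‖S x‖ ≤ R)
    {π : Measure (E × E)} (h1 : π.fst = ρ.map T) (h2 : π.snd = ρ.map S) :
    ∫ x, gapFn f T S x ∂ρ ≤ 2 * L * ∫ p, ‖p.1 - p.2‖ ∂π := by
  have hTb : ∀ᵐ x ∂ρ, ‖T x‖ ≤ R := hgoodT.mono (fun x hx => hx.2)
  have hSb : ∀ᵐ x ∂ρ, ‖S x‖ ≤ R := hgoodS.mono (fun x hx => hx.2)
  have hb : Integrable (gapFn f T S) ρ := gapFn_integrable hρK hf hT hS hTb hSb
  have hb' : Integrable (gapFn g S T) ρ := gapFn_integrable hρK hg hS hT hSb hTb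
  set h : E → ℝ := fun y => f y - g y with hh_def
  have hhc : Continuous h := hf.continuous.sub hg.continuous
  have hhl : ∀ y z, |h y - h z| ≤ 2 * L * ‖y - z‖ := by
    intro y z
    have e1 := hf.dist_le_mul y z
    have e2 := hg.dist_le_mul y z
    rw [Real.dist_eq, dist_eq_norm] at e1 e2
    have : h y - h z = (f y - f z) - (g y - g z) := by simp only [hh_def]; ring
    rw [this]
    have := abs_sub (f y - f z) (g y - g z)
    linarith
  -- pointwise identity
  have hid : ∀ x, gapFn f T S x + gapFn g S T x = h (S x) - h (T x) := by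
    intro x
    simp only [gapFn, hh_def]
    have : inner ℝ x (T x - S x) = - inner ℝ x (S x - T x) := by
      rw [← inner_neg_right]; congr 1; abel
    rw [this]; ring
  have hb'0 : 0 ≤ᵐ[ρ] gapFn g S T := by
    filter_upwards [hgoodS] with x hx
    exact gapFn_nonneg hx.1
  have step1 : ∫ x, gapFn f T S x ∂ρ ≤ ∫ x, (h (S x) - h (T x)) ∂ρ := by
    have : ∫ x, (h (S x) - h (T x)) ∂ρ = ∫ x, gapFn f T S x ∂ρ + ∫ x, gapFn g S T x ∂ρ := by
      rw [← integral_add hb hb']
      congr 1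
      ext x
      exact (hid x).symm
    rw [this]
    have := integral_nonneg_of_ae hb'0
    linarith
  -- bounds for h ∘ S, h ∘ T
  have hhS : Integrable (fun x => h (S x)) ρ := by
    refine Integrable.of_bound (hhc.measurable.comp hS).aestronglyMeasurable
      (|h 0| + 2 * L * R) ?_
    filter_upwards [hSb] with x hx
    rw [Real.norm_eq_abs]
    have e := hhl (S x) 0
    rw [sub_zero] at e
    have e' : 2 * (L : ℝ) * ‖S x‖ ≤ 2 * L * R :=
      mul_le_mul_of_nonneg_left hx (by positivity)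
    have := abs_sub_abs_le_abs_sub (h (S x)) (h 0)
    linarith
  have hhT : Integrable (fun x => h (T x)) ρ := by
    refine Integrable.of_bound (hhc.measurable.comp hT).aestronglyMeasurable
      (|h 0| + 2 * L * R) ?_
    filter_upwards [hTb] with x hx
    rw [Real.norm_eq_abs]
    have e := hhl (T x) 0
    rw [sub_zero] at e
    have e' : 2 * (L : ℝ) * ‖T x‖ ≤ 2 * L * R :=
      mul_le_mul_of_nonneg_left hx (by positivity)
    have := abs_sub_abs_le_abs_sub (h (T x)) (h 0)
    linarith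
  -- transfer to π
  have hπsnd : π.map Prod.snd = ρ.map S := h2
  have hπfst : π.map Prod.fst = ρ.map T := h1
  have hS2 : ∫ x, h (S x) ∂ρ = ∫ p, h p.2 ∂π := by
    rw [← integral_map hS.aemeasurable hhc.aestronglyMeasurable, ← hπsnd,
      integral_map measurable_snd.aemeasurable hhc.aestronglyMeasurable]
  have hT2 : ∫ x, h (T x) ∂ρ = ∫ p, h p.1 ∂π := by
    rw [← integral_map hT.aemeasurable hhc.aestronglyMeasurable, ← hπfst,
      integral_map measurable_fst.aemeasurable hhc.aestronglyMeasurable]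
  have hiS : Integrable (fun p : E × E => h p.2) π := by
    have : Integrable h (π.map Prod.snd) := by
      rw [hπsnd]
      exact (integrable_map_measure hhc.aestronglyMeasurable hS.aemeasurable).2 hhS
    exact (integrable_map_measure hhc.aestronglyMeasurable measurable_snd.aemeasurable).1 this
  have hiT : Integrable (fun p : E × E => h p.1) π := by
    have : Integrable h (π.map Prod.fst) := by
      rw [hπfst]
      exact (integrable_map_measure hhc.aestronglyMeasurable hT.aemeasurable).2 hhT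
    exact (integrable_map_measure hhc.aestronglyMeasurable measurable_fst.aemeasurable).1 this
  -- π is finite and concentrated on bounded points
  have hπfin : IsFiniteMeasure π := by
    constructor
    have : π Set.univ = ρ Set.univ := by
      rw [← Measure.fst_univ, h1, Measure.map_apply hT MeasurableSet.univ, Set.preimage_univ]
    rw [this]
    exact measure_lt_top ρ _
  have hp1 : ∀ᵐ p ∂π, ‖p.1‖ ≤ R := by
    have : ∀ᵐ y ∂(π.map Prod.fst), ‖y‖ ≤ R := by
      rw [hπfst]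
      exact (ae_map_iff hT.aemeasurable (measurableSet_le measurable_norm measurable_const)).2 hTb
    exact ae_of_ae_map measurable_fst.aemeasurable this
  have hp2 : ∀ᵐ p ∂π, ‖p.2‖ ≤ R := by
    have : ∀ᵐ y ∂(π.map Prod.snd), ‖y‖ ≤ R := by
      rw [hπsnd]
      exact (ae_map_iff hS.aemeasurable (measurableSet_le measurable_norm measurable_const)).2 hSb
    exact ae_of_ae_map measurable_snd.aemeasurable this
  have hnorm : Integrable (fun p : E × E => ‖p.1 - p.2‖) π := by
    refine Integrable.of_bound (measurable_fst.sub measurable_snd).norm.aestronglyMeasurable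
      (2 * R) ?_
    filter_upwards [hp1, hp2] with p h1p h2p
    rw [Real.norm_eq_abs, abs_of_nonneg (norm_nonneg _)]
    have := (norm_sub_le p.1 p.2).trans (add_le_add h1p h2p)
    linarith
  have step2 : ∫ x, (h (S x) - h (T x)) ∂ρ ≤ 2 * L * ∫ p, ‖p.1 - p.2‖ ∂π := by
    rw [integral_sub hhS hhT, hS2, hT2, ← integral_sub hiS hiT, ← integral_const_mul]
    apply integral_mono (hiS.sub hiT) (hnorm.const_mul _)
    intro p
    have := hhl p.2 p.1
    rw [← norm_neg, neg_sub] at this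
    exact (le_abs_self _).trans this
  exact step1.trans step2

end upper

section potential

variable [MeasurableSpace E]

/-- From a primal potential with `T x` an a.e. subgradient, build a Lipschitz dual potential. -/
theorem exists_dual_potential {ρ : Measure E} {RK : NNReal}
    (hρK : ∀ᵐ x ∂ρ, ‖x‖ ≤ RK)
    {T : E → E} {φ : E → ℝ}
    (hφ : ∀ᵐ x ∂ρ, ∀ z, φ x + inner ℝ (T x) (z - x) ≤ φ z) :
    ∃ f : E → ℝ, LipschitzWith RK f ∧ ∀ᵐ x ∂ρ, DualSub f T x := by
  set A : Set E := {x | ‖x‖ ≤ RK ∧ ∀ z, φ x + inner ℝ (T x) (z - x) ≤ φ z} with hA_def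
  have hA : ∀ᵐ x ∂ρ, x ∈ A := by
    filter_upwards [hρK, hφ] with x h1 h2
    exact ⟨h1, h2⟩
  rcases Set.eq_empty_or_nonempty A with hempty | ⟨x₀, hx₀⟩
  · refine ⟨fun _ => 0, (LipschitzWith.const (0 : ℝ)).weaken zero_le, ?_⟩
    filter_upwards [hA] with x hx
    rw [hempty] at hx
    exact absurd hx (Set.notMem_empty x)
  · have : Nonempty A := ⟨⟨x₀, hx₀⟩⟩
    set f : E → ℝ := fun y => ⨆ x : A, (inner ℝ (x : E) y - φ x) with hf_def
    have hbdd : ∀ y, BddAbove (Set.range fun x : A => inner ℝ (x : E) y - φ x) := by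
      intro y
      refine ⟨RK * ‖y‖ - (φ x₀ - ‖T x₀‖ * (2 * RK)), ?_⟩
      rintro _ ⟨⟨x, hx⟩, rfl⟩
      have h1 : inner ℝ x y ≤ RK * ‖y‖ :=
        (real_inner_le_norm x y).trans (mul_le_mul_of_nonneg_right hx.1 (norm_nonneg y))
      have h2 := hx₀.2 x
      have h3 : |inner ℝ (T x₀) (x - x₀)| ≤ ‖T x₀‖ * ‖x - x₀‖ := abs_real_inner_le_norm _ _
      have h4 : ‖x - x₀‖ ≤ 2 * RK := by
        have := (norm_sub_le x x₀).trans (add_le_add hx.1 hx₀.1)
        linarith
      have h5 : ‖T x₀‖ * ‖x - x₀‖ ≤ ‖T x₀‖ * (2 * RK) :=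
        mul_le_mul_of_nonneg_left h4 (norm_nonneg _)
      have h6 := (abs_le.1 (h3.trans h5)).1
      show inner ℝ x y - φ x ≤ _
      linarith
    have hle : ∀ x ∈ A, ∀ y, inner ℝ x y - φ x ≤ f y := by
      intro x hx y
      exact le_ciSup (hbdd y) ⟨x, hx⟩
    have hTx : ∀ x ∈ A, f (T x) ≤ inner ℝ x (T x) - φ x := by
      intro x hx
      apply ciSup_le
      rintro ⟨x', hx'⟩
      have h := hx.2 x'
      have e : inner ℝ (T x) (x' - x) = inner ℝ x' (T x) - inner ℝ x (T x) := by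
        rw [inner_sub_right, real_inner_comm (T x) x', real_inner_comm (T x) x]
      show inner ℝ x' (T x) - φ x' ≤ _
      linarith
    refine ⟨f, ?_, ?_⟩
    · apply LipschitzWith.of_le_add_mul
      intro y z
      apply ciSup_le
      rintro ⟨x, hx⟩
      have h1 := hle x hx z
      have e : inner ℝ x y = inner ℝ x z + inner ℝ x (y - z) := by
        rw [← inner_add_right]; congr 1; abel
      have h2 : inner ℝ x (y - z) ≤ RK * dist y z := by
        rw [dist_eq_norm]
        exact (real_inner_le_norm x (y - z)).trans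
          (mul_le_mul_of_nonneg_right hx.1 (norm_nonneg _))
      show inner ℝ x y - φ x ≤ _
      linarith
    · filter_upwards [hA] with x hx
      intro y
      have h1 := hle x hx y
      have h2 := hTx x hx
      have e : inner ℝ x (y - T x) = inner ℝ x y - inner ℝ x (T x) := inner_sub_right _ _ _
      linarith

end potential

section coupling

variable [MeasurableSpace E] [BorelSpace E] [SecondCountableTopology E]

theorem coupling_facts {ρ : Measure E} [IsFiniteMeasure ρ] {R : ℝ}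
    {T S : E → E} (hT : Measurable T) (hS : Measurable S)
    (hTb : ∀ᵐ x ∂ρ, ‖T x‖ ≤ R) (hSb : ∀ᵐ x ∂ρ, ‖S x‖ ≤ R)
    {π : Measure (E × E)} (h1 : π.fst = ρ.map T) (h2 : π.snd = ρ.map S) :
    π Set.univ = ρ Set.univ ∧ ∀ᵐ p ∂π, ‖p.1 - p.2‖ ≤ 2 * R := by
  have hπsnd : π.map Prod.snd = ρ.map S := h2
  have hπfst : π.map Prod.fst = ρ.map T := h1
  constructor
  · rw [← Measure.fst_univ, h1, Measure.map_apply hT MeasurableSet.univ, Set.preimage_univ]
  · have hp1 : ∀ᵐ p ∂π, ‖p.1‖ ≤ R := by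
      have : ∀ᵐ y ∂(π.map Prod.fst), ‖y‖ ≤ R := by
        rw [hπfst]
        exact (ae_map_iff hT.aemeasurable
          (measurableSet_le measurable_norm measurable_const)).2 hTb
      exact ae_of_ae_map measurable_fst.aemeasurable this
    have hp2 : ∀ᵐ p ∂π, ‖p.2‖ ≤ R := by
      have : ∀ᵐ y ∂(π.map Prod.snd), ‖y‖ ≤ R := by
        rw [hπsnd]
        exact (ae_map_iff hS.aemeasurable
          (measurableSet_le measurable_norm measurable_const)).2 hSb
      exact ae_of_ae_map measurable_snd.aemeasurable this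
    filter_upwards [hp1, hp2] with p h1p h2p
    have := (norm_sub_le p.1 p.2).trans (add_le_add h1p h2p)
    linarith

/-- Cauchy-Schwarz for a probability coupling with bounded displacement. -/
theorem sq_integral_le_integral_sq {π : Measure (E × E)} [IsProbabilityMeasure π] {R : ℝ}
    (hbd : ∀ᵐ p ∂π, ‖p.1 - p.2‖ ≤ 2 * R) :
    (∫ p, ‖p.1 - p.2‖ ∂π) ^ 2 ≤ ∫ p, ‖p.1 - p.2‖ ^ 2 ∂π := by
  set c : ℝ := ∫ p, ‖p.1 - p.2‖ ∂π with hc_def
  have hm : Measurable fun p : E × E => ‖p.1 - p.2‖ := (measurable_fst.sub measurable_snd).norm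
  have hu : Integrable (fun p : E × E => ‖p.1 - p.2‖) π := by
    refine Integrable.of_bound hm.aestronglyMeasurable (2 * R) ?_
    filter_upwards [hbd] with p hp
    rw [Real.norm_eq_abs, abs_of_nonneg (norm_nonneg _)]
    exact hp
  have hu2 : Integrable (fun p : E × E => ‖p.1 - p.2‖ ^ 2) π := by
    refine Integrable.of_bound (hm.pow_const 2).aestronglyMeasurable ((2 * R) ^ 2) ?_
    filter_upwards [hbd] with p hp
    rw [Real.norm_eq_abs, abs_of_nonneg (sq_nonneg _)]
    exact pow_le_pow_left₀ (norm_nonneg _) hp 2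
  have h0 : 0 ≤ ∫ p, (‖p.1 - p.2‖ - c) ^ 2 ∂π := integral_nonneg (fun p => sq_nonneg _)
  have e : ∫ p, (‖p.1 - p.2‖ - c) ^ 2 ∂π = ∫ p, ‖p.1 - p.2‖ ^ 2 ∂π - c ^ 2 := by
    have e1 : (fun p : E × E => (‖p.1 - p.2‖ - c) ^ 2)
        = fun p => ‖p.1 - p.2‖ ^ 2 - (2 * c) * ‖p.1 - p.2‖ + c ^ 2 := by
      ext p; ring
    have e2 : ∫ p : E × E, (‖p.1 - p.2‖ ^ 2 - (2 * c) * ‖p.1 - p.2‖ + c ^ 2) ∂π
        = ∫ p : E × E, (‖p.1 - p.2‖ ^ 2 - (2 * c) * ‖p.1 - p.2‖) ∂π + ∫ _p : E × E, c ^ 2 ∂π :=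
      integral_add (hu2.sub (hu.const_mul (2 * c))) (integrable_const _)
    have e3 : ∫ p : E × E, (‖p.1 - p.2‖ ^ 2 - (2 * c) * ‖p.1 - p.2‖) ∂π
        = ∫ p : E × E, ‖p.1 - p.2‖ ^ 2 ∂π - ∫ p : E × E, (2 * c) * ‖p.1 - p.2‖ ∂π :=
      integral_sub hu2 (hu.const_mul (2 * c))
    rw [e1, e2, e3, integral_const_mul, integral_const]
    simp only [probReal_univ, one_smul]
    rw [← hc_def]
    ring
  linarith

end coupling

section main

variable [MeasurableSpace E] [BorelSpace E] [FiniteDimensional ℝ E]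

/-- The core stability estimate: `L¹` distance squared is controlled by the `W₁` cost of any
coupling. -/
theorem stability_L1 {μ : Measure E} [μ.IsAddHaarMeasure]
    {K : Set E} (hKc : IsCompact K) (hconv : Convex ℝ K) {x₀ : E} {r : ℝ} (hr : 0 < r)
    (hball : Metric.closedBall x₀ r ⊆ K) {RK : NNReal} (hRK : ∀ x ∈ K, ‖x‖ ≤ RK)
    {R : ℝ} (hR : 0 ≤ R)
    {T S : E → E} (hT : Measurable T) (hS : Measurable S)
    {φ ψ : E → ℝ}
    (hφ : ∀ᵐ x ∂(ProbabilityTheory.cond μ K), ∀ z, φ x + inner ℝ (T x) (z - x) ≤ φ z)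
    (hψ : ∀ᵐ x ∂(ProbabilityTheory.cond μ K), ∀ z, ψ x + inner ℝ (S x) (z - x) ≤ ψ z)
    (hTb : ∀ᵐ x ∂(ProbabilityTheory.cond μ K), ‖T x‖ ≤ R)
    (hSb : ∀ᵐ x ∂(ProbabilityTheory.cond μ K), ‖S x‖ ≤ R)
    {π : Measure (E × E)} (h1 : π.fst = (ProbabilityTheory.cond μ K).map T)
    (h2 : π.snd = (ProbabilityTheory.cond μ K).map S) :
    r * (∫ x, ‖S x - T x‖ ∂(ProbabilityTheory.cond μ K)) ^ 2
      ≤ 128 * (Module.finrank ℝ E : ℝ) ^ 3 * R * RK * ∫ p, ‖p.1 - p.2‖ ∂π := by
  have hK : MeasurableSet K := hKc.measurableSet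
  have hKfin : μ K ≠ ⊤ := hKc.measure_lt_top.ne
  have hKpos : μ K ≠ 0 := by
    have h := Metric.measure_closedBall_pos μ x₀ hr
    exact (lt_of_lt_of_le h (measure_mono hball)).ne'
  have hc0 : (μ K)⁻¹ ≠ 0 := ENNReal.inv_ne_zero.2 hKfin
  have hctop : (μ K)⁻¹ ≠ ⊤ := ENNReal.inv_ne_top.2 hKpos
  set ρ : Measure E := ProbabilityTheory.cond μ K with hρ_def
  have hρ_eq : ρ = (μ K)⁻¹ • μ.restrict K := rfl
  have : IsProbabilityMeasure ρ := ProbabilityTheory.cond_isProbabilityMeasure_of_finite hKpos hKfin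
  have hae : ∀ {p : E → Prop}, (∀ᵐ x ∂ρ, p x) ↔ ∀ᵐ x ∂μ.restrict K, p x := by
    intro p
    rw [hρ_eq, ae_iff, ae_iff, Measure.smul_apply, smul_eq_mul, mul_eq_zero]
    constructor
    · intro h
      rcases h with h | h
      · exact absurd h hc0
      · exact h
    · intro h
      exact Or.inr h
  have hρK : ∀ᵐ x ∂ρ, ‖x‖ ≤ RK := by
    rw [hae]
    filter_upwards [ae_restrict_mem hK] with x hx
    exact hRK x hx
  obtain ⟨f, hf, hfT⟩ := exists_dual_potential hρK hφ
  obtain ⟨g, hg, hgS⟩ := exists_dual_potential hρK hψ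
  have hup : ∫ x, gapFn f T S x ∂ρ ≤ 2 * RK * ∫ p, ‖p.1 - p.2‖ ∂π :=
    gap_upper hρK hf hg hT hS (hfT.and hTb) (hgS.and hSb) h1 h2
  have hbint : Integrable (gapFn f T S) ρ := gapFn_integrable hρK hf hT hS hTb hSb
  have hb : IntegrableOn (gapFn f T S) K μ := by
    rw [hρ_eq] at hbint
    exact (integrable_smul_measure hc0 hctop).1 hbint
  have hgood : ∀ᵐ x ∂μ.restrict K, DualSub f T x ∧ ‖T x‖ ≤ R ∧ ‖S x‖ ≤ R := by
    rw [← hae]
    filter_upwards [hfT, hTb, hSb] with x h1 h2 h3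
    exact ⟨h1, h2, h3⟩
  have hlow := gap_lower_L1 (μ := μ) hKc hconv hr hball hR hT hS hb hgood
  set V : ℝ := μ.real K with hV_def
  have hVpos : 0 < V := ENNReal.toReal_pos hKpos hKfin
  have hint : ∀ h : E → ℝ, ∫ x, h x ∂ρ = V⁻¹ * ∫ x in K, h x ∂μ := by
    intro h
    rw [hρ_eq, integral_smul_measure, smul_eq_mul, ENNReal.toReal_inv]
    rfl
  have e1 : ∫ x in K, ‖S x - T x‖ ∂μ = V * ∫ x, ‖S x - T x‖ ∂ρ := by
    rw [hint]; field_simp
  have e2 : ∫ x in K, gapFn f T S x ∂μ = V * ∫ x, gapFn f T S x ∂ρ := by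
    rw [hint]; field_simp
  rw [e1, e2] at hlow
  set I : ℝ := ∫ x, ‖S x - T x‖ ∂ρ with hI_def
  set G : ℝ := ∫ x, gapFn f T S x ∂ρ with hG_def
  set c₁ : ℝ := ∫ p, ‖p.1 - p.2‖ ∂π with hc₁_def
  have hn0 : (0 : ℝ) ≤ (Module.finrank ℝ E : ℝ) := Nat.cast_nonneg _
  have hRK0 : (0 : ℝ) ≤ RK := RK.coe_nonneg
  -- hlow : r * (V * I)^2 ≤ 64 n^3 R V (V G)
  have hV2 : 0 < V ^ 2 := by positivity
  have h3 : r * I ^ 2 ≤ 64 * (Module.finrank ℝ E : ℝ) ^ 3 * R * G := by
    have : V ^ 2 * (r * I ^ 2) ≤ V ^ 2 * (64 * (Module.finrank ℝ E : ℝ) ^ 3 * R * G) := by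
      nlinarith [hlow]
    exact le_of_mul_le_mul_left this hV2
  have h4 : 64 * (Module.finrank ℝ E : ℝ) ^ 3 * R * G
      ≤ 64 * (Module.finrank ℝ E : ℝ) ^ 3 * R * (2 * RK * c₁) :=
    mul_le_mul_of_nonneg_left hup (by positivity)
  nlinarith [h3, h4]

end main

section mainpoly

variable [MeasurableSpace E] [BorelSpace E] [FiniteDimensional ℝ E]

/-- Polynomial form of the `L²`/`W₂` stability estimate with exponent `1/4`. -/
theorem stability_L2_poly {μ : Measure E} [μ.IsAddHaarMeasure]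
    {K : Set E} (hKc : IsCompact K) (hconv : Convex ℝ K) {x₀ : E} {r : ℝ} (hr : 0 < r)
    (hball : Metric.closedBall x₀ r ⊆ K) {RK : NNReal} (hRK : ∀ x ∈ K, ‖x‖ ≤ RK)
    {R : ℝ} (hR : 0 ≤ R)
    {T S : E → E} (hT : Measurable T) (hS : Measurable S)
    {φ ψ : E → ℝ}
    (hφ : ∀ᵐ x ∂(ProbabilityTheory.cond μ K), ∀ z, φ x + inner ℝ (T x) (z - x) ≤ φ z)
    (hψ : ∀ᵐ x ∂(ProbabilityTheory.cond μ K), ∀ z, ψ x + inner ℝ (S x) (z - x) ≤ ψ z)
    (hTb : ∀ᵐ x ∂(ProbabilityTheory.cond μ K), ‖T x‖ ≤ R)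
    (hSb : ∀ᵐ x ∂(ProbabilityTheory.cond μ K), ‖S x‖ ≤ R)
    {π : Measure (E × E)} (h1 : π.fst = (ProbabilityTheory.cond μ K).map T)
    (h2 : π.snd = (ProbabilityTheory.cond μ K).map S) :
    r ^ 2 * (∫ x, ‖T x - S x‖ ^ 2 ∂(ProbabilityTheory.cond μ K)) ^ 4
      ≤ 16 * R ^ 4 * (128 * (Module.finrank ℝ E : ℝ) ^ 3 * R * RK) ^ 2
          * ∫ p, ‖p.1 - p.2‖ ^ 2 ∂π := by
  have hKfin : μ K ≠ ⊤ := hKc.measure_lt_top.ne
  have hKpos : μ K ≠ 0 := by
    have h := Metric.measure_closedBall_pos μ x₀ hr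
    exact (lt_of_lt_of_le h (measure_mono hball)).ne'
  set ρ : Measure E := ProbabilityTheory.cond μ K with hρ_def
  have hprob : IsProbabilityMeasure ρ :=
    ProbabilityTheory.cond_isProbabilityMeasure_of_finite hKpos hKfin
  have hL1 := stability_L1 (μ := μ) hKc hconv hr hball hRK hR hT hS hφ hψ hTb hSb h1 h2
  rw [← hρ_def] at hL1
  set I : ℝ := ∫ x, ‖S x - T x‖ ∂ρ with hI_def
  set J : ℝ := ∫ x, ‖T x - S x‖ ^ 2 ∂ρ with hJ_def
  set c₁ : ℝ := ∫ p, ‖p.1 - p.2‖ ∂π with hc₁_def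
  set c₂ : ℝ := ∫ p, ‖p.1 - p.2‖ ^ 2 ∂π with hc₂_def
  set A : ℝ := 128 * (Module.finrank ℝ E : ℝ) ^ 3 * R * RK with hA_def
  have hA0 : 0 ≤ A := by
    have h1 : (0 : ℝ) ≤ (Module.finrank ℝ E : ℝ) := Nat.cast_nonneg _
    have h2 : (0 : ℝ) ≤ RK := RK.coe_nonneg
    positivity
  have hI0 : 0 ≤ I := integral_nonneg (fun x => norm_nonneg _)
  have hJ0 : 0 ≤ J := integral_nonneg (fun x => sq_nonneg _)
  have hc₁0 : 0 ≤ c₁ := integral_nonneg (fun p => norm_nonneg _)
  -- (a) J ≤ 2 R I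
  have hw_bd : ∀ᵐ x ∂ρ, ‖S x - T x‖ ≤ 2 * R := by
    filter_upwards [hTb, hSb] with x hx1 hx2
    have := (norm_sub_le (S x) (T x)).trans (add_le_add hx2 hx1)
    linarith
  have hwm : Measurable fun x => ‖S x - T x‖ := (hS.sub hT).norm
  have hnorm_int : Integrable (fun x => ‖S x - T x‖) ρ := by
    refine Integrable.of_bound hwm.aestronglyMeasurable (2 * R) ?_
    filter_upwards [hw_bd] with x hx
    rw [Real.norm_eq_abs, abs_of_nonneg (norm_nonneg _)]
    exact hx
  have hsq_int : Integrable (fun x => ‖T x - S x‖ ^ 2) ρ := by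
    refine Integrable.of_bound ((hT.sub hS).norm.pow_const 2).aestronglyMeasurable
      ((2 * R) ^ 2) ?_
    filter_upwards [hw_bd] with x hx
    rw [Real.norm_eq_abs, abs_of_nonneg (sq_nonneg _), norm_sub_rev]
    exact pow_le_pow_left₀ (norm_nonneg _) hx 2
  have hJ_le : J ≤ 2 * R * I := by
    have : J ≤ ∫ x, 2 * R * ‖S x - T x‖ ∂ρ := by
      apply integral_mono_ae hsq_int (hnorm_int.const_mul _)
      filter_upwards [hw_bd] with x hx
      show ‖T x - S x‖ ^ 2 ≤ 2 * R * ‖S x - T x‖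
      rw [norm_sub_rev, sq]
      exact mul_le_mul_of_nonneg_right hx (norm_nonneg _)
    rwa [integral_const_mul] at this
  -- (b) c₁² ≤ c₂
  have hfacts := coupling_facts hT hS hTb hSb h1 h2
  have hπprob : IsProbabilityMeasure π := ⟨by rw [hfacts.1]; exact measure_univ⟩
  have hcs : c₁ ^ 2 ≤ c₂ := sq_integral_le_integral_sq hfacts.2
  -- combine
  have hRI : 0 ≤ 2 * R * I := by positivity
  have h4 : J ^ 4 ≤ (2 * R * I) ^ 4 := pow_le_pow_left₀ hJ0 hJ_le 4
  have h5 : (r * I ^ 2) ^ 2 ≤ (A * c₁) ^ 2 :=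
    pow_le_pow_left₀ (by positivity) hL1 2
  have h6 : r ^ 2 * J ^ 4 ≤ r ^ 2 * (2 * R * I) ^ 4 :=
    mul_le_mul_of_nonneg_left h4 (sq_nonneg r)
  have h7 : r ^ 2 * (2 * R * I) ^ 4 = 16 * R ^ 4 * (r * I ^ 2) ^ 2 := by ring
  have h8 : 16 * R ^ 4 * (r * I ^ 2) ^ 2 ≤ 16 * R ^ 4 * (A * c₁) ^ 2 :=
    mul_le_mul_of_nonneg_left h5 (by positivity)
  have h9 : 16 * R ^ 4 * (A * c₁) ^ 2 = 16 * R ^ 4 * A ^ 2 * c₁ ^ 2 := by ring
  have h10 : 16 * R ^ 4 * A ^ 2 * c₁ ^ 2 ≤ 16 * R ^ 4 * A ^ 2 * c₂ :=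
    mul_le_mul_of_nonneg_left hcs (by positivity)
  linarith

end mainpoly

end Vale.Agent.H20
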