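import Vale.Agent.H20.OTDefs

/-!
# Monge optimal maps for problem P074
-/

namespace Vale.Agent.H20

open MeasureTheory

/-- `T` is a quadratic optimal transport map from `ρ` to `μ` on `ℝ^d` (a Monge minimizer):
a Borel map pushing `ρ` forward to `μ` which minimizes the quadratic cost `∫ |x - T x|² dρ`
among all Borel maps pushing `ρ` forward to `μ`. -/
def IsOptimalMap {d : ℕ} (ρ μ : Measure (EuclideanSpace ℝ (Fin d)))
    (T : EuclideanSpace ℝ (Fin d) → EuclideanSpace ℝ (Fin d)) : Prop :=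
  Measurable T ∧ ρ.map T = μ ∧
    ∀ T' : EuclideanSpace ℝ (Fin d) → EuclideanSpace ℝ (Fin d), Measurable T' → ρ.map T' = μ →
      ∫⁻ x, ENNReal.ofReal (‖x - T x‖ ^ 2) ∂ρ ≤ ∫⁻ x, ENNReal.ofReal (‖x - T' x‖ ^ 2) ∂ρ

end Vale.Agent.H20
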