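import Vale.Agent.H32.OTSwap
import Vale.Agent.H20.OTDefs2
import Vale.Agent.H38.OTOptSwap
import Vale.Agent.H56.OTRock

/-!
# Optimal maps are Brenier maps (problem P074)

A Monge minimizer for the uniform measure on a compact convex set, with bounded target, is
almost everywhere a subgradient of a convex function.
-/

namespace Vale.Agent.H20

open MeasureTheory Set Filter Topology Metric

section cyc

variable {E : Type*} [NormedAddCommGroup E] [InnerProductSpace ℝ E] [FiniteDimensional ℝ E]
  [MeasurableSpace E] [BorelSpace E]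

/-- If a bounded Borel map satisfies the rearrangement inequality on `K` for every map `τ`
preserving the volume on `K`, then it is cyclically monotone on a set of full measure in `K`. -/
theorem cyclic_of_swap (K : Set E) (hKc : IsCompact K) (hconv : Convex ℝ K)
    (Tt : E → E) (hTt : Measurable Tt) (R : ℝ) (hTb : ∀ x, ‖Tt x‖ ≤ R)
    (hswap : ∀ τ : E → E, Measurable τ → (volume.restrict K).map τ = volume.restrict K →
      ∫ x in K, inner ℝ x (Tt (τ x)) ≤ ∫ x in K, inner ℝ x (Tt x)) :
    ∃ A : Set E, (∀ᵐ x ∂(volume.restrict K), x ∈ A) ∧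
      ∀ (n : ℕ) (p : Fin (n + 1) → E), (∀ i, p i ∈ A) →
        ∑ i, inner ℝ (Tt (p i)) (p (i + 1) - p i) ≤ 0 := by
  classical
  have hloc : LocallyIntegrable Tt (volume : Measure E) := by
    refine (locallyIntegrable_const R).mono hTt.aestronglyMeasurable (ae_of_all _ fun x => ?_)
    exact (hTb x).trans (le_abs_self R)
  have hL : ∀ N : ℕ, ∀ᵐ x ∂(volume : Measure E), ∀ (w : ℝ → E) (δ : ℝ → ℝ),
      Tendsto δ (𝓝[>] 0) (𝓝[>] 0) →
      (∀ᶠ j in 𝓝[>] (0 : ℝ), x ∈ closedBall (w j) ((N : ℝ) * δ j)) →
      Tendsto (fun j => ⨍ y in closedBall (w j) (δ j), Tt y) (𝓝[>] (0 : ℝ)) (𝓝 (Tt x)) := by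
    intro N
    filter_upwards [IsUnifLocDoublingMeasure.ae_tendsto_average (μ := (volume : Measure E))
      hloc (N : ℝ)] with x hx w δ h1 h2
    exact hx w δ h1 h2
  have hL' := ae_all_iff.2 hL
  have hint : ∀ᵐ x ∂(volume.restrict K), x ∈ interior K := by
    rw [ae_restrict_iff' hKc.measurableSet]
    have h0 : (volume : Measure E) (frontier K) = 0 := hconv.addHaar_frontier volume
    have h1 : ∀ᵐ x ∂(volume : Measure E), x ∉ frontier K := measure_eq_zero_iff_ae_notMem.1 h0
    filter_upwards [h1] with x hx hxK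
    by_contra hni
    exact hx ⟨subset_closure hxK, hni⟩
  refine ⟨{x | x ∈ interior K ∧ ∀ N : ℕ, ∀ (w : ℝ → E) (δ : ℝ → ℝ),
      Tendsto δ (𝓝[>] 0) (𝓝[>] 0) →
      (∀ᶠ j in 𝓝[>] (0 : ℝ), x ∈ closedBall (w j) ((N : ℝ) * δ j)) →
      Tendsto (fun j => ⨍ y in closedBall (w j) (δ j), Tt y) (𝓝[>] (0 : ℝ)) (𝓝 (Tt x))},
    ?_, ?_⟩
  · filter_upwards [hint, ae_restrict_of_ae hL'] with x h1 h2 using ⟨h1, h2⟩
  · intro n p hp
    rcases subsingleton_or_nontrivial E with hE | hE
    · have h0 : ∀ i, p (i + 1) - p i = 0 := fun i => Subsingleton.elim _ _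
      simp [h0]
    obtain ⟨e, he⟩ := exists_norm_eq E zero_le_one
    obtain ⟨c, hc⟩ : ∃ c : ℝ → Fin (n + 1) → E,
        c = fun r i => p i + (3 * ((i : ℕ) : ℝ) * r) • e := ⟨_, rfl⟩
    have hcdist : ∀ (r : ℝ), 0 < r → ∀ i, dist (c r i) (p i) = 3 * ((i : ℕ) : ℝ) * r := by
      intro r hr i
      rw [hc, dist_eq_norm]
      simp only [add_sub_cancel_left]
      rw [norm_smul, he, mul_one, Real.norm_eq_abs, abs_of_nonneg (by positivity)]
    have hile : ∀ i : Fin (n + 1), ((i : ℕ) : ℝ) ≤ n := fun i => by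
      exact_mod_cast Nat.lt_succ_iff.1 i.2
    have hlim : Tendsto (fun r => ∑ i, inner ℝ (c r (i + 1) - c r i)
        (⨍ y in closedBall (c r i) r, Tt y)) (𝓝[>] (0 : ℝ))
        (𝓝 (∑ i, inner ℝ (p (i + 1) - p i) (Tt (p i)))) := by
      apply tendsto_finsetSum
      intro i _
      apply Filter.Tendsto.inner
      · have hcont : Continuous (fun r : ℝ => c r (i + 1) - c r i) := by
          rw [hc]
          fun_prop
        have h0 : c 0 (i + 1) - c 0 i = p (i + 1) - p i := by
          rw [hc]
          simp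
        rw [← h0]
        exact (hcont.tendsto 0).mono_left nhdsWithin_le_nhds
      · refine (hp i).2 (3 * n) (fun r => c r i) (fun r => r) tendsto_id ?_
        filter_upwards [self_mem_nhdsWithin] with r hr
        have hr0 : (0 : ℝ) < r := hr
        rw [mem_closedBall, dist_comm, hcdist r hr0 i]
        push_cast
        have := hile i
        nlinarith
    have hev : ∀ᶠ r in 𝓝[>] (0 : ℝ), ∑ i, inner ℝ (c r (i + 1) - c r i)
        (⨍ y in closedBall (c r i) r, Tt y) ≤ 0 := by
      have hsub : ∀ i, ∀ᶠ r in 𝓝[>] (0 : ℝ), closedBall (c r i) r ⊆ K := by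
        intro i
        obtain ⟨ε, hε, hball⟩ := Metric.mem_nhds_iff.1 (mem_interior_iff_mem_nhds.1 (hp i).1)
        have hpos : 0 < ε / (3 * (n : ℝ) + 1) := by positivity
        have hsmall : ∀ᶠ r in 𝓝[>] (0 : ℝ), r < ε / (3 * (n : ℝ) + 1) :=
          nhdsWithin_le_nhds (Iio_mem_nhds hpos)
        filter_upwards [hsmall, self_mem_nhdsWithin] with r hr hr0'
        have hr0 : (0 : ℝ) < r := hr0'
        intro y hy
        apply hball
        rw [mem_ball]
        have h1 : dist y (c r i) ≤ r := mem_closedBall.1 hy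
        have h2 := hcdist r hr0 i
        have h3 := hile i
        rw [lt_div_iff₀ (by positivity)] at hr
        calc dist y (p i) ≤ dist y (c r i) + dist (c r i) (p i) := dist_triangle _ _ _
          _ ≤ r + 3 * ((i : ℕ) : ℝ) * r := by rw [h2]; linarith
          _ ≤ r * (3 * (n : ℝ) + 1) := by nlinarith
          _ < ε := hr
      have hdisj : ∀ i j, i ≠ j → ∀ᶠ r in 𝓝[>] (0 : ℝ),
          Disjoint (closedBall (c r i) r) (closedBall (c r j) r) := by
        intro i j hij
        have hijR : (1 : ℝ) ≤ |((i : ℕ) : ℝ) - ((j : ℕ) : ℝ)| := by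
          have hne : (i : ℕ) ≠ (j : ℕ) := fun h => hij (Fin.ext h)
          have hz : (1 : ℤ) ≤ |((i : ℕ) : ℤ) - ((j : ℕ) : ℤ)| := by
            have : ((i : ℕ) : ℤ) - ((j : ℕ) : ℤ) ≠ 0 := by
              intro h
              apply hne
              omega
            exact Int.one_le_abs this
          have : ((|((i : ℕ) : ℤ) - ((j : ℕ) : ℤ)| : ℤ) : ℝ) = |((i : ℕ) : ℝ) - ((j : ℕ) : ℝ)| := by
            push_cast
            rfl
          rw [← this]
          exact_mod_cast hz
        have hcsub : ∀ r : ℝ, c r i - c r j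
            = (p i - p j) + (3 * (((i : ℕ) : ℝ) - ((j : ℕ) : ℝ)) * r) • e := by
          intro r
          rw [hc]
          simp only
          rw [mul_sub, sub_mul, sub_smul]
          abel
        by_cases hpij : p i = p j
        · filter_upwards [self_mem_nhdsWithin] with r hr
          have hr0 : (0 : ℝ) < r := hr
          apply closedBall_disjoint_closedBall
          rw [dist_eq_norm, hcsub r, hpij, sub_self, zero_add, norm_smul, he, mul_one,
            Real.norm_eq_abs, abs_mul, abs_mul, abs_of_pos hr0]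
          have h3 : |(3 : ℝ)| = 3 := abs_of_pos (by norm_num)
          rw [h3]
          nlinarith
        · have hpos : 0 < dist (p i) (p j) := dist_pos.2 hpij
          have hpos' : 0 < dist (p i) (p j) / (6 * (n : ℝ) + 3) := by positivity
          have hsmall : ∀ᶠ r in 𝓝[>] (0 : ℝ), r < dist (p i) (p j) / (6 * (n : ℝ) + 3) :=
            nhdsWithin_le_nhds (Iio_mem_nhds hpos')
          filter_upwards [hsmall, self_mem_nhdsWithin] with r hr hr0'
          have hr0 : (0 : ℝ) < r := hr0'
          apply closedBall_disjoint_closedBall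
          rw [lt_div_iff₀ (by positivity)] at hr
          have h1 : dist (p i) (p j) ≤ dist (p i) (c r i) + dist (c r i) (c r j)
              + dist (c r j) (p j) := dist_triangle4 _ _ _ _
          rw [dist_comm (p i) (c r i), hcdist r hr0 i, hcdist r hr0 j] at h1
          have h2 := hile i
          have h3 := hile j
          nlinarith
      have hall : ∀ᶠ r in 𝓝[>] (0 : ℝ), (∀ i, closedBall (c r i) r ⊆ K) ∧
          (∀ i j, i ≠ j → Disjoint (closedBall (c r i) r) (closedBall (c r j) r)) := by
        apply Filter.Eventually.and (eventually_all.2 hsub)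
        refine eventually_all.2 (fun i => eventually_all.2 (fun j => ?_))
        by_cases hij : i = j
        · exact Eventually.of_forall (fun r h => absurd hij h)
        · exact (hdisj i j hij).mono (fun r h _ => h)
      filter_upwards [hall, self_mem_nhdsWithin] with r hr hr0'
      obtain ⟨h1, h2⟩ := hr
      have hr0 : (0 : ℝ) < r := hr0'
      obtain ⟨τ, hτm, hτv, hτi⟩ := Vale.Agent.H32.exists_cyclic_shift K hKc.measurableSet hKc.isBounded n (c r) r
        h1 h2 Tt hTt R hTb
      have hsw := hswap τ hτm hτv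
      rw [hτi] at hsw
      have hsum : ∑ i, ∫ u in closedBall (c r i) r, inner ℝ (c r (i + 1) - c r i) (Tt u) ≤ 0 :=
        (add_le_iff_nonpos_right _).1 hsw
      have hV : ∀ i, (volume : Measure E).real (closedBall (c r i) r)
          = (volume : Measure E).real (closedBall (0 : E) r) := fun i => by
        rw [measureReal_def, measureReal_def, Measure.addHaar_closedBall_center]
      have hVpos : 0 < (volume : Measure E).real (closedBall (0 : E) r) :=
        ENNReal.toReal_pos (measure_closedBall_pos volume _ hr0).ne' measure_closedBall_lt_top.ne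
      have hterm : ∀ i, ∫ u in closedBall (c r i) r, inner ℝ (c r (i + 1) - c r i) (Tt u)
          = (volume : Measure E).real (closedBall (0 : E) r)
            * inner ℝ (c r (i + 1) - c r i) (⨍ y in closedBall (c r i) r, Tt y) := by
        intro i
        rw [integral_inner (hloc.integrableOn_isCompact (isCompact_closedBall _ _)),
          setAverage_eq, inner_smul_right, hV i]
        field_simp
      simp only [hterm, ← Finset.mul_sum] at hsum
      by_contra hcon
      rw [not_le] at hcon
      nlinarith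
    have hfin := le_of_tendsto hlim hev
    calc ∑ i, inner ℝ (Tt (p i)) (p (i + 1) - p i)
        = ∑ i, inner ℝ (p (i + 1) - p i) (Tt (p i)) :=
          Finset.sum_congr rfl (fun i _ => real_inner_comm _ _)
      _ ≤ 0 := hfin

end cyc

section brenier

variable {d : ℕ}

/-- A Monge minimizer from the uniform measure on a compact convex set with nonempty interior
to a measure concentrated on a compact set is a Brenier map. -/
theorem isBrenierMap_of_isOptimalMap {K Y : Set (EuclideanSpace ℝ (Fin d))}
    (hKc : IsCompact K) (hconv : Convex ℝ K) (hint : (interior K).Nonempty) (hYc : IsCompact Y)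
    {μ : Measure (EuclideanSpace ℝ (Fin d))}
    {T : EuclideanSpace ℝ (Fin d) → EuclideanSpace ℝ (Fin d)}
    (hμ : ∀ᵐ y ∂μ, y ∈ Y) (hT : IsOptimalMap (ProbabilityTheory.cond volume K) μ T) :
    IsBrenierMap (ProbabilityTheory.cond volume K) T := by
  classical
  obtain ⟨hTm, hTμ, -⟩ := id hT
  have hKfin : (volume : Measure (EuclideanSpace ℝ (Fin d))) K ≠ ⊤ := hKc.measure_lt_top.ne
  have hKpos : (volume : Measure (EuclideanSpace ℝ (Fin d))) K ≠ 0 :=
    ((isOpen_interior.measure_pos volume hint).trans_le (measure_mono interior_subset)).ne'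
  have hρ : ProbabilityTheory.cond (volume : Measure (EuclideanSpace ℝ (Fin d))) K
      = ((volume : Measure (EuclideanSpace ℝ (Fin d))) K)⁻¹ • volume.restrict K := rfl
  have hprob : IsProbabilityMeasure
      (ProbabilityTheory.cond (volume : Measure (EuclideanSpace ℝ (Fin d))) K) :=
    ProbabilityTheory.cond_isProbabilityMeasure_of_finite hKpos hKfin
  obtain ⟨CK, hCK⟩ := hKc.isBounded.exists_norm_le
  obtain ⟨CY, hCY⟩ := hYc.isBounded.exists_norm_le
  obtain ⟨R, hRdef⟩ : ∃ R : ℝ, R = max (max CY CK) 0 := ⟨_, rfl⟩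
  have hR0 : 0 ≤ R := by
    rw [hRdef]
    exact le_max_right _ _
  have hRY : ∀ y ∈ Y, ‖y‖ ≤ R := fun y hy => by
    rw [hRdef]
    exact (hCY y hy).trans ((le_max_left _ _).trans (le_max_left _ _))
  have hRK : ∀ x ∈ K, ‖x‖ ≤ R := fun x hx => by
    rw [hRdef]
    exact (hCK x hx).trans ((le_max_right _ _).trans (le_max_left _ _))
  have hxb : ∀ᵐ x ∂(ProbabilityTheory.cond (volume : Measure (EuclideanSpace ℝ (Fin d))) K),
      ‖x‖ ≤ R := by
    rw [hρ]
    apply Measure.ae_smul_measure
    filter_upwards [ae_restrict_mem hKc.measurableSet] with x hx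
    exact hRK x hx
  have hTb : ∀ᵐ x ∂(ProbabilityTheory.cond (volume : Measure (EuclideanSpace ℝ (Fin d))) K),
      ‖T x‖ ≤ R := by
    rw [← hTμ] at hμ
    filter_upwards [ae_of_ae_map hTm.aemeasurable hμ] with x hx
    exact hRY _ hx
  obtain ⟨Tt, hTtdef⟩ : ∃ Tt : EuclideanSpace ℝ (Fin d) → EuclideanSpace ℝ (Fin d),
      Tt = fun x => if ‖T x‖ ≤ R then T x else 0 := ⟨_, rfl⟩
  have hTtm : Measurable Tt := by
    rw [hTtdef]
    exact Measurable.ite (measurableSet_le hTm.norm measurable_const) hTm measurable_const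
  have hTtb : ∀ x, ‖Tt x‖ ≤ R := by
    intro x
    rw [hTtdef]
    simp only
    split_ifs with h
    · exact h
    · simpa using hR0
  have hTt_ae : ∀ᵐ x ∂(ProbabilityTheory.cond (volume : Measure (EuclideanSpace ℝ (Fin d))) K),
      Tt x = T x := by
    filter_upwards [hTb] with x hx
    rw [hTtdef]
    simp only
    rw [if_pos hx]
  have hswap : ∀ τ : EuclideanSpace ℝ (Fin d) → EuclideanSpace ℝ (Fin d), Measurable τ →
      (volume.restrict K).map τ = volume.restrict K →
      ∫ x in K, inner ℝ x (Tt (τ x)) ≤ ∫ x in K, inner ℝ x (Tt x) := by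
    intro τ hτ hτv
    have hτρ : (ProbabilityTheory.cond (volume : Measure (EuclideanSpace ℝ (Fin d))) K).map τ
        = ProbabilityTheory.cond (volume : Measure (EuclideanSpace ℝ (Fin d))) K := by
      rw [hρ, Measure.map_smul, hτv]
    have h1 := Vale.Agent.H38.inner_swap_le_of_isOptimalMap _ μ T hT R hxb hTb τ hτ hτρ
    have h2 : ∫ x, inner ℝ x (T (τ x))
          ∂(ProbabilityTheory.cond (volume : Measure (EuclideanSpace ℝ (Fin d))) K)
        = ∫ x, inner ℝ x (Tt (τ x))
          ∂(ProbabilityTheory.cond (volume : Measure (EuclideanSpace ℝ (Fin d))) K) := by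
      apply integral_congr_ae
      have h0 : ∀ᵐ y ∂((ProbabilityTheory.cond
          (volume : Measure (EuclideanSpace ℝ (Fin d))) K).map τ), Tt y = T y := by
        rw [hτρ]
        exact hTt_ae
      filter_upwards [ae_of_ae_map hτ.aemeasurable h0] with x hx
      rw [hx]
    have h3 : ∫ x, inner ℝ x (T x)
          ∂(ProbabilityTheory.cond (volume : Measure (EuclideanSpace ℝ (Fin d))) K)
        = ∫ x, inner ℝ x (Tt x)
          ∂(ProbabilityTheory.cond (volume : Measure (EuclideanSpace ℝ (Fin d))) K) := by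
      apply integral_congr_ae
      filter_upwards [hTt_ae] with x hx
      rw [hx]
    rw [h2, h3, hρ, integral_smul_measure, integral_smul_measure] at h1
    have hc : 0 < (((volume : Measure (EuclideanSpace ℝ (Fin d))) K)⁻¹).toReal :=
      ENNReal.toReal_pos (ENNReal.inv_ne_zero.2 hKfin) (ENNReal.inv_ne_top.2 hKpos)
    exact le_of_mul_le_mul_left h1 hc
  obtain ⟨A, hA, hcyc⟩ := cyclic_of_swap K hKc hconv Tt hTtm R hTtb hswap
  have hcyc' : ∀ (n : ℕ) (p : Fin (n + 1) → EuclideanSpace ℝ (Fin d)),
      (∀ i, p i ∈ A ∩ {x | Tt x = T x}) →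
      ∑ i, inner ℝ (T (p i)) (p (i + 1) - p i) ≤ 0 := by
    intro n p hp
    have h1 := hcyc n p (fun i => (hp i).1)
    have e : ∑ i, inner ℝ (T (p i)) (p (i + 1) - p i)
        = ∑ i, inner ℝ (Tt (p i)) (p (i + 1) - p i) :=
      Finset.sum_congr rfl (fun i _ => by rw [(hp i).2])
    rw [e]
    exact h1
  obtain ⟨φ, hφc, hφ⟩ := Vale.Agent.H56.exists_convex_potential_of_cyclic
    (A ∩ {x | Tt x = T x}) T R (fun x hx => by rw [← hx.2]; exact hTtb x) hcyc'
  refine ⟨hTm, φ, hφc, ?_⟩
  have hA' : ∀ᵐ x ∂(ProbabilityTheory.cond (volume : Measure (EuclideanSpace ℝ (Fin d))) K),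
      x ∈ A := by
    rw [hρ]
    exact Measure.ae_smul_measure hA _
  filter_upwards [hA', hTt_ae] with x hx1 hx2
  exact hφ x ⟨hx1, hx2⟩

end brenier

end Vale.Agent.H20
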