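import Mathlib

/-!
# Definitions for problem P074 (stability of quadratic optimal transport maps)
-/

namespace Vale.Agent.H20

open MeasureTheory

/-- `T` is a Brenier map for the source measure `ρ` on `ℝ^d`: a Borel map which is
`ρ`-almost everywhere a subgradient of a finite convex function `φ : ℝ^d → ℝ`
(so `T = ∇φ` almost everywhere when `ρ` is absolutely continuous). -/
def IsBrenierMap {d : ℕ} (ρ : Measure (EuclideanSpace ℝ (Fin d)))
    (T : EuclideanSpace ℝ (Fin d) → EuclideanSpace ℝ (Fin d)) : Prop :=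
  Measurable T ∧ ∃ φ : EuclideanSpace ℝ (Fin d) → ℝ, ConvexOn ℝ Set.univ φ ∧
    ∀ᵐ x ∂ρ, ∀ z, φ x + inner ℝ (T x) (z - x) ≤ φ z

/-- The quadratic Wasserstein distance between two Borel measures on `ℝ^d`:
the infimum over couplings `π` of `(∫ |y - z|² dπ)^(1/2)`, with values in `[0, ∞]`. -/
noncomputable def W2 {d : ℕ} (μ ν : Measure (EuclideanSpace ℝ (Fin d))) : ENNReal :=
  (⨅ π : Measure (EuclideanSpace ℝ (Fin d) × EuclideanSpace ℝ (Fin d)),
    ⨅ (_ : π.fst = μ ∧ π.snd = ν), ∫⁻ p, ENNReal.ofReal (‖p.1 - p.2‖ ^ 2) ∂π) ^ ((1 : ℝ) / 2)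

end Vale.Agent.H20
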