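import Vale.Agent.H20.OTDefs2

/-!
# Admissible stability exponents for problem P074
-/

namespace Vale.Agent.H20

open MeasureTheory

/-- The `1`-Wasserstein distance between two Borel measures on `ℝ^d`: the infimum over
couplings `π` of `∫ |y - z| dπ`, with values in `[0, ∞]`. -/
noncomputable def W1 {d : ℕ} (μ ν : Measure (EuclideanSpace ℝ (Fin d))) : ENNReal :=
  ⨅ π : Measure (EuclideanSpace ℝ (Fin d) × EuclideanSpace ℝ (Fin d)),
    ⨅ (_ : π.fst = μ ∧ π.snd = ν), ∫⁻ p, ENNReal.ofReal ‖p.1 - p.2‖ ∂π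

/-- The exponent `α` is admissible in dimension `d` with respect to the distance `W` between
measures on `ℝ^d`: for every compact convex `K ⊂ ℝ^d` with nonempty interior (`ρ` the uniform
probability measure on `K`) and every compact `Y ⊂ ℝ^d` there is a constant `C` such that
`‖T - S‖_{L²(ρ)} ≤ C * W(μ, ν)^α` for all measures `μ, ν` concentrated on `Y` and all quadratic
optimal transport maps `T` from `ρ` to `μ` and `S` from `ρ` to `ν`. -/
def AdmissibleExponent (d : ℕ)
    (W : Measure (EuclideanSpace ℝ (Fin d)) → Measure (EuclideanSpace ℝ (Fin d)) → ENNReal)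
    (α : ℝ) : Prop :=
  ∀ K Y : Set (EuclideanSpace ℝ (Fin d)),
    IsCompact K → Convex ℝ K → (interior K).Nonempty → IsCompact Y →
    ∃ C : ℝ, ∀ (μ ν : Measure (EuclideanSpace ℝ (Fin d)))
      (T S : EuclideanSpace ℝ (Fin d) → EuclideanSpace ℝ (Fin d)),
      (∀ᵐ y ∂μ, y ∈ Y) → (∀ᵐ y ∂ν, y ∈ Y) →
      IsOptimalMap (ProbabilityTheory.cond volume K) μ T →
      IsOptimalMap (ProbabilityTheory.cond volume K) ν S →
      eLpNorm (fun x => T x - S x) 2 (ProbabilityTheory.cond volume K)
        ≤ ENNReal.ofReal C * W μ ν ^ α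

end Vale.Agent.H20
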