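import Vale.Agent.H20.OTDefs
import Vale.Agent.H20.OTStab

namespace Vale.Agent.H20

open MeasureTheory Set

theorem lintegral_enorm_sq_eq {α : Type*} [MeasurableSpace α] {μ : Measure α}
    {F : Type*} [NormedAddCommGroup F] {g : α → F}
    (hint : Integrable (fun x => ‖g x‖ ^ 2) μ) :
    ∫⁻ x, ‖g x‖ₑ ^ 2 ∂μ = ENNReal.ofReal (∫ x, ‖g x‖ ^ 2 ∂μ) := by
  rw [ofReal_integral_eq_lintegral_ofReal hint (Filter.Eventually.of_forall (fun x => sq_nonneg _))]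
  congr 1
  ext x
  rw [ENNReal.ofReal_pow (norm_nonneg _), ofReal_norm]

theorem lintegral_ofReal_sq_eq {α : Type*} [MeasurableSpace α] {μ : Measure α}
    {F : Type*} [NormedAddCommGroup F] {g : α → F}
    (hint : Integrable (fun x => ‖g x‖ ^ 2) μ) :
    ∫⁻ x, ENNReal.ofReal (‖g x‖ ^ 2) ∂μ = ENNReal.ofReal (∫ x, ‖g x‖ ^ 2 ∂μ) :=
  (ofReal_integral_eq_lintegral_ofReal hint
    (Filter.Eventually.of_forall (fun x => sq_nonneg _))).symm

theorem eLpNorm_two_eq {α : Type*} [MeasurableSpace α] {μ : Measure α}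
    {F : Type*} [NormedAddCommGroup F] {g : α → F}
    (hint : Integrable (fun x => ‖g x‖ ^ 2) μ) :
    eLpNorm g 2 μ = (ENNReal.ofReal (∫ x, ‖g x‖ ^ 2 ∂μ)) ^ ((1 : ℝ) / 2) := by
  rw [eLpNorm_eq_lintegral_rpow_enorm_toReal (by norm_num) (by norm_num), ← lintegral_enorm_sq_eq hint]
  simp

end Vale.Agent.H20

namespace Vale.Agent.H20

open MeasureTheory Set

theorem quarter_holder_aux {d : ℕ} {K Y : Set (EuclideanSpace ℝ (Fin d))}
    (hKc : IsCompact K) (hconv : Convex ℝ K) (hint : (interior K).Nonempty)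
    (hYc : IsCompact Y) :
    ∃ C : ℝ, ∀ (μ ν : Measure (EuclideanSpace ℝ (Fin d)))
      (T S : EuclideanSpace ℝ (Fin d) → EuclideanSpace ℝ (Fin d)),
      (∀ᵐ y ∂μ, y ∈ Y) → (∀ᵐ y ∂ν, y ∈ Y) →
      IsBrenierMap (ProbabilityTheory.cond volume K) T →
      (ProbabilityTheory.cond volume K).map T = μ →
      IsBrenierMap (ProbabilityTheory.cond volume K) S →
      (ProbabilityTheory.cond volume K).map S = ν →
      eLpNorm (fun x => T x - S x) 2 (ProbabilityTheory.cond volume K)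
        ≤ ENNReal.ofReal C * W2 μ ν ^ ((1 : ℝ) / 4) := by
  obtain ⟨x₀, hx₀⟩ := hint
  obtain ⟨r', hr', hball'⟩ := Metric.mem_nhds_iff.1 (mem_interior_iff_mem_nhds.1 hx₀)
  set r : ℝ := r' / 2 with hr_def
  have hr : 0 < r := by positivity
  have hball : Metric.closedBall x₀ r ⊆ K :=
    (Metric.closedBall_subset_ball (by rw [hr_def]; linarith)).trans hball'
  obtain ⟨CK, hCK⟩ := hKc.isBounded.exists_norm_le
  set RK : NNReal := Real.toNNReal CK with hRK_def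
  have hRK : ∀ x ∈ K, ‖x‖ ≤ RK := fun x hx => (hCK x hx).trans (Real.le_coe_toNNReal CK)
  obtain ⟨CY, hCY⟩ := hYc.isBounded.exists_norm_le
  set R : ℝ := max CY 0 with hR_def
  have hR : 0 ≤ R := le_max_right _ _
  have hRY : ∀ y ∈ Y, ‖y‖ ≤ R := fun y hy => (hCY y hy).trans (le_max_left _ _)
  set M : ℝ := 16 * R ^ 4 * (128 * (d : ℝ) ^ 3 * R * RK) ^ 2 / r ^ 2 + 1 with hM_def
  have hM : 0 < M := by positivity
  refine ⟨M ^ ((1 : ℝ) / 8), ?_⟩
  intro μ ν T S hμY hνY hBT hmT hBS hmS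
  obtain ⟨hT, φ, -, hφ⟩ := hBT
  obtain ⟨hS, ψ, -, hψ⟩ := hBS
  have hKfin : (volume : Measure (EuclideanSpace ℝ (Fin d))) K ≠ ⊤ := hKc.measure_lt_top.ne
  have hKpos : (volume : Measure (EuclideanSpace ℝ (Fin d))) K ≠ 0 := by
    have h := Metric.measure_closedBall_pos (volume : Measure (EuclideanSpace ℝ (Fin d))) x₀ hr
    exact (lt_of_lt_of_le h (measure_mono hball)).ne'
  set ρ : Measure (EuclideanSpace ℝ (Fin d)) := ProbabilityTheory.cond volume K with hρ_def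
  have hprob : IsProbabilityMeasure ρ :=
    ProbabilityTheory.cond_isProbabilityMeasure_of_finite hKpos hKfin
  -- bounds
  have hTb : ∀ᵐ x ∂ρ, ‖T x‖ ≤ R := by
    rw [← hmT] at hμY
    filter_upwards [ae_of_ae_map hT.aemeasurable hμY] with x hx
    exact hRY _ hx
  have hSb : ∀ᵐ x ∂ρ, ‖S x‖ ≤ R := by
    rw [← hmS] at hνY
    filter_upwards [ae_of_ae_map hS.aemeasurable hνY] with x hx
    exact hRY _ hx
  have hw_bd : ∀ᵐ x ∂ρ, ‖T x - S x‖ ≤ 2 * R := by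
    filter_upwards [hTb, hSb] with x hx1 hx2
    have := (norm_sub_le (T x) (S x)).trans (add_le_add hx1 hx2)
    linarith
  have hsq_int : Integrable (fun x => ‖T x - S x‖ ^ 2) ρ := by
    refine Integrable.of_bound ((hT.sub hS).norm.pow_const 2).aestronglyMeasurable
      ((2 * R) ^ 2) ?_
    filter_upwards [hw_bd] with x hx
    rw [Real.norm_eq_abs, abs_of_nonneg (sq_nonneg _)]
    exact pow_le_pow_left₀ (norm_nonneg _) hx 2
  rw [eLpNorm_two_eq hsq_int]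
  set J : ℝ := ∫ x, ‖T x - S x‖ ^ 2 ∂ρ with hJ_def
  have hJ0 : 0 ≤ J := integral_nonneg (fun x => sq_nonneg _)
  -- the real inequality for every coupling
  have hreal : ∀ π : Measure (EuclideanSpace ℝ (Fin d) × EuclideanSpace ℝ (Fin d)),
      π.fst = μ → π.snd = ν →
      Integrable (fun p : EuclideanSpace ℝ (Fin d) × EuclideanSpace ℝ (Fin d) =>
        ‖p.1 - p.2‖ ^ 2) π ∧ J ^ 4 ≤ M * ∫ p, ‖p.1 - p.2‖ ^ 2 ∂π := by
    intro π h1 h2
    rw [← hmT] at h1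
    rw [← hmS] at h2
    have hfacts := coupling_facts hT hS hTb hSb h1 h2
    have hπfin : IsFiniteMeasure π := ⟨by rw [hfacts.1]; exact measure_lt_top ρ _⟩
    have hc2int : Integrable (fun p : EuclideanSpace ℝ (Fin d) × EuclideanSpace ℝ (Fin d) =>
        ‖p.1 - p.2‖ ^ 2) π := by
      refine Integrable.of_bound
        ((measurable_fst.sub measurable_snd).norm.pow_const 2).aestronglyMeasurable
        ((2 * R) ^ 2) ?_
      filter_upwards [hfacts.2] with p hp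
      rw [Real.norm_eq_abs, abs_of_nonneg (sq_nonneg _)]
      exact pow_le_pow_left₀ (norm_nonneg _) hp 2
    refine ⟨hc2int, ?_⟩
    have hpoly := stability_L2_poly (μ := (volume : Measure (EuclideanSpace ℝ (Fin d))))
      hKc hconv hr hball hRK hR hT hS hφ hψ hTb hSb h1 h2
    rw [finrank_euclideanSpace_fin, ← hρ_def, ← hJ_def] at hpoly
    set c₂ : ℝ := ∫ p, ‖p.1 - p.2‖ ^ 2 ∂π with hc₂_def
    have hc₂0 : 0 ≤ c₂ := integral_nonneg (fun p => sq_nonneg _)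
    have hr2 : 0 < r ^ 2 := by positivity
    have h3 : J ^ 4 ≤ 16 * R ^ 4 * (128 * (d : ℝ) ^ 3 * R * RK) ^ 2 / r ^ 2 * c₂ := by
      rw [div_mul_eq_mul_div, le_div_iff₀ hr2]
      linarith
    have h4 : 16 * R ^ 4 * (128 * (d : ℝ) ^ 3 * R * RK) ^ 2 / r ^ 2 * c₂ ≤ M * c₂ := by
      apply mul_le_mul_of_nonneg_right _ hc₂0
      rw [hM_def]; linarith
    exact h3.trans h4
  -- pass to the infimum
  have hX : ∀ π : Measure (EuclideanSpace ℝ (Fin d) × EuclideanSpace ℝ (Fin d)),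
      π.fst = μ → π.snd = ν →
      ENNReal.ofReal J ^ 4 / ENNReal.ofReal M ≤ ∫⁻ p, ENNReal.ofReal (‖p.1 - p.2‖ ^ 2) ∂π := by
    intro π h1 h2
    obtain ⟨hc2int, hle⟩ := hreal π h1 h2
    rw [lintegral_ofReal_sq_eq hc2int]
    apply ENNReal.div_le_of_le_mul'
    rw [← ENNReal.ofReal_pow hJ0, ← ENNReal.ofReal_mul hM.le]
    exact ENNReal.ofReal_le_ofReal hle
  have hZ : ENNReal.ofReal J ^ 4 / ENNReal.ofReal M
      ≤ ⨅ π : Measure (EuclideanSpace ℝ (Fin d) × EuclideanSpace ℝ (Fin d)),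
        ⨅ (_ : π.fst = μ ∧ π.snd = ν), ∫⁻ p, ENNReal.ofReal (‖p.1 - p.2‖ ^ 2) ∂π :=
    le_iInf fun π => le_iInf fun h => hX π h.1 h.2
  set Z : ENNReal := ⨅ π : Measure (EuclideanSpace ℝ (Fin d) × EuclideanSpace ℝ (Fin d)),
        ⨅ (_ : π.fst = μ ∧ π.snd = ν), ∫⁻ p, ENNReal.ofReal (‖p.1 - p.2‖ ^ 2) ∂π with hZ_def
  have hMne0 : ENNReal.ofReal M ≠ 0 := by
    rw [Ne, ENNReal.ofReal_eq_zero, not_le]; exact hM
  have hZ' : ENNReal.ofReal J ^ 4 ≤ ENNReal.ofReal M * Z := by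
    have := (ENNReal.div_le_iff_le_mul (Or.inl hMne0) (Or.inl ENNReal.ofReal_ne_top)).1 hZ
    rwa [mul_comm] at this
  have hW : W2 μ ν = Z ^ ((1 : ℝ) / 2) := rfl
  rw [hW]
  calc ENNReal.ofReal J ^ ((1 : ℝ) / 2)
      = (ENNReal.ofReal J ^ 4) ^ ((1 : ℝ) / 8) := by
        rw [← ENNReal.rpow_natCast, ← ENNReal.rpow_mul]; norm_num
    _ ≤ (ENNReal.ofReal M * Z) ^ ((1 : ℝ) / 8) := ENNReal.rpow_le_rpow hZ' (by norm_num)
    _ = ENNReal.ofReal M ^ ((1 : ℝ) / 8) * Z ^ ((1 : ℝ) / 8) :=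
        ENNReal.mul_rpow_of_nonneg _ _ (by norm_num)
    _ = ENNReal.ofReal (M ^ ((1 : ℝ) / 8)) * (Z ^ ((1 : ℝ) / 2)) ^ ((1 : ℝ) / 4) := by
        rw [ENNReal.ofReal_rpow_of_nonneg hM.le (by norm_num), ← ENNReal.rpow_mul]; norm_num

end Vale.Agent.H20
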