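import Vale.Agent.H20.OTFinal
import Vale.Agent.H20.OTDefs3

/-!
# The `W₁` version of the stability estimate (problem P074)
-/

namespace Vale.Agent.H20

open MeasureTheory Set

section mainpoly1

variable {E : Type*} [NormedAddCommGroup E] [InnerProductSpace ℝ E]
variable [MeasurableSpace E] [BorelSpace E] [FiniteDimensional ℝ E]

theorem stability_L2_poly1 {μ : Measure E} [μ.IsAddHaarMeasure]
    {K : Set E} (hKc : IsCompact K) (hconv : Convex ℝ K) {x₀ : E} {r : ℝ} (hr : 0 < r)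
    (hball : Metric.closedBall x₀ r ⊆ K) {RK : NNReal} (hRK : ∀ x ∈ K, ‖x‖ ≤ RK)
    {R : ℝ} (hR : 0 ≤ R)
    {T S : E → E} (hT : Measurable T) (hS : Measurable S)
    {φ ψ : E → ℝ}
    (hφ : ∀ᵐ x ∂(ProbabilityTheory.cond μ K), ∀ z, φ x + inner ℝ (T x) (z - x) ≤ φ z)
    (hψ : ∀ᵐ x ∂(ProbabilityTheory.cond μ K), ∀ z, ψ x + inner ℝ (S x) (z - x) ≤ ψ z)
    (hTb : ∀ᵐ x ∂(ProbabilityTheory.cond μ K), ‖T x‖ ≤ R)
    (hSb : ∀ᵐ x ∂(ProbabilityTheory.cond μ K), ‖S x‖ ≤ R)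
    {π : Measure (E × E)} (h1 : π.fst = (ProbabilityTheory.cond μ K).map T)
    (h2 : π.snd = (ProbabilityTheory.cond μ K).map S) :
    r * (∫ x, ‖T x - S x‖ ^ 2 ∂(ProbabilityTheory.cond μ K)) ^ 2
      ≤ 4 * R ^ 2 * (128 * (Module.finrank ℝ E : ℝ) ^ 3 * R * RK)
          * ∫ p, ‖p.1 - p.2‖ ∂π := by
  have hKfin : μ K ≠ ⊤ := hKc.measure_lt_top.ne
  have hKpos : μ K ≠ 0 := by
    have h := Metric.measure_closedBall_pos μ x₀ hr
    exact (lt_of_lt_of_le h (measure_mono hball)).ne'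
  set ρ : Measure E := ProbabilityTheory.cond μ K with hρ_def
  have hprob : IsProbabilityMeasure ρ :=
    ProbabilityTheory.cond_isProbabilityMeasure_of_finite hKpos hKfin
  have hL1 := stability_L1 (μ := μ) hKc hconv hr hball hRK hR hT hS hφ hψ hTb hSb h1 h2
  rw [← hρ_def] at hL1
  set I : ℝ := ∫ x, ‖S x - T x‖ ∂ρ with hI_def
  set J : ℝ := ∫ x, ‖T x - S x‖ ^ 2 ∂ρ with hJ_def
  set c₁ : ℝ := ∫ p, ‖p.1 - p.2‖ ∂π with hc₁_def
  set A : ℝ := 128 * (Module.finrank ℝ E : ℝ) ^ 3 * R * RK with hA_def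
  have hI0 : 0 ≤ I := integral_nonneg (fun x => norm_nonneg _)
  have hJ0 : 0 ≤ J := integral_nonneg (fun x => sq_nonneg _)
  have hw_bd : ∀ᵐ x ∂ρ, ‖S x - T x‖ ≤ 2 * R := by
    filter_upwards [hTb, hSb] with x hx1 hx2
    have := (norm_sub_le (S x) (T x)).trans (add_le_add hx2 hx1)
    linarith
  have hwm : Measurable fun x => ‖S x - T x‖ := (hS.sub hT).norm
  have hnorm_int : Integrable (fun x => ‖S x - T x‖) ρ := by
    refine Integrable.of_bound hwm.aestronglyMeasurable (2 * R) ?_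
    filter_upwards [hw_bd] with x hx
    rw [Real.norm_eq_abs, abs_of_nonneg (norm_nonneg _)]
    exact hx
  have hsq_int : Integrable (fun x => ‖T x - S x‖ ^ 2) ρ := by
    refine Integrable.of_bound ((hT.sub hS).norm.pow_const 2).aestronglyMeasurable
      ((2 * R) ^ 2) ?_
    filter_upwards [hw_bd] with x hx
    rw [Real.norm_eq_abs, abs_of_nonneg (sq_nonneg _), norm_sub_rev]
    exact pow_le_pow_left₀ (norm_nonneg _) hx 2
  have hJ_le : J ≤ 2 * R * I := by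
    have : J ≤ ∫ x, 2 * R * ‖S x - T x‖ ∂ρ := by
      apply integral_mono_ae hsq_int (hnorm_int.const_mul _)
      filter_upwards [hw_bd] with x hx
      show ‖T x - S x‖ ^ 2 ≤ 2 * R * ‖S x - T x‖
      rw [norm_sub_rev, sq]
      exact mul_le_mul_of_nonneg_right hx (norm_nonneg _)
    rwa [integral_const_mul] at this
  have hRI : 0 ≤ 2 * R * I := by positivity
  have h4 : J ^ 2 ≤ (2 * R * I) ^ 2 := pow_le_pow_left₀ hJ0 hJ_le 2
  have h6 : r * J ^ 2 ≤ r * (2 * R * I) ^ 2 := mul_le_mul_of_nonneg_left h4 hr.le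
  have h7 : r * (2 * R * I) ^ 2 = 4 * R ^ 2 * (r * I ^ 2) := by ring
  have h8 : 4 * R ^ 2 * (r * I ^ 2) ≤ 4 * R ^ 2 * (A * c₁) :=
    mul_le_mul_of_nonneg_left hL1 (by positivity)
  have h9 : 4 * R ^ 2 * (A * c₁) = 4 * R ^ 2 * A * c₁ := by ring
  linarith

end mainpoly1

theorem quarter_holder_W1_aux {d : ℕ} {K Y : Set (EuclideanSpace ℝ (Fin d))}
    (hKc : IsCompact K) (hconv : Convex ℝ K) (hint : (interior K).Nonempty)
    (hYc : IsCompact Y) :
    ∃ C : ℝ, ∀ (μ ν : Measure (EuclideanSpace ℝ (Fin d)))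
      (T S : EuclideanSpace ℝ (Fin d) → EuclideanSpace ℝ (Fin d)),
      (∀ᵐ y ∂μ, y ∈ Y) → (∀ᵐ y ∂ν, y ∈ Y) →
      IsBrenierMap (ProbabilityTheory.cond volume K) T →
      (ProbabilityTheory.cond volume K).map T = μ →
      IsBrenierMap (ProbabilityTheory.cond volume K) S →
      (ProbabilityTheory.cond volume K).map S = ν →
      eLpNorm (fun x => T x - S x) 2 (ProbabilityTheory.cond volume K)
        ≤ ENNReal.ofReal C * W1 μ ν ^ ((1 : ℝ) / 4) := by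
  obtain ⟨x₀, hx₀⟩ := hint
  obtain ⟨r', hr', hball'⟩ := Metric.mem_nhds_iff.1 (mem_interior_iff_mem_nhds.1 hx₀)
  set r : ℝ := r' / 2 with hr_def
  have hr : 0 < r := by positivity
  have hball : Metric.closedBall x₀ r ⊆ K :=
    (Metric.closedBall_subset_ball (by rw [hr_def]; linarith)).trans hball'
  obtain ⟨CK, hCK⟩ := hKc.isBounded.exists_norm_le
  set RK : NNReal := Real.toNNReal CK with hRK_def
  have hRK : ∀ x ∈ K, ‖x‖ ≤ RK := fun x hx => (hCK x hx).trans (Real.le_coe_toNNReal CK)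
  obtain ⟨CY, hCY⟩ := hYc.isBounded.exists_norm_le
  set R : ℝ := max CY 0 with hR_def
  have hR : 0 ≤ R := le_max_right _ _
  have hRY : ∀ y ∈ Y, ‖y‖ ≤ R := fun y hy => (hCY y hy).trans (le_max_left _ _)
  set M : ℝ := 4 * R ^ 2 * (128 * (d : ℝ) ^ 3 * R * RK) / r + 1 with hM_def
  have hM : 0 < M := by positivity
  refine ⟨M ^ ((1 : ℝ) / 4), ?_⟩
  intro μ ν T S hμY hνY hBT hmT hBS hmS
  obtain ⟨hT, φ, -, hφ⟩ := hBT
  obtain ⟨hS, ψ, -, hψ⟩ := hBS
  have hKfin : (volume : Measure (EuclideanSpace ℝ (Fin d))) K ≠ ⊤ := hKc.measure_lt_top.ne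
  have hKpos : (volume : Measure (EuclideanSpace ℝ (Fin d))) K ≠ 0 := by
    have h := Metric.measure_closedBall_pos (volume : Measure (EuclideanSpace ℝ (Fin d))) x₀ hr
    exact (lt_of_lt_of_le h (measure_mono hball)).ne'
  set ρ : Measure (EuclideanSpace ℝ (Fin d)) := ProbabilityTheory.cond volume K with hρ_def
  have hprob : IsProbabilityMeasure ρ :=
    ProbabilityTheory.cond_isProbabilityMeasure_of_finite hKpos hKfin
  have hTb : ∀ᵐ x ∂ρ, ‖T x‖ ≤ R := by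
    rw [← hmT] at hμY
    filter_upwards [ae_of_ae_map hT.aemeasurable hμY] with x hx
    exact hRY _ hx
  have hSb : ∀ᵐ x ∂ρ, ‖S x‖ ≤ R := by
    rw [← hmS] at hνY
    filter_upwards [ae_of_ae_map hS.aemeasurable hνY] with x hx
    exact hRY _ hx
  have hw_bd : ∀ᵐ x ∂ρ, ‖T x - S x‖ ≤ 2 * R := by
    filter_upwards [hTb, hSb] with x hx1 hx2
    have := (norm_sub_le (T x) (S x)).trans (add_le_add hx1 hx2)
    linarith
  have hsq_int : Integrable (fun x => ‖T x - S x‖ ^ 2) ρ := by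
    refine Integrable.of_bound ((hT.sub hS).norm.pow_const 2).aestronglyMeasurable
      ((2 * R) ^ 2) ?_
    filter_upwards [hw_bd] with x hx
    rw [Real.norm_eq_abs, abs_of_nonneg (sq_nonneg _)]
    exact pow_le_pow_left₀ (norm_nonneg _) hx 2
  rw [eLpNorm_two_eq hsq_int]
  set J : ℝ := ∫ x, ‖T x - S x‖ ^ 2 ∂ρ with hJ_def
  have hJ0 : 0 ≤ J := integral_nonneg (fun x => sq_nonneg _)
  have hreal : ∀ π : Measure (EuclideanSpace ℝ (Fin d) × EuclideanSpace ℝ (Fin d)),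
      π.fst = μ → π.snd = ν →
      Integrable (fun p : EuclideanSpace ℝ (Fin d) × EuclideanSpace ℝ (Fin d) =>
        ‖p.1 - p.2‖) π ∧ J ^ 2 ≤ M * ∫ p, ‖p.1 - p.2‖ ∂π := by
    intro π h1 h2
    rw [← hmT] at h1
    rw [← hmS] at h2
    have hfacts := coupling_facts hT hS hTb hSb h1 h2
    have hπfin : IsFiniteMeasure π := ⟨by rw [hfacts.1]; exact measure_lt_top ρ _⟩
    have hc1int : Integrable (fun p : EuclideanSpace ℝ (Fin d) × EuclideanSpace ℝ (Fin d) =>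
        ‖p.1 - p.2‖) π := by
      refine Integrable.of_bound
        ((measurable_fst.sub measurable_snd).norm).aestronglyMeasurable
        (2 * R) ?_
      filter_upwards [hfacts.2] with p hp
      rw [Real.norm_eq_abs, abs_of_nonneg (norm_nonneg _)]
      exact hp
    refine ⟨hc1int, ?_⟩
    have hpoly := stability_L2_poly1 (μ := (volume : Measure (EuclideanSpace ℝ (Fin d))))
      hKc hconv hr hball hRK hR hT hS hφ hψ hTb hSb h1 h2
    rw [finrank_euclideanSpace_fin, ← hρ_def, ← hJ_def] at hpoly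
    set c₁ : ℝ := ∫ p, ‖p.1 - p.2‖ ∂π with hc₁_def
    have hc₁0 : 0 ≤ c₁ := integral_nonneg (fun p => norm_nonneg _)
    have h3 : J ^ 2 ≤ 4 * R ^ 2 * (128 * (d : ℝ) ^ 3 * R * RK) / r * c₁ := by
      rw [div_mul_eq_mul_div, le_div_iff₀ hr]
      linarith
    have h4 : 4 * R ^ 2 * (128 * (d : ℝ) ^ 3 * R * RK) / r * c₁ ≤ M * c₁ := by
      apply mul_le_mul_of_nonneg_right _ hc₁0
      rw [hM_def]; linarith
    exact h3.trans h4
  have hX : ∀ π : Measure (EuclideanSpace ℝ (Fin d) × EuclideanSpace ℝ (Fin d)),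
      π.fst = μ → π.snd = ν →
      ENNReal.ofReal J ^ 2 / ENNReal.ofReal M ≤ ∫⁻ p, ENNReal.ofReal ‖p.1 - p.2‖ ∂π := by
    intro π h1 h2
    obtain ⟨hc1int, hle⟩ := hreal π h1 h2
    rw [← ofReal_integral_eq_lintegral_ofReal hc1int
      (Filter.Eventually.of_forall (fun p => norm_nonneg _))]
    apply ENNReal.div_le_of_le_mul'
    rw [← ENNReal.ofReal_pow hJ0, ← ENNReal.ofReal_mul hM.le]
    exact ENNReal.ofReal_le_ofReal hle
  have hZ : ENNReal.ofReal J ^ 2 / ENNReal.ofReal M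
      ≤ ⨅ π : Measure (EuclideanSpace ℝ (Fin d) × EuclideanSpace ℝ (Fin d)),
        ⨅ (_ : π.fst = μ ∧ π.snd = ν), ∫⁻ p, ENNReal.ofReal ‖p.1 - p.2‖ ∂π :=
    le_iInf fun π => le_iInf fun h => hX π h.1 h.2
  set Z : ENNReal := ⨅ π : Measure (EuclideanSpace ℝ (Fin d) × EuclideanSpace ℝ (Fin d)),
        ⨅ (_ : π.fst = μ ∧ π.snd = ν), ∫⁻ p, ENNReal.ofReal ‖p.1 - p.2‖ ∂π with hZ_def
  have hMne0 : ENNReal.ofReal M ≠ 0 := by
    rw [Ne, ENNReal.ofReal_eq_zero, not_le]; exact hM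
  have hZ' : ENNReal.ofReal J ^ 2 ≤ ENNReal.ofReal M * Z := by
    have := (ENNReal.div_le_iff_le_mul (Or.inl hMne0) (Or.inl ENNReal.ofReal_ne_top)).1 hZ
    rwa [mul_comm] at this
  have hW : W1 μ ν = Z := rfl
  rw [hW]
  calc ENNReal.ofReal J ^ ((1 : ℝ) / 2)
      = (ENNReal.ofReal J ^ 2) ^ ((1 : ℝ) / 4) := by
        rw [← ENNReal.rpow_natCast, ← ENNReal.rpow_mul]; norm_num
    _ ≤ (ENNReal.ofReal M * Z) ^ ((1 : ℝ) / 4) := ENNReal.rpow_le_rpow hZ' (by norm_num)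
    _ = ENNReal.ofReal M ^ ((1 : ℝ) / 4) * Z ^ ((1 : ℝ) / 4) :=
        ENNReal.mul_rpow_of_nonneg _ _ (by norm_num)
    _ = ENNReal.ofReal (M ^ ((1 : ℝ) / 4)) * Z ^ ((1 : ℝ) / 4) := by
        rw [ENNReal.ofReal_rpow_of_nonneg hM.le (by norm_num)]

end Vale.Agent.H20
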