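import Vale.Agent.H20.OTUpper
import Vale.Agent.H20.OTW1

/-!
# The `W₁` upper bound for the stability exponent (problem P074)
-/

namespace Vale.Agent.H20

open MeasureTheory Set

section estimates1

variable {d : ℕ}

theorem atomPt_sub_flip_norm (i0 i1 : Fin d) (l : ℝ) (hl : 0 ≤ l) :
    ‖atomPt i0 i1 l - atomPt i0 i1 (-l)‖ = 2 * l := by
  have h := atomPt_sub_flip i0 i1 l
  have h2 : (4 : ℝ) * l ^ 2 = (2 * l) ^ 2 := by ring
  rw [h2] at h
  have h4 : |‖atomPt i0 i1 l - atomPt i0 i1 (-l)‖| = |2 * l| := (sq_eq_sq_iff_abs_eq_abs _ _).1 h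
  rw [abs_of_nonneg (norm_nonneg _), abs_of_nonneg (by linarith)] at h4
  exact h4

theorem W1_wedge_le (i0 i1 : Fin d) (h : i0 ≠ i1) (l : ℝ) (hl0 : 0 ≤ l) :
    W1 ((volume.restrict (boxK i0)).map (wedgeMap i0 i1 l))
        ((volume.restrict (boxK i0)).map (wedgeMap i0 i1 (-l)))
      ≤ ENNReal.ofReal (l ^ 2) := by
  have hT := measurable_wedgeMap i0 i1 l
  have hF : Measurable (fun x : EuclideanSpace ℝ (Fin d) => flipIso i1 (wedgeMap i0 i1 l x)) :=
    (flipIso i1).continuous.measurable.comp hT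
  have hfst : ((volume.restrict (boxK i0)).map
      (fun x => (wedgeMap i0 i1 l x, flipIso i1 (wedgeMap i0 i1 l x)))).fst
      = (volume.restrict (boxK i0)).map (wedgeMap i0 i1 l) := Measure.fst_map_prodMk hF
  have hsnd : ((volume.restrict (boxK i0)).map
      (fun x => (wedgeMap i0 i1 l x, flipIso i1 (wedgeMap i0 i1 l x)))).snd
      = (volume.restrict (boxK i0)).map (wedgeMap i0 i1 (-l)) := by
    rw [Measure.snd_map_prodMk hT]
    have e : (fun x : EuclideanSpace ℝ (Fin d) => flipIso i1 (wedgeMap i0 i1 l x))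
        = (wedgeMap i0 i1 (-l)) ∘ (flipIso i1) := by
      funext x
      exact flipIso_wedgeMap i0 i1 h l x
    rw [e, ← Measure.map_map (measurable_wedgeMap i0 i1 (-l)) (flipIso i1).continuous.measurable,
      map_flipIso_restrict i0 i1 h]
  unfold W1
  refine (iInf₂_le _ ⟨hfst, hsnd⟩).trans ?_
  have hmeas : Measurable (fun p : EuclideanSpace ℝ (Fin d) × EuclideanSpace ℝ (Fin d) =>
      ENNReal.ofReal ‖p.1 - p.2‖) :=
    ENNReal.measurable_ofReal.comp (measurable_fst.sub measurable_snd).norm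
  rw [lintegral_map hmeas (hT.prodMk hF)]
  have hpt : ∀ x : EuclideanSpace ℝ (Fin d),
      ENNReal.ofReal ‖wedgeMap i0 i1 l x - flipIso i1 (wedgeMap i0 i1 l x)‖
        ≤ ({x : EuclideanSpace ℝ (Fin d) | x i0 ≤ l * x i1}).indicator
            (fun _ => ENNReal.ofReal (2 * l)) x := by
    intro x
    by_cases hx : x i0 ≤ l * x i1
    · rw [indicator_of_mem (by exact hx)]
      apply ENNReal.ofReal_le_ofReal
      have e1 : wedgeMap i0 i1 l x = atomPt i0 i1 l := by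
        unfold wedgeMap
        rw [if_pos hx]
      rw [e1, flipIso_atomPt i0 i1 h l, atomPt_sub_flip_norm i0 i1 l hl0]
    · rw [indicator_of_notMem (by exact hx)]
      have e1 : wedgeMap i0 i1 l x = 0 := by
        unfold wedgeMap
        rw [if_neg hx]
      rw [e1]
      simp
  refine (lintegral_mono hpt).trans ?_
  rw [lintegral_indicator_const (measurableSet_cell i0 i1 l)]
  have hcell := cell_measure_le i0 i1 h l hl0
  calc ENNReal.ofReal (2 * l) *
        (volume.restrict (boxK i0)) {x : EuclideanSpace ℝ (Fin d) | x i0 ≤ l * x i1}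
      ≤ ENNReal.ofReal (2 * l) * ENNReal.ofReal (l / 2) := by gcongr
    _ = ENNReal.ofReal (l ^ 2) := by
        rw [← ENNReal.ofReal_mul (by positivity)]
        congr 1
        ring

end estimates1

theorem exists_small_param1 (α : ℝ) (hα : 1 / 4 < α) (C : ℝ) :
    ∃ l : ℝ, 0 < l ∧ l ≤ 1 ∧ C * (l ^ 2) ^ α < (l / 32) ^ ((1 : ℝ) / 2) := by
  obtain ⟨β, hβ⟩ : ∃ β : ℝ, β = 2 * α - 1 / 2 := ⟨_, rfl⟩
  have hβpos : 0 < β := by
    rw [hβ]
    linarith
  obtain ⟨A, hA⟩ : ∃ A : ℝ, A = (32 : ℝ) ^ ((1 : ℝ) / 2) := ⟨_, rfl⟩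
  have hApos : 0 < A := by
    rw [hA]
    positivity
  obtain ⟨P, hP⟩ : ∃ P : ℝ, P = max C 1 * A := ⟨_, rfl⟩
  have hmax : (0 : ℝ) < max C 1 := lt_max_of_lt_right one_pos
  have hPpos : 0 < P := by
    rw [hP]
    positivity
  obtain ⟨q, hq⟩ : ∃ q : ℝ, q = 1 / (2 * P + 1) := ⟨_, rfl⟩
  have hqpos : 0 < q := by
    rw [hq]
    positivity
  have hq1 : q ≤ 1 := by
    rw [hq, div_le_one (by positivity)]
    linarith
  obtain ⟨l, hl⟩ : ∃ l : ℝ, l = q ^ (1 / β) := ⟨_, rfl⟩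
  have hlpos : 0 < l := by
    rw [hl]
    exact Real.rpow_pos_of_pos hqpos _
  have hl1 : l ≤ 1 := by
    rw [hl]
    exact Real.rpow_le_one hqpos.le hq1 (by positivity)
  refine ⟨l, hlpos, hl1, ?_⟩
  have hlβ : l ^ β = q := by
    rw [hl, ← Real.rpow_mul hqpos.le, one_div, inv_mul_cancel₀ hβpos.ne', Real.rpow_one]
  have e1 : (l ^ 2) ^ α = l ^ β * l ^ ((1 : ℝ) / 2) := by
    rw [← Real.rpow_natCast l 2, ← Real.rpow_mul hlpos.le, ← Real.rpow_add hlpos]
    have x2 : ((2 : ℕ) : ℝ) * α = β + 1 / 2 := by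
      rw [hβ]
      push_cast
      ring
    rw [x2]
  have e2 : (l / 32) ^ ((1 : ℝ) / 2) = l ^ ((1 : ℝ) / 2) / (32 : ℝ) ^ ((1 : ℝ) / 2) :=
    Real.div_rpow hlpos.le (by norm_num) _
  rw [e1, e2, hlβ]
  have h32 : 0 < (32 : ℝ) ^ ((1 : ℝ) / 2) := by positivity
  have hl2 : 0 < l ^ ((1 : ℝ) / 2) := by positivity
  rw [lt_div_iff₀ h32]
  have hPq : P * q < 1 := by
    rw [hq, mul_one_div, div_lt_one (by positivity)]
    linarith
  have hC : C * A * q ≤ P * q := by
    apply mul_le_mul_of_nonneg_right _ hqpos.le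
    rw [hP]
    exact mul_le_mul_of_nonneg_right (le_max_left _ _) hApos.le
  calc C * (q * l ^ ((1 : ℝ) / 2)) * (32 : ℝ) ^ ((1 : ℝ) / 2)
      = (C * A * q) * l ^ ((1 : ℝ) / 2) := by
        rw [hA]
        ring
    _ ≤ (P * q) * l ^ ((1 : ℝ) / 2) := mul_le_mul_of_nonneg_right hC hl2.le
    _ < 1 * l ^ ((1 : ℝ) / 2) := mul_lt_mul_of_pos_right hPq hl2
    _ = l ^ ((1 : ℝ) / 2) := one_mul _

/-- The `W₁` analogue of `third_upper_aux`: exponents above `1/4` fail for `W₁`. -/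
theorem quarter_upper_W1_aux (d : ℕ) (hd : 2 ≤ d) :
    ∃ K Y : Set (EuclideanSpace ℝ (Fin d)),
      IsCompact K ∧ Convex ℝ K ∧ (interior K).Nonempty ∧ IsCompact Y ∧
      ∀ α : ℝ, 1 / 4 < α → ∀ C : ℝ,
        ∃ (μ ν : Measure (EuclideanSpace ℝ (Fin d)))
          (T S : EuclideanSpace ℝ (Fin d) → EuclideanSpace ℝ (Fin d)),
          IsProbabilityMeasure μ ∧ IsProbabilityMeasure ν ∧
          (∀ᵐ y ∂μ, y ∈ Y) ∧ (∀ᵐ y ∂ν, y ∈ Y) ∧
          IsOptimalMap (ProbabilityTheory.cond volume K) μ T ∧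
          IsOptimalMap (ProbabilityTheory.cond volume K) ν S ∧
          IsBrenierMap (ProbabilityTheory.cond volume K) T ∧
          IsBrenierMap (ProbabilityTheory.cond volume K) S ∧
          ENNReal.ofReal C * W1 μ ν ^ α
            < eLpNorm (fun x => T x - S x) 2 (ProbabilityTheory.cond volume K) := by
  obtain ⟨i0, hi0⟩ : ∃ i0 : Fin d, i0 = ⟨0, by omega⟩ := ⟨_, rfl⟩
  obtain ⟨i1, hi1⟩ : ∃ i1 : Fin d, i1 = ⟨1, by omega⟩ := ⟨_, rfl⟩
  have h01 : i0 ≠ i1 := by
    rw [hi0, hi1]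
    intro h
    have := congrArg Fin.val h
    simp at this
  refine ⟨boxK i0, Metric.closedBall 0 2, isCompact_box _ _, convex_box _ _,
    interior_box_nonempty _ _ (fun i => by linarith), isCompact_closedBall 0 2, ?_⟩
  intro α hα C
  obtain ⟨l, hl0, hl1, hlt⟩ := exists_small_param1 α hα C
  have habs : |l| ≤ 1 := by
    rw [abs_of_pos hl0]
    exact hl1
  have habs' : |-l| ≤ 1 := by
    rw [abs_neg]
    exact habs
  rw [cond_boxK]
  have hprob : IsProbabilityMeasure (volume.restrict (boxK i0)) := by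
    constructor
    rw [Measure.restrict_apply MeasurableSet.univ, univ_inter, volume_boxK]
  have hY : ∀ (m : ℝ), |m| ≤ 1 → ∀ᵐ y ∂((volume.restrict (boxK i0)).map (wedgeMap i0 i1 m)),
      y ∈ Metric.closedBall (0 : EuclideanSpace ℝ (Fin d)) 2 := by
    intro m hm
    rw [ae_map_iff (p := fun y => y ∈ Metric.closedBall (0 : EuclideanSpace ℝ (Fin d)) 2)
      (measurable_wedgeMap i0 i1 m).aemeasurable measurableSet_closedBall]
    apply Filter.Eventually.of_forall
    intro x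
    rw [mem_closedBall_zero_iff]
    unfold wedgeMap
    split_ifs
    · exact norm_atomPt_le i0 i1 m hm
    · simp
  refine ⟨(volume.restrict (boxK i0)).map (wedgeMap i0 i1 l),
    (volume.restrict (boxK i0)).map (wedgeMap i0 i1 (-l)),
    wedgeMap i0 i1 l, wedgeMap i0 i1 (-l),
    Measure.isProbabilityMeasure_map (measurable_wedgeMap i0 i1 l).aemeasurable,
    Measure.isProbabilityMeasure_map (measurable_wedgeMap i0 i1 (-l)).aemeasurable,
    hY l habs, hY (-l) habs',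
    isOptimalMap_wedgeMap _ i0 i1 l habs, isOptimalMap_wedgeMap _ i0 i1 (-l) habs',
    isBrenierMap_wedgeMap _ i0 i1 l, isBrenierMap_wedgeMap _ i0 i1 (-l), ?_⟩
  have hW := W1_wedge_le i0 i1 h01 l hl0.le
  have hN := eLpNorm_wedge_ge i0 i1 h01 l hl0 hl1
  have hα0 : 0 ≤ α := by linarith
  calc ENNReal.ofReal C * W1 ((volume.restrict (boxK i0)).map (wedgeMap i0 i1 l))
          ((volume.restrict (boxK i0)).map (wedgeMap i0 i1 (-l))) ^ α
      ≤ ENNReal.ofReal C * (ENNReal.ofReal (l ^ 2)) ^ α := by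
        gcongr
    _ = ENNReal.ofReal (C * (l ^ 2) ^ α) := by
        rw [ENNReal.ofReal_rpow_of_nonneg (by positivity) hα0,
          ENNReal.ofReal_mul' (by positivity)]
    _ < ENNReal.ofReal ((l / 32) ^ ((1 : ℝ) / 2)) :=
        (ENNReal.ofReal_lt_ofReal_iff (by positivity)).2 hlt
    _ = (ENNReal.ofReal (l / 32)) ^ ((1 : ℝ) / 2) := by
        rw [ENNReal.ofReal_rpow_of_nonneg (by positivity) (by norm_num)]
    _ ≤ _ := hN

end Vale.Agent.H20
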