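import Vale.Agent.H20.OTDefs3
import Vale.Agent.H20.OTBrenier
import Vale.Agent.H20.OTUpper1

/-!
# Problem P074: the stability exponent lies in `[1/4, 1/3]`
-/

namespace Vale.Agent.H20

open MeasureTheory Set

theorem admissible_quarter_W1 (d : ℕ) : AdmissibleExponent d W1 (1 / 4) := by
  intro K Y hKc hconv hint hYc
  obtain ⟨C, hC⟩ := quarter_holder_W1_aux hKc hconv hint hYc
  refine ⟨C, fun μ ν T S hμ hν hT hS => ?_⟩
  exact hC μ ν T S hμ hν (isBrenierMap_of_isOptimalMap hKc hconv hint hYc hμ hT) hT.2.1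
    (isBrenierMap_of_isOptimalMap hKc hconv hint hYc hν hS) hS.2.1

theorem admissible_quarter_W2 (d : ℕ) : AdmissibleExponent d W2 (1 / 4) := by
  intro K Y hKc hconv hint hYc
  obtain ⟨C, hC⟩ := quarter_holder_aux hKc hconv hint hYc
  refine ⟨C, fun μ ν T S hμ hν hT hS => ?_⟩
  exact hC μ ν T S hμ hν (isBrenierMap_of_isOptimalMap hKc hconv hint hYc hμ hT) hT.2.1
    (isBrenierMap_of_isOptimalMap hKc hconv hint hYc hν hS) hS.2.1

theorem not_admissible_above_third_W2 (d : ℕ) (hd : 2 ≤ d) (α : ℝ) (hα : 1 / 3 < α) :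
    ¬ AdmissibleExponent d W2 α := by
  intro hadm
  obtain ⟨K, Y, hKc, hconv, hint, hYc, h⟩ := third_upper_aux d hd
  obtain ⟨C, hC⟩ := hadm K Y hKc hconv hint hYc
  obtain ⟨μ, ν, T, S, -, -, hμ, hν, hT, hS, -, -, hlt⟩ := h α hα C
  exact absurd (hC μ ν T S hμ hν hT hS) (not_le.2 hlt)

theorem not_admissible_above_quarter_W1 (d : ℕ) (hd : 2 ≤ d) (α : ℝ) (hα : 1 / 4 < α) :
    ¬ AdmissibleExponent d W1 α := by
  intro hadm
  obtain ⟨K, Y, hKc, hconv, hint, hYc, h⟩ := quarter_upper_W1_aux d hd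
  obtain ⟨C, hC⟩ := hadm K Y hKc hconv hint hYc
  obtain ⟨μ, ν, T, S, -, -, hμ, hν, hT, hS, -, -, hlt⟩ := h α hα C
  exact absurd (hC μ ν T S hμ hν hT hS) (not_le.2 hlt)

end Vale.Agent.H20
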