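import Vale.Agent.H20.OTStab
import Vale.Agent.H2.OTDiscretize

/-!
# Discretisation of a coupling into matched atoms (problem P074)
-/

namespace Vale.Agent.H20

open MeasureTheory Set

theorem W2_map_le {d : ℕ} {Ω : Type*} [MeasurableSpace Ω] (π : Measure Ω)
    [IsProbabilityMeasure π] {f Φ : Ω → EuclideanSpace ℝ (Fin d)} (hf : Measurable f)
    (hΦ : Measurable Φ) {η : ℝ} (hη : 0 ≤ η) (h : ∀ᵐ p ∂π, ‖f p - Φ p‖ ≤ η) :
    W2 (π.map f) (π.map Φ) ≤ ENNReal.ofReal η := by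
  unfold W2
  have hγ1 : (π.map (fun p => (f p, Φ p))).fst = π.map f := by
    rw [Measure.fst, Measure.map_map measurable_fst (hf.prodMk hΦ)]
    rfl
  have hγ2 : (π.map (fun p => (f p, Φ p))).snd = π.map Φ := by
    rw [Measure.snd, Measure.map_map measurable_snd (hf.prodMk hΦ)]
    rfl
  have hmeas : Measurable fun q : EuclideanSpace ℝ (Fin d) × EuclideanSpace ℝ (Fin d) =>
      ENNReal.ofReal (‖q.1 - q.2‖ ^ 2) :=
    ENNReal.measurable_ofReal.comp ((measurable_fst.sub measurable_snd).norm.pow_const 2)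
  have hle : (⨅ γ : Measure (EuclideanSpace ℝ (Fin d) × EuclideanSpace ℝ (Fin d)),
      ⨅ (_ : γ.fst = π.map f ∧ γ.snd = π.map Φ), ∫⁻ q, ENNReal.ofReal (‖q.1 - q.2‖ ^ 2) ∂γ)
      ≤ ENNReal.ofReal (η ^ 2) := by
    refine (iInf₂_le (π.map (fun p => (f p, Φ p))) ⟨hγ1, hγ2⟩).trans ?_
    rw [lintegral_map hmeas (hf.prodMk hΦ)]
    calc ∫⁻ p, ENNReal.ofReal (‖f p - Φ p‖ ^ 2) ∂π ≤ ∫⁻ _p, ENNReal.ofReal (η ^ 2) ∂π := by
          refine lintegral_mono_ae ?_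
          filter_upwards [h] with p hp
          exact ENNReal.ofReal_le_ofReal (pow_le_pow_left₀ (norm_nonneg _) hp 2)
      _ = ENNReal.ofReal (η ^ 2) := by simp
  calc (⨅ γ : Measure (EuclideanSpace ℝ (Fin d) × EuclideanSpace ℝ (Fin d)),
      ⨅ (_ : γ.fst = π.map f ∧ γ.snd = π.map Φ), ∫⁻ q, ENNReal.ofReal (‖q.1 - q.2‖ ^ 2) ∂γ)
        ^ ((1 : ℝ) / 2)
      ≤ (ENNReal.ofReal (η ^ 2)) ^ ((1 : ℝ) / 2) := ENNReal.rpow_le_rpow hle (by norm_num)
    _ = ENNReal.ofReal η := by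
      rw [ENNReal.ofReal_rpow_of_nonneg (sq_nonneg η) (by norm_num), ← Real.sqrt_eq_rpow,
        Real.sqrt_sq hη]

/-- Discretisation of a coupling into matched atoms with injective site maps. -/
theorem exists_discrete_coupling' {d : ℕ} {R : ℝ} (hR : 0 ≤ R)
    (π : Measure (EuclideanSpace ℝ (Fin d) × EuclideanSpace ℝ (Fin d))) [IsProbabilityMeasure π]
    (hπ : ∀ᵐ p ∂π, ‖p.1‖ ≤ R ∧ ‖p.2‖ ≤ R) {δ : ℝ} (hδ : 0 < δ) :
    ∃ (n : ℕ) (y z : Fin (n + 1) → EuclideanSpace ℝ (Fin d)) (w : Fin (n + 1) → ℝ),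
      Function.Injective y ∧ Function.Injective z ∧ (∀ i, 0 < w i) ∧ (∑ i, w i) = 1 ∧
      (∀ i, ‖y i‖ ≤ R + 1) ∧ (∀ i, ‖z i‖ ≤ R + 1) ∧
      W2 π.fst (∑ i, ENNReal.ofReal (w i) • Measure.dirac (y i)) ≤ ENNReal.ofReal δ ∧
      W2 π.snd (∑ i, ENNReal.ofReal (w i) • Measure.dirac (z i)) ≤ ENNReal.ofReal δ ∧
      (∑ i, w i * ‖z i - y i‖ ^ 2) ≤ (Real.sqrt (∫ p, ‖p.1 - p.2‖ ^ 2 ∂π) + δ) ^ 2 := by
  set η : ℝ := min δ 1 with hη_def
  have hη : 0 < η := lt_min hδ one_pos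
  have hηδ : η ≤ δ := min_le_left _ _
  have hη1 : η ≤ 1 := min_le_right _ _
  have hae : ∀ᵐ p ∂π, p.1 ∈ Metric.closedBall (0 : EuclideanSpace ℝ (Fin d)) R
      ∧ p.2 ∈ Metric.closedBall (0 : EuclideanSpace ℝ (Fin d)) R := by
    filter_upwards [hπ] with p hp
    exact ⟨mem_closedBall_zero_iff.2 hp.1, mem_closedBall_zero_iff.2 hp.2⟩
  obtain ⟨n, y, z, w, Φy, Φz, hy, hz, hw, hsum, hyY, hzY, hΦym, hΦzm, hmy, hmz, hdy, hdz,
    hdyz, hcost⟩ := Vale.Agent.H2.exists_atoms_of_coupling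
      (isCompact_closedBall (0 : EuclideanSpace ℝ (Fin d)) R) π hae hη
  have hn : n ≠ 0 := by
    rintro rfl
    simp at hsum
  obtain ⟨n', rfl⟩ := Nat.exists_eq_succ_of_ne_zero hn
  have hbd : ∀ᵐ p ∂π, ‖p.1 - p.2‖ ≤ 2 * R := by
    filter_upwards [hπ] with p hp
    have := (norm_sub_le p.1 p.2).trans (add_le_add hp.1 hp.2)
    linarith
  refine ⟨n', y, z, w, hy, hz, hw, hsum, ?_, ?_, ?_, ?_, ?_⟩
  · intro i
    have h1 := hyY i
    rw [cthickening_closedBall hη.le hR] at h1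
    have h2 := mem_closedBall_zero_iff.1 h1
    linarith
  · intro i
    have h1 := hzY i
    rw [cthickening_closedBall hη.le hR] at h1
    have h2 := mem_closedBall_zero_iff.1 h1
    linarith
  · rw [← hmy]
    exact (W2_map_le π measurable_fst hΦym hη.le hdy).trans (ENNReal.ofReal_le_ofReal hηδ)
  · rw [← hmz]
    exact (W2_map_le π measurable_snd hΦzm hη.le hdz).trans (ENNReal.ofReal_le_ofReal hηδ)
  · set c₂ : ℝ := ∫ p, ‖p.1 - p.2‖ ^ 2 ∂π with hc₂_def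
    have hc₂0 : 0 ≤ c₂ := integral_nonneg (fun p => sq_nonneg _)
    have hm : Measurable fun p : EuclideanSpace ℝ (Fin d) × EuclideanSpace ℝ (Fin d) =>
        ‖p.1 - p.2‖ := (measurable_fst.sub measurable_snd).norm
    have hu : Integrable (fun p : EuclideanSpace ℝ (Fin d) × EuclideanSpace ℝ (Fin d) =>
        ‖p.1 - p.2‖) π := by
      refine Integrable.of_bound hm.aestronglyMeasurable (2 * R) ?_
      filter_upwards [hbd] with p hp
      rw [Real.norm_eq_abs, abs_of_nonneg (norm_nonneg _)]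
      exact hp
    have hu2 : Integrable (fun p : EuclideanSpace ℝ (Fin d) × EuclideanSpace ℝ (Fin d) =>
        ‖p.1 - p.2‖ ^ 2) π := by
      refine Integrable.of_bound (hm.pow_const 2).aestronglyMeasurable ((2 * R) ^ 2) ?_
      filter_upwards [hbd] with p hp
      rw [Real.norm_eq_abs, abs_of_nonneg (sq_nonneg _)]
      exact pow_le_pow_left₀ (norm_nonneg _) hp 2
    set c₁ : ℝ := ∫ p, ‖p.1 - p.2‖ ∂π with hc₁_def
    have hc₁0 : 0 ≤ c₁ := integral_nonneg (fun p => norm_nonneg _)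
    have hcs : c₁ ^ 2 ≤ c₂ := sq_integral_le_integral_sq hbd
    have hc₁le : c₁ ≤ Real.sqrt c₂ := by
      have := Real.abs_le_sqrt hcs
      rwa [abs_of_nonneg hc₁0] at this
    have hint3 : Integrable (fun p : EuclideanSpace ℝ (Fin d) × EuclideanSpace ℝ (Fin d) =>
        (‖p.1 - p.2‖ + η) ^ 2) π := by
      have : (fun p : EuclideanSpace ℝ (Fin d) × EuclideanSpace ℝ (Fin d) =>
          (‖p.1 - p.2‖ + η) ^ 2)
          = fun p => ‖p.1 - p.2‖ ^ 2 + (2 * η) * ‖p.1 - p.2‖ + η ^ 2 := by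
        funext p
        ring
      rw [this]
      exact (hu2.add (hu.const_mul _)).add (integrable_const _)
    have hval : ∫ p, (‖p.1 - p.2‖ + η) ^ 2 ∂π = c₂ + 2 * η * c₁ + η ^ 2 := by
      have : (fun p : EuclideanSpace ℝ (Fin d) × EuclideanSpace ℝ (Fin d) =>
          (‖p.1 - p.2‖ + η) ^ 2)
          = fun p => ‖p.1 - p.2‖ ^ 2 + (2 * η) * ‖p.1 - p.2‖ + η ^ 2 := by
        funext p
        ring
      rw [this]
      have h1 : ∫ p, (‖p.1 - p.2‖ ^ 2 + (2 * η) * ‖p.1 - p.2‖ + η ^ 2) ∂π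
          = (∫ p, (‖p.1 - p.2‖ ^ 2 + (2 * η) * ‖p.1 - p.2‖) ∂π) + ∫ _p, η ^ 2 ∂π :=
        integral_add (hu2.add (hu.const_mul _)) (integrable_const _)
      have h2 : ∫ p, (‖p.1 - p.2‖ ^ 2 + (2 * η) * ‖p.1 - p.2‖) ∂π
          = (∫ p, ‖p.1 - p.2‖ ^ 2 ∂π) + ∫ p, (2 * η) * ‖p.1 - p.2‖ ∂π :=
        integral_add hu2 (hu.const_mul _)
      rw [h1, h2, integral_const_mul, integral_const]
      simp
      rfl
    have hXle : c₂ + 2 * η * c₁ + η ^ 2 ≤ (Real.sqrt c₂ + δ) ^ 2 := by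
      have h1 : c₂ + 2 * η * c₁ + η ^ 2 ≤ (Real.sqrt c₂ + η) ^ 2 := by
        have hsq : Real.sqrt c₂ ^ 2 = c₂ := Real.sq_sqrt hc₂0
        nlinarith [mul_le_mul_of_nonneg_left hc₁le hη.le]
      exact h1.trans (pow_le_pow_left₀ (add_nonneg (Real.sqrt_nonneg _) hη.le)
        (by linarith) 2)
    have hL : ∑ i, ENNReal.ofReal (w i) * ENNReal.ofReal (‖y i - z i‖ ^ 2)
        = ENNReal.ofReal (∑ i, w i * ‖z i - y i‖ ^ 2) := by
      rw [ENNReal.ofReal_sum_of_nonneg (fun i _ => mul_nonneg (hw i).le (sq_nonneg _))]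
      refine Finset.sum_congr rfl fun i _ => ?_
      rw [ENNReal.ofReal_mul (hw i).le, norm_sub_rev]
    have hRle : ∫⁻ p, ENNReal.ofReal (‖Φy p - Φz p‖ ^ 2) ∂π
        ≤ ENNReal.ofReal (∫ p, (‖p.1 - p.2‖ + η) ^ 2 ∂π) := by
      rw [ofReal_integral_eq_lintegral_ofReal hint3
        (Filter.Eventually.of_forall (fun p => sq_nonneg _))]
      refine lintegral_mono_ae ?_
      filter_upwards [hdyz] with p hp
      exact ENNReal.ofReal_le_ofReal (pow_le_pow_left₀ (norm_nonneg _) hp 2)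
    rw [hL] at hcost
    rw [hval] at hRle
    have hfin : ENNReal.ofReal (∑ i, w i * ‖z i - y i‖ ^ 2)
        ≤ ENNReal.ofReal ((Real.sqrt c₂ + δ) ^ 2) := by
      rw [hcost]
      exact hRle.trans (ENNReal.ofReal_le_ofReal hXle)
    exact (ENNReal.ofReal_le_ofReal_iff (sq_nonneg _)).1 hfin

end Vale.Agent.H20
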