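import Vale.Agent.H20.OTDefs
import Vale.Agent.H68.OTExist
import Vale.Agent.H50.OTLagMap
import Vale.Agent.H22.OT.C1
import Vale.Agent.H20.OTThirdDiscr

/-!
# Interface lemmas for the exponent `1/3` (problem P074)

The four ingredients of the final assembly, in the exact shapes used there.
-/

namespace Vale.Agent.H20

open MeasureTheory Set

/-- Existence of prices realising prescribed cell volumes (semi-discrete transport). -/
theorem ext_prices {d : ℕ} {ι : Type*} [Fintype ι] [Nonempty ι]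
    {K : Set (EuclideanSpace ℝ (Fin d))} (hKc : IsCompact K)
    (y : ι → EuclideanSpace ℝ (Fin d)) (hy : Function.Injective y)
    (m : ι → ℝ) (hm : ∀ j, 0 < m j)
    (hsum : ∑ j, m j = (volume : Measure (EuclideanSpace ℝ (Fin d))).real K) :
    ∃ c : ι → ℝ, ∀ j, (volume : Measure (EuclideanSpace ℝ (Fin d))).real
      {x | x ∈ K ∧ ∀ k, inner ℝ x (y k) - c k ≤ inner ℝ x (y j) - c j} = m j :=
  Vale.Agent.H68.exists_prices_haar volume hKc y hy m hm hsum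

/-- Stability of the potentials in `L²` under a displacement of the atoms. -/
theorem ext_c1 {d : ℕ} {ι : Type*} [Fintype ι] [Nonempty ι]
    {K : Set (EuclideanSpace ℝ (Fin d))} (hKc : IsCompact K) (hconv : Convex ℝ K)
    (hint : (interior K).Nonempty) {D : ℝ} (hD : ∀ x ∈ K, ∀ x' ∈ K, dist x x' ≤ D)
    (y z : ι → EuclideanSpace ℝ (Fin d)) (hy : Function.Injective y) (hz : Function.Injective z)
    (m : ι → ℝ) (hm : ∀ j, 0 < m j) (c0 c1 : ι → ℝ)
    (h0 : ∀ j, (volume : Measure (EuclideanSpace ℝ (Fin d))).real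
      {x | x ∈ K ∧ ∀ k, inner ℝ x (y k) - c0 k ≤ inner ℝ x (y j) - c0 j} = m j)
    (h1 : ∀ j, (volume : Measure (EuclideanSpace ℝ (Fin d))).real
      {x | x ∈ K ∧ ∀ k, inner ℝ x (z k) - c1 k ≤ inner ℝ x (z j) - c1 j} = m j) :
    ∃ a : ℝ, ∫ x in K, ((⨆ j, (inner ℝ x (z j) - c1 j)) - (⨆ j, (inner ℝ x (y j) - c0 j)) - a) ^ 2
      ≤ 10 * D ^ 2 * ∑ i, m i * ‖z i - y i‖ ^ 2 :=
  Vale.Agent.H22.OT.c1_discrete hKc hconv hint
    (fun x hx x' hx' => by rw [← dist_eq_norm]; exact hD x hx x' hx') y z hy hz m hm c0 c1 h0 h1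

/-- The transport map of a price vector. -/
theorem ext_lagMap {d : ℕ} {ι : Type*} [Fintype ι] [Nonempty ι]
    {K : Set (EuclideanSpace ℝ (Fin d))} (hKc : IsCompact K)
    (hKpos : (volume : Measure (EuclideanSpace ℝ (Fin d))) K ≠ 0)
    (y : ι → EuclideanSpace ℝ (Fin d)) (hy : Function.Injective y) (w : ι → ℝ) (c : ι → ℝ)
    (hc : ∀ j, (volume : Measure (EuclideanSpace ℝ (Fin d))).real
        {x | x ∈ K ∧ ∀ k, inner ℝ x (y k) - c k ≤ inner ℝ x (y j) - c j}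
          = w j * (volume : Measure (EuclideanSpace ℝ (Fin d))).real K) :
    ∃ T : EuclideanSpace ℝ (Fin d) → EuclideanSpace ℝ (Fin d), Measurable T ∧
      (∀ x, ∃ j, T x = y j) ∧
      (∀ x z, (⨆ j, (inner ℝ x (y j) - c j)) + inner ℝ (T x) (z - x)
          ≤ ⨆ j, (inner ℝ z (y j) - c j)) ∧
      (ProbabilityTheory.cond volume K).map T
        = ∑ j, ENNReal.ofReal (w j) • Measure.dirac (y j) :=
  Vale.Agent.H50.exists_lagMap hKc hKpos y hy w c hc

/-- Discretisation of a coupling into matched atoms with injective site maps. -/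
theorem ext_discr {d : ℕ} {R : ℝ} (hR : 0 ≤ R)
    (π : Measure (EuclideanSpace ℝ (Fin d) × EuclideanSpace ℝ (Fin d))) [IsProbabilityMeasure π]
    (hπ : ∀ᵐ p ∂π, ‖p.1‖ ≤ R ∧ ‖p.2‖ ≤ R) {δ : ℝ} (hδ : 0 < δ) :
    ∃ (n : ℕ) (y z : Fin (n + 1) → EuclideanSpace ℝ (Fin d)) (w : Fin (n + 1) → ℝ),
      Function.Injective y ∧ Function.Injective z ∧ (∀ i, 0 < w i) ∧ (∑ i, w i) = 1 ∧
      (∀ i, ‖y i‖ ≤ R + 1) ∧ (∀ i, ‖z i‖ ≤ R + 1) ∧
      W2 π.fst (∑ i, ENNReal.ofReal (w i) • Measure.dirac (y i)) ≤ ENNReal.ofReal δ ∧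
      W2 π.snd (∑ i, ENNReal.ofReal (w i) • Measure.dirac (z i)) ≤ ENNReal.ofReal δ ∧
      (∑ i, w i * ‖z i - y i‖ ^ 2) ≤ (Real.sqrt (∫ p, ‖p.1 - p.2‖ ^ 2 ∂π) + δ) ^ 2 :=
  exists_discrete_coupling' hR π hπ hδ

end Vale.Agent.H20
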