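import Vale.Agent.H20.OTFinal
import Vale.Agent.H20.OTThirdExt
import Vale.Agent.H38.OTGN

/-!
# The exponent `1/3` is admissible (problem P074): final assembly
-/

namespace Vale.Agent.H20

open MeasureTheory Set

section pot

variable {E : Type*} [NormedAddCommGroup E] [InnerProductSpace ℝ E]
  {ι : Type*} [Fintype ι]

theorem le_iSup_pot (y : ι → E) (c : ι → ℝ) (x : E) (j : ι) :
    inner ℝ x (y j) - c j ≤ ⨆ k, (inner ℝ x (y k) - c k) :=
  le_ciSup (f := fun k => inner ℝ x (y k) - c k) (Set.finite_range _).bddAbove j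

variable [Nonempty ι]

theorem iSup_pot_lipschitz (y : ι → E) (c : ι → ℝ) {R : ℝ} (hy : ∀ j, ‖y j‖ ≤ R) (a b : E) :
    |(⨆ j, (inner ℝ a (y j) - c j)) - ⨆ j, (inner ℝ b (y j) - c j)| ≤ R * ‖a - b‖ := by
  have key : ∀ a b : E,
      (⨆ j, (inner ℝ a (y j) - c j)) - (⨆ j, (inner ℝ b (y j) - c j)) ≤ R * ‖a - b‖ := by
    intro a b
    rw [sub_le_iff_le_add]
    refine ciSup_le fun j => ?_
    have h1 := le_iSup_pot y c b j
    have h2 : inner ℝ a (y j) - inner ℝ b (y j) ≤ R * ‖a - b‖ := by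
      rw [← inner_sub_left]
      calc inner ℝ (a - b) (y j) ≤ ‖a - b‖ * ‖y j‖ := real_inner_le_norm _ _
        _ ≤ ‖a - b‖ * R := mul_le_mul_of_nonneg_left (hy j) (norm_nonneg _)
        _ = R * ‖a - b‖ := mul_comm _ _
    linarith
  rw [abs_le]
  constructor
  · have := key b a
    rw [norm_sub_rev] at this
    linarith
  · exact key a b

theorem iSup_pot_continuous (y : ι → E) (c : ι → ℝ) :
    Continuous fun x : E => ⨆ j, (inner ℝ x (y j) - c j) := by
  have h : (fun x : E => ⨆ j, (inner ℝ x (y j) - c j))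
      = fun x => Finset.univ.sup' Finset.univ_nonempty (fun j => inner ℝ x (y j) - c j) := by
    funext x
    exact (Finset.sup'_univ_eq_ciSup _).symm
  rw [h]
  exact Continuous.finset_sup'_apply Finset.univ_nonempty
    (fun j _ => (continuous_id.inner continuous_const).sub continuous_const)

theorem iSup_pot_convexOn (y : ι → E) (c : ι → ℝ) :
    ConvexOn ℝ Set.univ fun x : E => ⨆ j, (inner ℝ x (y j) - c j) := by
  refine ⟨convex_univ, fun a _ b _ s t hs ht hst => ?_⟩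
  refine ciSup_le fun j => ?_
  have h1 := mul_le_mul_of_nonneg_left (le_iSup_pot y c a j) hs
  have h2 := mul_le_mul_of_nonneg_left (le_iSup_pot y c b j) ht
  simp only [smul_eq_mul, inner_add_left, inner_smul_left, RCLike.conj_to_real]
  have hc : c j = s * c j + t * c j := by rw [← add_mul, hst, one_mul]
  linarith

end pot

/-- The finite case: matched atoms with injective site maps. -/
theorem third_finite {d : ℕ} {K : Set (EuclideanSpace ℝ (Fin d))}
    (hKc : IsCompact K) (hconv : Convex ℝ K) (hint : (interior K).Nonempty)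
    {R₁ : ℝ} (hR₁ : 0 ≤ R₁) :
    ∃ A : ℝ, 0 ≤ A ∧ ∀ (n : ℕ) (y z : Fin (n + 1) → EuclideanSpace ℝ (Fin d))
      (w : Fin (n + 1) → ℝ),
      Function.Injective y → Function.Injective z → (∀ i, 0 < w i) → (∑ i, w i) = 1 →
      (∀ i, ‖y i‖ ≤ R₁) → (∀ i, ‖z i‖ ≤ R₁) →
      ∃ T' S' : EuclideanSpace ℝ (Fin d) → EuclideanSpace ℝ (Fin d),
        IsBrenierMap (ProbabilityTheory.cond volume K) T' ∧
        (ProbabilityTheory.cond volume K).map T'
          = ∑ i, ENNReal.ofReal (w i) • Measure.dirac (y i) ∧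
        IsBrenierMap (ProbabilityTheory.cond volume K) S' ∧
        (ProbabilityTheory.cond volume K).map S'
          = ∑ i, ENNReal.ofReal (w i) • Measure.dirac (z i) ∧
        (∀ x, ‖T' x‖ ≤ R₁) ∧ (∀ x, ‖S' x‖ ≤ R₁) ∧
        ∫ x, ‖T' x - S' x‖ ^ 2 ∂(ProbabilityTheory.cond volume K)
          ≤ A * (∑ i, w i * ‖z i - y i‖ ^ 2) ^ ((1 : ℝ) / 3) := by
  obtain ⟨x₀, hx₀⟩ := hint
  obtain ⟨r', hr', hball'⟩ := Metric.mem_nhds_iff.1 (mem_interior_iff_mem_nhds.1 hx₀)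
  set r : ℝ := r' / 2 with hr_def
  have hr : 0 < r := by positivity
  have hball : Metric.closedBall x₀ r ⊆ K :=
    (Metric.closedBall_subset_ball (by rw [hr_def]; linarith)).trans hball'
  obtain ⟨D, hD⟩ := Metric.isBounded_iff.1 hKc.isBounded
  have hKfin : (volume : Measure (EuclideanSpace ℝ (Fin d))) K ≠ ⊤ := hKc.measure_lt_top.ne
  have hKpos : (volume : Measure (EuclideanSpace ℝ (Fin d))) K ≠ 0 := by
    have h := Metric.measure_closedBall_pos (volume : Measure (EuclideanSpace ℝ (Fin d))) x₀ hr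
    exact (lt_of_lt_of_le h (measure_mono hball)).ne'
  set V : ℝ := (volume : Measure (EuclideanSpace ℝ (Fin d))).real K with hV_def
  have hV : 0 < V := ENNReal.toReal_pos hKpos hKfin
  set Cgn : ℝ := max (16 * (d : ℝ) + 20 * (d : ℝ) ^ 2 * R₁ ^ 2 * V / r) (8 * R₁ ^ 2 * V / r)
    with hCgn_def
  have hCgn : 0 ≤ Cgn := le_max_of_le_right (by positivity)
  refine ⟨V⁻¹ * (Cgn * (10 * D ^ 2 * V) ^ ((1 : ℝ) / 3)), by positivity, ?_⟩
  intro n y z w hy hz hw hsum hyb hzb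
  have hm : ∀ j, 0 < w j * V := fun j => mul_pos (hw j) hV
  have hmsum : ∑ j, w j * V = V := by rw [← Finset.sum_mul, hsum, one_mul]
  obtain ⟨c0, hc0⟩ := ext_prices hKc y hy (fun j => w j * V) hm hmsum
  obtain ⟨c1, hc1⟩ := ext_prices hKc z hz (fun j => w j * V) hm hmsum
  obtain ⟨T', hT'm, hT'r, hT's, hT'p⟩ := ext_lagMap hKc hKpos y hy w c0 hc0
  obtain ⟨S', hS'm, hS'r, hS's, hS'p⟩ := ext_lagMap hKc hKpos z hz w c1 hc1
  obtain ⟨a, ha⟩ := ext_c1 hKc hconv ⟨x₀, hx₀⟩ hD y z hy hz (fun j => w j * V) hm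
    c0 c1 hc0 hc1
  have hT'b : ∀ x, ‖T' x‖ ≤ R₁ := fun x => by
    obtain ⟨j, hj⟩ := hT'r x
    rw [hj]
    exact hyb j
  have hS'b : ∀ x, ‖S' x‖ ≤ R₁ := fun x => by
    obtain ⟨j, hj⟩ := hS'r x
    rw [hj]
    exact hzb j
  refine ⟨T', S', ⟨hT'm, _, iSup_pot_convexOn y c0, Filter.Eventually.of_forall hT's⟩, hT'p,
    ⟨hS'm, _, iSup_pot_convexOn z c1, Filter.Eventually.of_forall hS's⟩, hS'p, hT'b, hS'b, ?_⟩
  have hgn := Vale.Agent.H38.gn_third (μ := (volume : Measure (EuclideanSpace ℝ (Fin d))))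
    hKc hconv hr hball
    (iSup_pot_continuous z c1) (iSup_pot_continuous y c0) hR₁ (iSup_pot_lipschitz y c0 hyb)
    hS'm hT'm (Filter.Eventually.of_forall hS's) (Filter.Eventually.of_forall hT's)
    (Filter.Eventually.of_forall hS'b) (Filter.Eventually.of_forall hT'b) a
  rw [finrank_euclideanSpace_fin, ← hV_def, ← hCgn_def] at hgn
  have hcond : ∫ x, ‖T' x - S' x‖ ^ 2 ∂(ProbabilityTheory.cond volume K)
      = V⁻¹ * ∫ x in K, ‖S' x - T' x‖ ^ 2 := by
    rw [ProbabilityTheory.cond, integral_smul_measure, smul_eq_mul, ENNReal.toReal_inv]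
    congr 2
    funext x
    rw [norm_sub_rev]
  rw [hcond]
  have hsum0 : 0 ≤ ∑ i, w i * ‖z i - y i‖ ^ 2 :=
    Finset.sum_nonneg fun i _ => mul_nonneg (hw i).le (sq_nonneg _)
  have h10 : (∫ x in K, ((⨆ j, (inner ℝ x (z j) - c1 j)) - (⨆ j, (inner ℝ x (y j) - c0 j)) - a) ^ 2)
      ≤ 10 * D ^ 2 * V * ∑ i, w i * ‖z i - y i‖ ^ 2 := by
    refine ha.trans (le_of_eq ?_)
    rw [mul_assoc (10 * D ^ 2) V, Finset.mul_sum _ _ V]
    congr 1
    refine Finset.sum_congr rfl fun i _ => ?_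
    ring
  have hI0 : 0 ≤ ∫ x in K, ((⨆ j, (inner ℝ x (z j) - c1 j))
      - (⨆ j, (inner ℝ x (y j) - c0 j)) - a) ^ 2 :=
    integral_nonneg fun x => sq_nonneg _
  have hV' : 0 ≤ V⁻¹ := inv_nonneg.2 hV.le
  calc V⁻¹ * ∫ x in K, ‖S' x - T' x‖ ^ 2
      ≤ V⁻¹ * (Cgn * (10 * D ^ 2 * V * ∑ i, w i * ‖z i - y i‖ ^ 2) ^ ((1 : ℝ) / 3)) := by
        refine mul_le_mul_of_nonneg_left (hgn.trans ?_) hV'
        exact mul_le_mul_of_nonneg_left (Real.rpow_le_rpow hI0 h10 (by norm_num)) hCgn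
    _ = V⁻¹ * (Cgn * (10 * D ^ 2 * V) ^ ((1 : ℝ) / 3))
          * (∑ i, w i * ‖z i - y i‖ ^ 2) ^ ((1 : ℝ) / 3) := by
        rw [Real.mul_rpow (by positivity) hsum0]
        ring

theorem ae_mem_sum_dirac {d : ℕ} {n : ℕ} (y : Fin (n + 1) → EuclideanSpace ℝ (Fin d))
    (w : Fin (n + 1) → ℝ) {R₁ : ℝ} (hyb : ∀ i, ‖y i‖ ≤ R₁) :
    ∀ᵐ u ∂(∑ i, ENNReal.ofReal (w i) • Measure.dirac (y i)),
      u ∈ Metric.closedBall (0 : EuclideanSpace ℝ (Fin d)) R₁ := by
  rw [ae_iff, Measure.coe_finsetSum, Finset.sum_apply]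
  refine Finset.sum_eq_zero fun i _ => ?_
  have hms : MeasurableSet {u : EuclideanSpace ℝ (Fin d) | u ∉ Metric.closedBall (0 : EuclideanSpace ℝ (Fin d)) R₁} :=
    Metric.isClosed_closedBall.measurableSet.compl
  rw [Measure.smul_apply, Measure.dirac_apply' _ hms]
  have : y i ∉ {u : EuclideanSpace ℝ (Fin d) | u ∉ Metric.closedBall (0 : EuclideanSpace ℝ (Fin d)) R₁} := by
    simp only [Set.mem_ofPred_eq, not_not, mem_closedBall_zero_iff]
    exact hyb i
  rw [Set.indicator_of_notMem this]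
  simp

theorem third_holder_aux {d : ℕ} {K Y : Set (EuclideanSpace ℝ (Fin d))}
    (hKc : IsCompact K) (hconv : Convex ℝ K) (hint : (interior K).Nonempty)
    (hYc : IsCompact Y) :
    ∃ C : ℝ, ∀ (μ ν : Measure (EuclideanSpace ℝ (Fin d)))
      (T S : EuclideanSpace ℝ (Fin d) → EuclideanSpace ℝ (Fin d)),
      (∀ᵐ y ∂μ, y ∈ Y) → (∀ᵐ y ∂ν, y ∈ Y) →
      IsBrenierMap (ProbabilityTheory.cond volume K) T →
      (ProbabilityTheory.cond volume K).map T = μ →
      IsBrenierMap (ProbabilityTheory.cond volume K) S →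
      (ProbabilityTheory.cond volume K).map S = ν →
      eLpNorm (fun x => T x - S x) 2 (ProbabilityTheory.cond volume K)
        ≤ ENNReal.ofReal C * W2 μ ν ^ ((1 : ℝ) / 3) := by
  obtain ⟨CY, hCY⟩ := hYc.isBounded.exists_norm_le
  set R : ℝ := max CY 0 with hR_def
  have hR : 0 ≤ R := le_max_right _ _
  have hRY : ∀ y ∈ Y, ‖y‖ ≤ R := fun y hy => (hCY y hy).trans (le_max_left _ _)
  set R₁ : ℝ := R + 1 with hR₁_def
  have hR₁ : 0 ≤ R₁ := by positivity
  obtain ⟨C₀, hC₀⟩ := quarter_holder_aux hKc hconv hint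
    (isCompact_closedBall (0 : EuclideanSpace ℝ (Fin d)) R₁)
  set C₁ : ℝ := max C₀ 0 with hC₁_def
  have hC₁ : 0 ≤ C₁ := le_max_right _ _
  obtain ⟨A, hA0, hA⟩ := third_finite hKc hconv hint hR₁
  set M : ℝ := A ^ 3 + 1 with hM_def
  have hM : 0 < M := by positivity
  refine ⟨M ^ ((1 : ℝ) / 6), ?_⟩
  intro μ ν T S hμY hνY hBT hmT hBS hmS
  have hT : Measurable T := hBT.1
  have hS : Measurable S := hBS.1
  obtain ⟨x₀, hx₀⟩ := hint
  obtain ⟨r, hr, hball'⟩ := Metric.mem_nhds_iff.1 (mem_interior_iff_mem_nhds.1 hx₀)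
  have hKfin : (volume : Measure (EuclideanSpace ℝ (Fin d))) K ≠ ⊤ := hKc.measure_lt_top.ne
  have hKpos : (volume : Measure (EuclideanSpace ℝ (Fin d))) K ≠ 0 := by
    have h := Metric.measure_ball_pos (volume : Measure (EuclideanSpace ℝ (Fin d))) x₀ hr
    exact (lt_of_lt_of_le h (measure_mono hball')).ne'
  set ρ : Measure (EuclideanSpace ℝ (Fin d)) := ProbabilityTheory.cond volume K with hρ_def
  have hprob : IsProbabilityMeasure ρ :=
    ProbabilityTheory.cond_isProbabilityMeasure_of_finite hKpos hKfin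
  -- bounds
  have hTb : ∀ᵐ x ∂ρ, ‖T x‖ ≤ R := by
    have h := hμY
    rw [← hmT] at h
    filter_upwards [ae_of_ae_map hT.aemeasurable h] with x hx
    exact hRY _ hx
  have hSb : ∀ᵐ x ∂ρ, ‖S x‖ ≤ R := by
    have h := hνY
    rw [← hmS] at h
    filter_upwards [ae_of_ae_map hS.aemeasurable h] with x hx
    exact hRY _ hx
  have hw_bd : ∀ᵐ x ∂ρ, ‖T x - S x‖ ≤ 2 * R := by
    filter_upwards [hTb, hSb] with x hx1 hx2
    have := (norm_sub_le (T x) (S x)).trans (add_le_add hx1 hx2)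
    linarith
  have hsq_int : Integrable (fun x => ‖T x - S x‖ ^ 2) ρ := by
    refine Integrable.of_bound ((hT.sub hS).norm.pow_const 2).aestronglyMeasurable
      ((2 * R) ^ 2) ?_
    filter_upwards [hw_bd] with x hx
    rw [Real.norm_eq_abs, abs_of_nonneg (sq_nonneg _)]
    exact pow_le_pow_left₀ (norm_nonneg _) hx 2
  have hYsub : ∀ u ∈ Y, u ∈ Metric.closedBall (0 : EuclideanSpace ℝ (Fin d)) R₁ := fun u hu =>
    mem_closedBall_zero_iff.2 ((hRY u hu).trans (by rw [hR₁_def]; linarith))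
  have heq := eLpNorm_two_eq hsq_int
  set J : ℝ := ∫ x, ‖T x - S x‖ ^ 2 ∂ρ with hJ_def
  have hJ0 : 0 ≤ J := integral_nonneg (fun x => sq_nonneg _)
  -- the real inequality for every coupling
  have hreal : ∀ π : Measure (EuclideanSpace ℝ (Fin d) × EuclideanSpace ℝ (Fin d)),
      π.fst = μ → π.snd = ν →
      Integrable (fun p : EuclideanSpace ℝ (Fin d) × EuclideanSpace ℝ (Fin d) =>
        ‖p.1 - p.2‖ ^ 2) π ∧ J ^ 3 ≤ M * ∫ p, ‖p.1 - p.2‖ ^ 2 ∂π := by
    intro π h1 h2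
    have h1' : π.fst = ρ.map T := by rw [h1, hmT]
    have h2' : π.snd = ρ.map S := by rw [h2, hmS]
    have hfacts := coupling_facts hT hS hTb hSb h1' h2'
    have hπprob : IsProbabilityMeasure π := ⟨by rw [hfacts.1]; exact measure_univ⟩
    have hc2int : Integrable (fun p : EuclideanSpace ℝ (Fin d) × EuclideanSpace ℝ (Fin d) =>
        ‖p.1 - p.2‖ ^ 2) π := by
      refine Integrable.of_bound
        ((measurable_fst.sub measurable_snd).norm.pow_const 2).aestronglyMeasurable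
        ((2 * R) ^ 2) ?_
      filter_upwards [hfacts.2] with p hp
      rw [Real.norm_eq_abs, abs_of_nonneg (sq_nonneg _)]
      exact pow_le_pow_left₀ (norm_nonneg _) hp 2
    refine ⟨hc2int, ?_⟩
    set c₂ : ℝ := ∫ p, ‖p.1 - p.2‖ ^ 2 ∂π with hc₂_def
    have hc₂0 : 0 ≤ c₂ := integral_nonneg (fun p => sq_nonneg _)
    have hπb : ∀ᵐ p ∂π, ‖p.1‖ ≤ R ∧ ‖p.2‖ ≤ R := by
      have hp1 : ∀ᵐ p ∂π, ‖p.1‖ ≤ R := by
        have : ∀ᵐ y ∂(π.map Prod.fst), ‖y‖ ≤ R := by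
          have h : π.map Prod.fst = μ := h1
          rw [h]
          exact hμY.mono fun y hy => hRY y hy
        exact ae_of_ae_map measurable_fst.aemeasurable this
      have hp2 : ∀ᵐ p ∂π, ‖p.2‖ ≤ R := by
        have : ∀ᵐ y ∂(π.map Prod.snd), ‖y‖ ≤ R := by
          have h : π.map Prod.snd = ν := h2
          rw [h]
          exact hνY.mono fun y hy => hRY y hy
        exact ae_of_ae_map measurable_snd.aemeasurable this
      filter_upwards [hp1, hp2] with p h1p h2p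
      exact ⟨h1p, h2p⟩
    -- the inequality with the discretisation parameter
    have hδ : ∀ δ : ℝ, 0 < δ → Real.sqrt J ≤ 2 * C₁ * δ ^ ((1 : ℝ) / 4)
        + Real.sqrt (A * ((Real.sqrt c₂ + δ) ^ 2) ^ ((1 : ℝ) / 3)) := by
      intro δ hδ
      obtain ⟨n, y, z, w, hy, hz, hw, hsum, hyb, hzb, hWy, hWz, hcost⟩ := ext_discr hR π hπb hδ
      obtain ⟨T', S', hBT', hmT', hBS', hmS', hT'b, hS'b, hfin⟩ :=
        hA n y z w hy hz hw hsum hyb hzb
      rw [h1] at hWy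
      rw [h2] at hWz
      have hT' : Measurable T' := hBT'.1
      have hS' : Measurable S' := hBS'.1
      have hq1 := hC₀ μ _ T T' (hμY.mono hYsub) (ae_mem_sum_dirac y w hyb) hBT hmT hBT' hmT'
      have hq2 := hC₀ ν _ S S' (hνY.mono hYsub) (ae_mem_sum_dirac z w hzb) hBS hmS hBS' hmS'
      have hδ4 : ENNReal.ofReal C₀ * ENNReal.ofReal δ ^ ((1 : ℝ) / 4)
          ≤ ENNReal.ofReal (C₁ * δ ^ ((1 : ℝ) / 4)) := by
        rw [ENNReal.ofReal_mul hC₁, ENNReal.ofReal_rpow_of_nonneg hδ.le (by norm_num)]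
        exact mul_le_mul_left (ENNReal.ofReal_le_ofReal (le_max_left _ _)) _
      have hq1' : eLpNorm (fun x => T x - T' x) 2 ρ ≤ ENNReal.ofReal (C₁ * δ ^ ((1 : ℝ) / 4)) :=
        (hq1.trans (mul_le_mul_right (ENNReal.rpow_le_rpow hWy (by norm_num)) _)).trans hδ4
      have hq2' : eLpNorm (fun x => S x - S' x) 2 ρ ≤ ENNReal.ofReal (C₁ * δ ^ ((1 : ℝ) / 4)) :=
        (hq2.trans (mul_le_mul_right (ENNReal.rpow_le_rpow hWz (by norm_num)) _)).trans hδ4
      have hq2'' : eLpNorm (fun x => S' x - S x) 2 ρ ≤ ENNReal.ofReal (C₁ * δ ^ ((1 : ℝ) / 4)) := by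
        have : eLpNorm (fun x => S' x - S x) 2 ρ = eLpNorm (fun x => S x - S' x) 2 ρ :=
          eLpNorm_sub_comm S' S 2 ρ
        rw [this]
        exact hq2'
      -- the middle term
      have hsq_int' : Integrable (fun x => ‖T' x - S' x‖ ^ 2) ρ := by
        refine Integrable.of_bound ((hT'.sub hS').norm.pow_const 2).aestronglyMeasurable
          ((2 * R₁) ^ 2) (Filter.Eventually.of_forall fun x => ?_)
        rw [Real.norm_eq_abs, abs_of_nonneg (sq_nonneg _)]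
        refine pow_le_pow_left₀ (norm_nonneg _) ?_ 2
        have := (norm_sub_le (T' x) (S' x)).trans (add_le_add (hT'b x) (hS'b x))
        linarith
      have hmid := eLpNorm_two_eq hsq_int'
      set J' : ℝ := ∫ x, ‖T' x - S' x‖ ^ 2 ∂ρ with hJ'_def
      have hJ'0 : 0 ≤ J' := integral_nonneg (fun x => sq_nonneg _)
      have hsum0 : 0 ≤ ∑ i, w i * ‖z i - y i‖ ^ 2 :=
        Finset.sum_nonneg fun i _ => mul_nonneg (hw i).le (sq_nonneg _)
      have hJ'le : J' ≤ A * ((Real.sqrt c₂ + δ) ^ 2) ^ ((1 : ℝ) / 3) :=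
        hfin.trans (mul_le_mul_of_nonneg_left (Real.rpow_le_rpow hsum0 hcost (by norm_num)) hA0)
      -- triangle inequality
      have htri : eLpNorm (fun x => T x - S x) 2 ρ
          ≤ eLpNorm (fun x => T x - T' x) 2 ρ
            + (eLpNorm (fun x => T' x - S' x) 2 ρ + eLpNorm (fun x => S' x - S x) 2 ρ) := by
        have hsplit : (fun x => T x - S x)
            = (fun x => T x - T' x) + ((fun x => T' x - S' x) + (fun x => S' x - S x)) := by
          funext x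
          simp only [Pi.add_apply]
          abel
        rw [hsplit]
        refine (eLpNorm_add_le (hT.sub hT').aestronglyMeasurable
          ((hT'.sub hS').add (hS'.sub hS)).aestronglyMeasurable (by norm_num)).trans ?_
        exact add_le_add le_rfl (eLpNorm_add_le (hT'.sub hS').aestronglyMeasurable
          (hS'.sub hS).aestronglyMeasurable (by norm_num))
      have hsqrtJ : ENNReal.ofReal J ^ ((1 : ℝ) / 2) = ENNReal.ofReal (Real.sqrt J) := by
        rw [Real.sqrt_eq_rpow, ENNReal.ofReal_rpow_of_nonneg hJ0 (by norm_num)]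
      have hsqrtJ' : ENNReal.ofReal J' ^ ((1 : ℝ) / 2) = ENNReal.ofReal (Real.sqrt J') := by
        rw [Real.sqrt_eq_rpow, ENNReal.ofReal_rpow_of_nonneg hJ'0 (by norm_num)]
      rw [heq, hmid, hsqrtJ, hsqrtJ'] at htri
      have hb0 : 0 ≤ C₁ * δ ^ ((1 : ℝ) / 4) := mul_nonneg hC₁ (Real.rpow_nonneg hδ.le _)
      have hfinal : ENNReal.ofReal (Real.sqrt J)
          ≤ ENNReal.ofReal (C₁ * δ ^ ((1 : ℝ) / 4) + (Real.sqrt J' + C₁ * δ ^ ((1 : ℝ) / 4))) := by
        rw [ENNReal.ofReal_add hb0 (add_nonneg (Real.sqrt_nonneg _) hb0),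
          ENNReal.ofReal_add (Real.sqrt_nonneg _) hb0]
        exact htri.trans (add_le_add hq1' (add_le_add le_rfl hq2''))
      have hfinal' := (ENNReal.ofReal_le_ofReal_iff
        (add_nonneg hb0 (add_nonneg (Real.sqrt_nonneg _) hb0))).1 hfinal
      have := Real.sqrt_le_sqrt hJ'le
      linarith
    -- let the discretisation parameter tend to zero
    have hlim : Real.sqrt J ≤ Real.sqrt (A * c₂ ^ ((1 : ℝ) / 3)) := by
      have hcont : Continuous fun δ : ℝ => 2 * C₁ * δ ^ ((1 : ℝ) / 4)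
          + Real.sqrt (A * ((Real.sqrt c₂ + δ) ^ 2) ^ ((1 : ℝ) / 3)) := by
        have h4 : Continuous fun δ : ℝ => δ ^ ((1 : ℝ) / 4) :=
          Real.continuous_rpow_const (by norm_num)
        have h3 : Continuous fun t : ℝ => t ^ ((1 : ℝ) / 3) :=
          Real.continuous_rpow_const (by norm_num)
        have h5 : Continuous fun δ : ℝ => ((Real.sqrt c₂ + δ) ^ 2) ^ ((1 : ℝ) / 3) :=
          h3.comp ((continuous_const.add continuous_id).pow 2)
        exact (continuous_const.mul h4).add (Real.continuous_sqrt.comp (continuous_const.mul h5))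
      have hten := hcont.tendsto 0
      have hval : 2 * C₁ * (0 : ℝ) ^ ((1 : ℝ) / 4)
          + Real.sqrt (A * ((Real.sqrt c₂ + 0) ^ 2) ^ ((1 : ℝ) / 3))
          = Real.sqrt (A * c₂ ^ ((1 : ℝ) / 3)) := by
        rw [Real.zero_rpow (by norm_num), add_zero, Real.sq_sqrt hc₂0]
        ring
      rw [hval] at hten
      have hten' : Filter.Tendsto (fun δ : ℝ => 2 * C₁ * δ ^ ((1 : ℝ) / 4)
          + Real.sqrt (A * ((Real.sqrt c₂ + δ) ^ 2) ^ ((1 : ℝ) / 3)))
          (nhdsWithin (0 : ℝ) (Set.Ioi (0 : ℝ))) (nhds (Real.sqrt (A * c₂ ^ ((1 : ℝ) / 3)))) :=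
        hten.mono_left nhdsWithin_le_nhds
      refine ge_of_tendsto hten' ?_
      filter_upwards [self_mem_nhdsWithin] with δ hδpos
      exact hδ δ hδpos
    have hAc : 0 ≤ A * c₂ ^ ((1 : ℝ) / 3) := mul_nonneg hA0 (Real.rpow_nonneg hc₂0 _)
    have hJle : J ≤ A * c₂ ^ ((1 : ℝ) / 3) := (Real.sqrt_le_sqrt_iff hAc).1 hlim
    have hcube : (A * c₂ ^ ((1 : ℝ) / 3)) ^ 3 = A ^ 3 * c₂ := by
      rw [mul_pow, ← Real.rpow_natCast (c₂ ^ ((1 : ℝ) / 3)) 3, ← Real.rpow_mul hc₂0]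
      norm_num
    calc J ^ 3 ≤ (A * c₂ ^ ((1 : ℝ) / 3)) ^ 3 := pow_le_pow_left₀ hJ0 hJle 3
      _ = A ^ 3 * c₂ := hcube
      _ ≤ M * c₂ := by
        apply mul_le_mul_of_nonneg_right _ hc₂0
        rw [hM_def]; linarith
  -- pass to the infimum
  rw [heq]
  have hX : ∀ π : Measure (EuclideanSpace ℝ (Fin d) × EuclideanSpace ℝ (Fin d)),
      π.fst = μ → π.snd = ν →
      ENNReal.ofReal J ^ 3 / ENNReal.ofReal M ≤ ∫⁻ p, ENNReal.ofReal (‖p.1 - p.2‖ ^ 2) ∂π := by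
    intro π h1 h2
    obtain ⟨hc2int, hle⟩ := hreal π h1 h2
    rw [lintegral_ofReal_sq_eq hc2int]
    apply ENNReal.div_le_of_le_mul'
    rw [← ENNReal.ofReal_pow hJ0, ← ENNReal.ofReal_mul hM.le]
    exact ENNReal.ofReal_le_ofReal hle
  have hZ : ENNReal.ofReal J ^ 3 / ENNReal.ofReal M
      ≤ ⨅ π : Measure (EuclideanSpace ℝ (Fin d) × EuclideanSpace ℝ (Fin d)),
        ⨅ (_ : π.fst = μ ∧ π.snd = ν), ∫⁻ p, ENNReal.ofReal (‖p.1 - p.2‖ ^ 2) ∂π :=
    le_iInf fun π => le_iInf fun h => hX π h.1 h.2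
  set Z : ENNReal := ⨅ π : Measure (EuclideanSpace ℝ (Fin d) × EuclideanSpace ℝ (Fin d)),
        ⨅ (_ : π.fst = μ ∧ π.snd = ν), ∫⁻ p, ENNReal.ofReal (‖p.1 - p.2‖ ^ 2) ∂π with hZ_def
  have hMne0 : ENNReal.ofReal M ≠ 0 := by
    rw [Ne, ENNReal.ofReal_eq_zero, not_le]; exact hM
  have hZ' : ENNReal.ofReal J ^ 3 ≤ ENNReal.ofReal M * Z := by
    have := (ENNReal.div_le_iff_le_mul (Or.inl hMne0) (Or.inl ENNReal.ofReal_ne_top)).1 hZ
    rwa [mul_comm] at this
  have hW : W2 μ ν = Z ^ ((1 : ℝ) / 2) := rfl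
  rw [hW]
  calc ENNReal.ofReal J ^ ((1 : ℝ) / 2)
      = (ENNReal.ofReal J ^ 3) ^ ((1 : ℝ) / 6) := by
        rw [← ENNReal.rpow_natCast, ← ENNReal.rpow_mul]; norm_num
    _ ≤ (ENNReal.ofReal M * Z) ^ ((1 : ℝ) / 6) := ENNReal.rpow_le_rpow hZ' (by norm_num)
    _ = ENNReal.ofReal M ^ ((1 : ℝ) / 6) * Z ^ ((1 : ℝ) / 6) :=
        ENNReal.mul_rpow_of_nonneg _ _ (by norm_num)
    _ = ENNReal.ofReal (M ^ ((1 : ℝ) / 6)) * (Z ^ ((1 : ℝ) / 2)) ^ ((1 : ℝ) / 3) := by
        rw [ENNReal.ofReal_rpow_of_nonneg hM.le (by norm_num), ← ENNReal.rpow_mul]; norm_num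

end Vale.Agent.H20
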