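import Vale.Agent.H20.OTThird
import Vale.Agent.H20.OTMain

/-!
# Problem P074: the exponent `1/3` is admissible, hence the optimal exponent is `1/3`
-/

namespace Vale.Agent.H20

open MeasureTheory Set

theorem admissible_third_W2 (d : ℕ) : AdmissibleExponent d W2 (1 / 3) := by
  intro K Y hKc hconv hint hYc
  obtain ⟨C, hC⟩ := third_holder_aux hKc hconv hint hYc
  refine ⟨C, fun μ ν T S hμ hν hT hS => ?_⟩
  exact hC μ ν T S hμ hν (isBrenierMap_of_isOptimalMap hKc hconv hint hYc hμ hT) hT.2.1
    (isBrenierMap_of_isOptimalMap hKc hconv hint hYc hν hS) hS.2.1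

end Vale.Agent.H20
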