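import Vale.Agent.H20.OTDefs2

/-!
# An upper bound for the stability exponent (problem P074)

Two-atom targets on a box: a thin triangular cell along a face.
-/

namespace Vale.Agent.H20

open MeasureTheory Set

section general

variable {d : ℕ}

/-- If `T x` maximizes `y ↦ ⟪x, y⟫` over a bounded measurable set `A` containing the range
of `T`, then `T` is an optimal map onto its image measure. -/
theorem isOptimalMap_of_max (ρ : Measure (EuclideanSpace ℝ (Fin d))) [IsFiniteMeasure ρ]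
    (T : EuclideanSpace ℝ (Fin d) → EuclideanSpace ℝ (Fin d)) (hT : Measurable T)
    (A : Set (EuclideanSpace ℝ (Fin d))) (hA : MeasurableSet A) (R : ℝ)
    (hTA : ∀ x, T x ∈ A) (hAb : ∀ y ∈ A, ‖y‖ ≤ R)
    (hmax : ∀ x, ∀ y ∈ A, inner ℝ x y ≤ inner ℝ x (T x)) :
    IsOptimalMap ρ (ρ.map T) T := by
  refine ⟨hT, rfl, fun T' hT' hmap => ?_⟩
  have hA' : ∀ᵐ x ∂ρ, T' x ∈ A := by
    have h1 : (ρ.map T') Aᶜ = 0 := by
      rw [hmap, Measure.map_apply hT hA.compl]
      have : T ⁻¹' Aᶜ = ∅ := by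
        ext x
        simp [hTA x]
      rw [this]
      simp
    rw [Measure.map_apply hT' hA.compl] at h1
    exact h1
  have hR : 0 ≤ R := (norm_nonneg _).trans (hAb _ (hTA 0))
  have hpt : ∀ᵐ x ∂ρ, ENNReal.ofReal (‖x - T x‖ ^ 2) + ENNReal.ofReal (‖T' x‖ ^ 2)
      ≤ ENNReal.ofReal (‖x - T' x‖ ^ 2) + ENNReal.ofReal (‖T x‖ ^ 2) := by
    filter_upwards [hA'] with x hx
    rw [← ENNReal.ofReal_add (sq_nonneg _) (sq_nonneg _),
      ← ENNReal.ofReal_add (sq_nonneg _) (sq_nonneg _)]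
    apply ENNReal.ofReal_le_ofReal
    have h1 := hmax x (T' x) hx
    rw [norm_sub_sq_real, norm_sub_sq_real]
    linarith
  have hmeas1 : Measurable (fun x => ENNReal.ofReal (‖T' x‖ ^ 2)) :=
    ENNReal.measurable_ofReal.comp (hT'.norm.pow_const 2)
  have hmeas2 : Measurable (fun x => ENNReal.ofReal (‖T x‖ ^ 2)) :=
    ENNReal.measurable_ofReal.comp (hT.norm.pow_const 2)
  have hint := lintegral_mono_ae hpt
  rw [lintegral_add_right _ hmeas1, lintegral_add_right _ hmeas2] at hint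
  have hsq : Measurable (fun y : EuclideanSpace ℝ (Fin d) => ENNReal.ofReal (‖y‖ ^ 2)) :=
    ENNReal.measurable_ofReal.comp (measurable_norm.pow_const 2)
  have heq : ∫⁻ x, ENNReal.ofReal (‖T' x‖ ^ 2) ∂ρ = ∫⁻ x, ENNReal.ofReal (‖T x‖ ^ 2) ∂ρ := by
    rw [← lintegral_map hsq hT', ← lintegral_map hsq hT, hmap]
  have hfin : ∫⁻ x, ENNReal.ofReal (‖T x‖ ^ 2) ∂ρ ≠ ⊤ := by
    apply ne_of_lt
    calc ∫⁻ x, ENNReal.ofReal (‖T x‖ ^ 2) ∂ρ ≤ ∫⁻ _, ENNReal.ofReal (R ^ 2) ∂ρ := by
          apply lintegral_mono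
          intro x
          apply ENNReal.ofReal_le_ofReal
          exact pow_le_pow_left₀ (norm_nonneg _) (hAb _ (hTA x)) 2
      _ = ENNReal.ofReal (R ^ 2) * ρ univ := by simp
      _ < ⊤ := ENNReal.mul_lt_top ENNReal.ofReal_lt_top (measure_lt_top ρ univ)
  rw [heq] at hint
  exact (ENNReal.add_le_add_iff_right hfin).1 hint

end general

end Vale.Agent.H20

namespace Vale.Agent.H20

open MeasureTheory Set

section boxes

variable {d : ℕ}

theorem box_eq_preimage (a b : Fin d → ℝ) :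
    {x : EuclideanSpace ℝ (Fin d) | ∀ i, a i ≤ x i ∧ x i ≤ b i}
      = (WithLp.ofLp : EuclideanSpace ℝ (Fin d) → (Fin d → ℝ)) ⁻¹' (Icc a b) := by
  ext x
  simp [Pi.le_def, forall_and]

theorem measurableSet_box (a b : Fin d → ℝ) :
    MeasurableSet {x : EuclideanSpace ℝ (Fin d) | ∀ i, a i ≤ x i ∧ x i ≤ b i} := by
  rw [box_eq_preimage]
  exact (WithLp.measurable_ofLp 2 _) measurableSet_Icc

theorem volume_box (a b : Fin d → ℝ) :
    volume {x : EuclideanSpace ℝ (Fin d) | ∀ i, a i ≤ x i ∧ x i ≤ b i}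
      = ∏ i, ENNReal.ofReal (b i - a i) := by
  rw [box_eq_preimage,
    (PiLp.volume_preserving_ofLp (Fin d)).measure_preimage measurableSet_Icc.nullMeasurableSet,
    Real.volume_Icc_pi]

theorem isCompact_box (a b : Fin d → ℝ) :
    IsCompact {x : EuclideanSpace ℝ (Fin d) | ∀ i, a i ≤ x i ∧ x i ≤ b i} := by
  rw [box_eq_preimage]
  have h : IsCompact (Icc a b) := isCompact_Icc
  exact (Homeomorph.isCompact_preimage
    (PiLp.homeomorph 2 (fun _ : Fin d => ℝ))).2 h

theorem convex_box (a b : Fin d → ℝ) :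
    Convex ℝ {x : EuclideanSpace ℝ (Fin d) | ∀ i, a i ≤ x i ∧ x i ≤ b i} := by
  intro x hx y hy s t hs ht hst i
  have hx1 := (hx i).1
  have hx2 := (hx i).2
  have hy1 := (hy i).1
  have hy2 := (hy i).2
  have e : (s • x + t • y) i = s * x i + t * y i := by simp
  rw [e]
  have ea : a i = s * a i + t * a i := by rw [← add_mul, hst, one_mul]
  have eb : b i = s * b i + t * b i := by rw [← add_mul, hst, one_mul]
  have h1 := mul_le_mul_of_nonneg_left hx1 hs
  have h2 := mul_le_mul_of_nonneg_left hy1 ht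
  have h3 := mul_le_mul_of_nonneg_left hx2 hs
  have h4 := mul_le_mul_of_nonneg_left hy2 ht
  constructor
  · linarith
  · linarith

theorem interior_box_nonempty (a b : Fin d → ℝ) (hab : ∀ i, a i < b i) :
    (interior {x : EuclideanSpace ℝ (Fin d) | ∀ i, a i ≤ x i ∧ x i ≤ b i}).Nonempty := by
  have hopen : IsOpen {x : EuclideanSpace ℝ (Fin d) | ∀ i, a i < x i ∧ x i < b i} := by
    have h : {x : EuclideanSpace ℝ (Fin d) | ∀ i, a i < x i ∧ x i < b i}
        = ⋂ i, {x : EuclideanSpace ℝ (Fin d) | a i < x i ∧ x i < b i} := by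
      ext x
      simp
    rw [h]
    apply isOpen_iInter_of_finite
    intro i
    have hc : Continuous (fun x : EuclideanSpace ℝ (Fin d) => x i) :=
      (EuclideanSpace.proj (𝕜 := ℝ) i).continuous
    exact (isOpen_lt continuous_const hc).inter (isOpen_lt hc continuous_const)
  have hsub : {x : EuclideanSpace ℝ (Fin d) | ∀ i, a i < x i ∧ x i < b i}
      ⊆ {x : EuclideanSpace ℝ (Fin d) | ∀ i, a i ≤ x i ∧ x i ≤ b i} :=
    fun x hx i => ⟨(hx i).1.le, (hx i).2.le⟩
  refine ⟨WithLp.toLp 2 (fun i => (a i + b i) / 2), interior_maximal hsub hopen ?_⟩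
  intro i
  have := hab i
  constructor
  · show a i < (a i + b i) / 2
    linarith
  · show (a i + b i) / 2 < b i
    linarith

end boxes

end Vale.Agent.H20

namespace Vale.Agent.H20

open MeasureTheory Set

section wedge

variable {d : ℕ}

/-- Lower corner of the box `[0,1] × [-1/2,1/2]^(d-1)` (the special coordinate is `i0`). -/
noncomputable def boxLo (i0 : Fin d) : Fin d → ℝ := fun i => if i = i0 then 0 else -(1 / 2)

/-- The box `[0,1] × [-1/2,1/2]^(d-1)`: `0 ≤ x i0 ≤ 1` and `|x i| ≤ 1/2` for `i ≠ i0`. -/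
def boxK (i0 : Fin d) : Set (EuclideanSpace ℝ (Fin d)) :=
  {x | ∀ i, boxLo i0 i ≤ x i ∧ x i ≤ boxLo i0 i + 1}

/-- The moving atom `l e_{i1} - e_{i0}`. -/
noncomputable def atomPt (i0 i1 : Fin d) (l : ℝ) : EuclideanSpace ℝ (Fin d) :=
  EuclideanSpace.single i1 l - EuclideanSpace.single i0 1

/-- The two-valued map: `l e_{i1} - e_{i0}` on the half-space `x i0 ≤ l x i1`, and `0` elsewhere. -/
noncomputable def wedgeMap (i0 i1 : Fin d) (l : ℝ) (x : EuclideanSpace ℝ (Fin d)) :
    EuclideanSpace ℝ (Fin d) :=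
  if x i0 ≤ l * x i1 then atomPt i0 i1 l else 0

theorem volume_boxK (i0 : Fin d) : volume (boxK i0) = 1 := by
  unfold boxK
  rw [volume_box]
  simp

theorem cond_boxK (i0 : Fin d) :
    ProbabilityTheory.cond volume (boxK i0) = volume.restrict (boxK i0) := by
  unfold ProbabilityTheory.cond
  rw [volume_boxK]
  simp

theorem measurable_coord (i : Fin d) :
    Measurable (fun x : EuclideanSpace ℝ (Fin d) => x i) :=
  (EuclideanSpace.proj (𝕜 := ℝ) i).continuous.measurable

theorem measurableSet_cell (i0 i1 : Fin d) (l : ℝ) :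
    MeasurableSet {x : EuclideanSpace ℝ (Fin d) | x i0 ≤ l * x i1} :=
  measurableSet_le (measurable_coord i0) ((measurable_coord i1).const_mul l)

theorem measurable_wedgeMap (i0 i1 : Fin d) (l : ℝ) : Measurable (wedgeMap i0 i1 l) :=
  Measurable.ite (measurableSet_cell i0 i1 l) measurable_const measurable_const

theorem inner_atomPt (i0 i1 : Fin d) (l : ℝ) (x : EuclideanSpace ℝ (Fin d)) :
    inner ℝ x (atomPt i0 i1 l) = l * x i1 - x i0 := by
  unfold atomPt
  rw [inner_sub_right, EuclideanSpace.inner_single_right, EuclideanSpace.inner_single_right]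
  simp

theorem norm_atomPt_le (i0 i1 : Fin d) (l : ℝ) (hl : |l| ≤ 1) : ‖atomPt i0 i1 l‖ ≤ 2 := by
  unfold atomPt
  calc ‖EuclideanSpace.single i1 l - EuclideanSpace.single i0 (1 : ℝ)‖
      ≤ ‖EuclideanSpace.single i1 l‖ + ‖EuclideanSpace.single i0 (1 : ℝ)‖ := norm_sub_le _ _
    _ = |l| + 1 := by
        simp
    _ ≤ 2 := by linarith

theorem isOptimalMap_wedgeMap (ρ : Measure (EuclideanSpace ℝ (Fin d))) [IsFiniteMeasure ρ]
    (i0 i1 : Fin d) (l : ℝ) (hl : |l| ≤ 1) :
    IsOptimalMap ρ (ρ.map (wedgeMap i0 i1 l)) (wedgeMap i0 i1 l) := by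
  refine isOptimalMap_of_max ρ _ (measurable_wedgeMap i0 i1 l) {atomPt i0 i1 l, 0} ?_ 2 ?_ ?_ ?_
  · exact (measurableSet_singleton _).insert _
  · intro x
    unfold wedgeMap
    split_ifs <;> simp
  · intro y hy
    rcases hy with rfl | rfl
    · exact norm_atomPt_le i0 i1 l hl
    · simp
  · intro x y hy
    rcases hy with rfl | rfl
    · rw [inner_atomPt]
      unfold wedgeMap
      split_ifs with h
      · rw [inner_atomPt]
      · rw [inner_zero_right]
        linarith [not_le.1 h]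
    · rw [inner_zero_right]
      unfold wedgeMap
      split_ifs with h
      · rw [inner_atomPt]
        linarith
      · rw [inner_zero_right]

theorem isBrenierMap_wedgeMap (ρ : Measure (EuclideanSpace ℝ (Fin d)))
    (i0 i1 : Fin d) (l : ℝ) : IsBrenierMap ρ (wedgeMap i0 i1 l) := by
  refine ⟨measurable_wedgeMap i0 i1 l, fun x => max 0 (l * x i1 - x i0), ?_,
    Filter.Eventually.of_forall ?_⟩
  · apply ConvexOn.sup (convexOn_const 0 convex_univ)
    refine ⟨convex_univ, fun x _ y _ a b _ _ _ => le_of_eq ?_⟩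
    simp only [PiLp.add_apply, PiLp.smul_apply, smul_eq_mul]
    ring
  · intro x z
    beta_reduce
    unfold wedgeMap
    split_ifs with h
    · rw [real_inner_comm, inner_atomPt]
      simp only [PiLp.sub_apply]
      have h1 : max 0 (l * x i1 - x i0) = l * x i1 - x i0 := max_eq_right (by linarith)
      rw [h1]
      have h2 : l * z i1 - z i0 ≤ max 0 (l * z i1 - z i0) := le_max_right _ _
      linarith
    · rw [inner_zero_left]
      have h1 : max 0 (l * x i1 - x i0) = 0 := max_eq_left (by linarith [not_le.1 h])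
      rw [h1]
      have h2 : (0 : ℝ) ≤ max 0 (l * z i1 - z i0) := le_max_left _ _
      linarith

end wedge

end Vale.Agent.H20

namespace Vale.Agent.H20

open MeasureTheory Set

section flip

variable {d : ℕ}

/-- The linear isometry changing the sign of the coordinate `i1`. -/
noncomputable def flipIso (i1 : Fin d) :
    EuclideanSpace ℝ (Fin d) ≃ₗᵢ[ℝ] EuclideanSpace ℝ (Fin d) :=
  LinearIsometryEquiv.piLpCongrRight 2
    (fun i => if i = i1 then LinearIsometryEquiv.neg ℝ else LinearIsometryEquiv.refl ℝ ℝ)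

theorem flipIso_apply (i1 : Fin d) (x : EuclideanSpace ℝ (Fin d)) (i : Fin d) :
    flipIso i1 x i = if i = i1 then - x i else x i := by
  unfold flipIso
  rw [LinearIsometryEquiv.piLpCongrRight_apply]
  show (if i = i1 then LinearIsometryEquiv.neg ℝ else LinearIsometryEquiv.refl ℝ ℝ) (x i) = _
  split_ifs <;> simp

theorem flipIso_mem_boxK (i0 i1 : Fin d) (h : i0 ≠ i1) (x : EuclideanSpace ℝ (Fin d))
    (hx : x ∈ boxK i0) : flipIso i1 x ∈ boxK i0 := by
  intro i
  have hxi := hx i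
  rw [flipIso_apply]
  by_cases hi : i = i1
  · subst hi
    rw [if_pos rfl]
    have hlo : boxLo i0 i = -(1 / 2) := by
      unfold boxLo
      rw [if_neg (Ne.symm h)]
    rw [hlo] at hxi ⊢
    constructor
    · linarith [hxi.2]
    · linarith [hxi.1]
  · rw [if_neg hi]
    exact hxi

theorem flipIso_flipIso (i1 : Fin d) (x : EuclideanSpace ℝ (Fin d)) :
    flipIso i1 (flipIso i1 x) = x := by
  ext i
  rw [flipIso_apply, flipIso_apply]
  split_ifs <;> simp

theorem flipIso_preimage_boxK (i0 i1 : Fin d) (h : i0 ≠ i1) :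
    (flipIso i1) ⁻¹' (boxK i0) = boxK i0 := by
  ext x
  constructor
  · intro hx
    have := flipIso_mem_boxK i0 i1 h _ hx
    rwa [flipIso_flipIso] at this
  · intro hx
    exact flipIso_mem_boxK i0 i1 h x hx

theorem measurableSet_boxK (i0 : Fin d) : MeasurableSet (boxK i0) :=
  measurableSet_box _ _

theorem map_flipIso_restrict (i0 i1 : Fin d) (h : i0 ≠ i1) :
    (volume.restrict (boxK i0)).map (flipIso i1) = volume.restrict (boxK i0) := by
  have hmp := ((flipIso i1).measurePreserving).restrict_preimage (measurableSet_boxK i0)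
  rw [flipIso_preimage_boxK i0 i1 h] at hmp
  exact hmp.map_eq

theorem flipIso_atomPt (i0 i1 : Fin d) (h : i0 ≠ i1) (l : ℝ) :
    flipIso i1 (atomPt i0 i1 l) = atomPt i0 i1 (-l) := by
  ext i
  rw [flipIso_apply]
  unfold atomPt
  by_cases hi : i = i1
  · subst hi
    simp [Ne.symm h]
  · simp [hi]

theorem flipIso_wedgeMap (i0 i1 : Fin d) (h : i0 ≠ i1) (l : ℝ)
    (x : EuclideanSpace ℝ (Fin d)) :
    flipIso i1 (wedgeMap i0 i1 l x) = wedgeMap i0 i1 (-l) (flipIso i1 x) := by
  unfold wedgeMap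
  rw [flipIso_apply, flipIso_apply, if_neg h, if_pos rfl]
  have e : (x i0 ≤ l * x i1) ↔ (x i0 ≤ -l * -x i1) := by rw [neg_mul_neg]
  by_cases hc : x i0 ≤ l * x i1
  · rw [if_pos hc, if_pos (e.1 hc)]
    exact flipIso_atomPt i0 i1 h l
  · rw [if_neg hc, if_neg (fun h' => hc (e.2 h'))]
    simp

theorem atomPt_sub_flip (i0 i1 : Fin d) (l : ℝ) :
    ‖atomPt i0 i1 l - atomPt i0 i1 (-l)‖ ^ 2 = 4 * l ^ 2 := by
  have e : atomPt i0 i1 l - atomPt i0 i1 (-l) = EuclideanSpace.single i1 (2 * l) := by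
    ext i
    unfold atomPt
    by_cases hi : i = i1
    · subst hi
      simp
      ring
    · simp [hi]
  rw [e]
  simp only [PiLp.norm_single, Real.norm_eq_abs, sq_abs]
  ring

end flip

end Vale.Agent.H20

namespace Vale.Agent.H20

open MeasureTheory Set

section estimates

variable {d : ℕ}

theorem cell_measure_le (i0 i1 : Fin d) (h : i0 ≠ i1) (l : ℝ) (hl0 : 0 ≤ l) :
    (volume.restrict (boxK i0)) {x : EuclideanSpace ℝ (Fin d) | x i0 ≤ l * x i1}
      ≤ ENNReal.ofReal (l / 2) := by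
  rw [Measure.restrict_apply (measurableSet_cell i0 i1 l)]
  have hsub : {x : EuclideanSpace ℝ (Fin d) | x i0 ≤ l * x i1} ∩ boxK i0
      ⊆ {x : EuclideanSpace ℝ (Fin d) | ∀ i, boxLo i0 i ≤ x i ∧
          x i ≤ (if i = i0 then l / 2 else boxLo i0 i + 1)} := by
    intro x hx i
    obtain ⟨hx1, hx2⟩ := hx
    refine ⟨(hx2 i).1, ?_⟩
    by_cases hi : i = i0
    · rw [if_pos hi, hi]
      have h1 := (hx2 i1).2
      have hlo : boxLo i0 i1 = -(1 / 2) := by
        unfold boxLo
        rw [if_neg (Ne.symm h)]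
      rw [hlo] at h1
      have hx1' : x i0 ≤ l * x i1 := hx1
      nlinarith
    · rw [if_neg hi]
      exact (hx2 i).2
  refine (measure_mono hsub).trans ?_
  rw [volume_box]
  rw [Finset.prod_eq_single_of_mem i0 (Finset.mem_univ _)]
  · rw [if_pos rfl]
    unfold boxLo
    rw [if_pos rfl, sub_zero]
  · intro j _ hj
    rw [if_neg hj]
    simp

theorem W2_wedge_le (i0 i1 : Fin d) (h : i0 ≠ i1) (l : ℝ) (hl0 : 0 ≤ l) :
    W2 ((volume.restrict (boxK i0)).map (wedgeMap i0 i1 l))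
        ((volume.restrict (boxK i0)).map (wedgeMap i0 i1 (-l)))
      ≤ (ENNReal.ofReal (2 * l ^ 3)) ^ ((1 : ℝ) / 2) := by
  have hT := measurable_wedgeMap i0 i1 l
  have hF : Measurable (fun x : EuclideanSpace ℝ (Fin d) => flipIso i1 (wedgeMap i0 i1 l x)) :=
    (flipIso i1).continuous.measurable.comp hT
  have hfst : ((volume.restrict (boxK i0)).map
      (fun x => (wedgeMap i0 i1 l x, flipIso i1 (wedgeMap i0 i1 l x)))).fst
      = (volume.restrict (boxK i0)).map (wedgeMap i0 i1 l) := Measure.fst_map_prodMk hF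
  have hsnd : ((volume.restrict (boxK i0)).map
      (fun x => (wedgeMap i0 i1 l x, flipIso i1 (wedgeMap i0 i1 l x)))).snd
      = (volume.restrict (boxK i0)).map (wedgeMap i0 i1 (-l)) := by
    rw [Measure.snd_map_prodMk hT]
    have e : (fun x : EuclideanSpace ℝ (Fin d) => flipIso i1 (wedgeMap i0 i1 l x))
        = (wedgeMap i0 i1 (-l)) ∘ (flipIso i1) := by
      funext x
      exact flipIso_wedgeMap i0 i1 h l x
    rw [e, ← Measure.map_map (measurable_wedgeMap i0 i1 (-l)) (flipIso i1).continuous.measurable,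
      map_flipIso_restrict i0 i1 h]
  unfold W2
  apply ENNReal.rpow_le_rpow _ (by norm_num)
  refine (iInf₂_le _ ⟨hfst, hsnd⟩).trans ?_
  have hmeas : Measurable (fun p : EuclideanSpace ℝ (Fin d) × EuclideanSpace ℝ (Fin d) =>
      ENNReal.ofReal (‖p.1 - p.2‖ ^ 2)) :=
    ENNReal.measurable_ofReal.comp ((measurable_fst.sub measurable_snd).norm.pow_const 2)
  rw [lintegral_map hmeas (hT.prodMk hF)]
  have hpt : ∀ x : EuclideanSpace ℝ (Fin d),
      ENNReal.ofReal (‖wedgeMap i0 i1 l x - flipIso i1 (wedgeMap i0 i1 l x)‖ ^ 2)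
        ≤ ({x : EuclideanSpace ℝ (Fin d) | x i0 ≤ l * x i1}).indicator
            (fun _ => ENNReal.ofReal (4 * l ^ 2)) x := by
    intro x
    by_cases hx : x i0 ≤ l * x i1
    · rw [indicator_of_mem (by exact hx)]
      apply ENNReal.ofReal_le_ofReal
      have e1 : wedgeMap i0 i1 l x = atomPt i0 i1 l := by
        unfold wedgeMap
        rw [if_pos hx]
      rw [e1, flipIso_atomPt i0 i1 h l, atomPt_sub_flip]
    · rw [indicator_of_notMem (by exact hx)]
      have e1 : wedgeMap i0 i1 l x = 0 := by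
        unfold wedgeMap
        rw [if_neg hx]
      rw [e1]
      simp
  refine (lintegral_mono hpt).trans ?_
  rw [lintegral_indicator_const (measurableSet_cell i0 i1 l)]
  have hcell := cell_measure_le i0 i1 h l hl0
  calc ENNReal.ofReal (4 * l ^ 2) *
        (volume.restrict (boxK i0)) {x : EuclideanSpace ℝ (Fin d) | x i0 ≤ l * x i1}
      ≤ ENNReal.ofReal (4 * l ^ 2) * ENNReal.ofReal (l / 2) := by gcongr
    _ = ENNReal.ofReal (2 * l ^ 3) := by
        rw [← ENNReal.ofReal_mul (by positivity)]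
        congr 1
        ring

theorem eLpNorm_wedge_ge (i0 i1 : Fin d) (h : i0 ≠ i1) (l : ℝ) (hl0 : 0 < l) (hl1 : l ≤ 1) :
    (ENNReal.ofReal (l / 32)) ^ ((1 : ℝ) / 2)
      ≤ eLpNorm (fun x => wedgeMap i0 i1 l x - wedgeMap i0 i1 (-l) x) 2
          (volume.restrict (boxK i0)) := by
  rw [eLpNorm_eq_lintegral_rpow_enorm_toReal (by norm_num) (by norm_num)]
  have e2 : (2 : ENNReal).toReal = 2 := by simp
  rw [e2]
  apply ENNReal.rpow_le_rpow _ (by norm_num)
  have hB : volume {x : EuclideanSpace ℝ (Fin d) | ∀ i,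
      (if i = i0 then l / 8 else if i = i1 then 1 / 4 else -(1 / 2)) ≤ x i ∧
      x i ≤ (if i = i0 then l / 4 else 1 / 2)} = ENNReal.ofReal (l / 32) := by
    rw [volume_box]
    rw [Finset.prod_eq_mul_of_mem i0 i1 (Finset.mem_univ _) (Finset.mem_univ _) h]
    · rw [if_pos rfl, if_pos rfl, if_neg (Ne.symm h), if_neg (Ne.symm h), if_pos rfl,
        ← ENNReal.ofReal_mul (by linarith)]
      congr 1
      ring
    · intro k _ hk
      rw [if_neg hk.1, if_neg hk.1, if_neg hk.2]
      norm_num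
  have hBK : {x : EuclideanSpace ℝ (Fin d) | ∀ i,
      (if i = i0 then l / 8 else if i = i1 then 1 / 4 else -(1 / 2)) ≤ x i ∧
      x i ≤ (if i = i0 then l / 4 else 1 / 2)} ⊆ boxK i0 := by
    intro x hx i
    have hxi := hx i
    unfold boxLo
    by_cases hi : i = i0
    · rw [if_pos hi] at hxi ⊢
      rw [if_pos hi] at hxi
      constructor
      · linarith [hxi.1]
      · linarith [hxi.2]
    · rw [if_neg hi] at hxi ⊢
      rw [if_neg hi] at hxi
      by_cases hi1 : i = i1
      · rw [if_pos hi1] at hxi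
        constructor
        · linarith [hxi.1]
        · linarith [hxi.2]
      · rw [if_neg hi1] at hxi
        constructor
        · linarith [hxi.1]
        · linarith [hxi.2]
  have hBm := measurableSet_box (d := d)
      (fun i => if i = i0 then l / 8 else if i = i1 then 1 / 4 else -(1 / 2))
      (fun i => if i = i0 then l / 4 else 1 / 2)
  rw [← hB, ← inter_eq_left.2 hBK, ← Measure.restrict_apply hBm, ← one_mul
    ((volume.restrict (boxK i0)) _), ← lintegral_indicator_const hBm]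
  apply lintegral_mono
  intro x
  by_cases hx : x ∈ {x : EuclideanSpace ℝ (Fin d) | ∀ i,
      (if i = i0 then l / 8 else if i = i1 then 1 / 4 else -(1 / 2)) ≤ x i ∧
      x i ≤ (if i = i0 then l / 4 else 1 / 2)}
  · rw [indicator_of_mem hx]
    have h0 := hx i0
    have h1 := hx i1
    rw [if_pos rfl, if_pos rfl] at h0
    rw [if_neg (Ne.symm h), if_pos rfl, if_neg (Ne.symm h)] at h1
    have e1 : wedgeMap i0 i1 l x = atomPt i0 i1 l := by
      unfold wedgeMap
      rw [if_pos]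
      nlinarith [h0.2, h1.1]
    have e2 : wedgeMap i0 i1 (-l) x = 0 := by
      unfold wedgeMap
      rw [if_neg]
      rw [not_le]
      nlinarith [h0.1, h1.1]
    beta_reduce
    rw [e1, e2, sub_zero]
    apply ENNReal.one_le_rpow _ (by norm_num)
    have hn : (1 : ℝ) ≤ ‖atomPt i0 i1 l‖ := by
      have hc := PiLp.norm_apply_le (atomPt i0 i1 l) i0
      have hv : (atomPt i0 i1 l) i0 = -1 := by
        unfold atomPt
        simp [h]
      rw [hv] at hc
      simpa using hc
    rw [← ofReal_norm]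
    exact ENNReal.one_le_ofReal.2 hn
  · rw [indicator_of_notMem hx]
    exact bot_le

end estimates

end Vale.Agent.H20

namespace Vale.Agent.H20

open MeasureTheory Set

theorem exists_small_param (α : ℝ) (hα : 1 / 3 < α) (C : ℝ) :
    ∃ l : ℝ, 0 < l ∧ l ≤ 1 ∧
      C * ((2 * l ^ 3) ^ ((1 : ℝ) / 2)) ^ α < (l / 32) ^ ((1 : ℝ) / 2) := by
  obtain ⟨β, hβ⟩ : ∃ β : ℝ, β = (3 * α - 1) / 2 := ⟨_, rfl⟩
  have hβpos : 0 < β := by
    rw [hβ]
    linarith
  obtain ⟨A, hA⟩ : ∃ A : ℝ, A = (2 : ℝ) ^ (α / 2) * (32 : ℝ) ^ ((1 : ℝ) / 2) := ⟨_, rfl⟩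
  have hApos : 0 < A := by
    rw [hA]
    positivity
  obtain ⟨P, hP⟩ : ∃ P : ℝ, P = max C 1 * A := ⟨_, rfl⟩
  have hmax : (0 : ℝ) < max C 1 := lt_max_of_lt_right one_pos
  have hPpos : 0 < P := by
    rw [hP]
    positivity
  obtain ⟨q, hq⟩ : ∃ q : ℝ, q = 1 / (2 * P + 1) := ⟨_, rfl⟩
  have hqpos : 0 < q := by
    rw [hq]
    positivity
  have hq1 : q ≤ 1 := by
    rw [hq, div_le_one (by positivity)]
    linarith
  obtain ⟨l, hl⟩ : ∃ l : ℝ, l = q ^ (1 / β) := ⟨_, rfl⟩
  have hlpos : 0 < l := by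
    rw [hl]
    exact Real.rpow_pos_of_pos hqpos _
  have hl1 : l ≤ 1 := by
    rw [hl]
    exact Real.rpow_le_one hqpos.le hq1 (by positivity)
  refine ⟨l, hlpos, hl1, ?_⟩
  have hlβ : l ^ β = q := by
    rw [hl, ← Real.rpow_mul hqpos.le, one_div, inv_mul_cancel₀ hβpos.ne', Real.rpow_one]
  have e1 : ((2 * l ^ 3) ^ ((1 : ℝ) / 2)) ^ α
      = (2 : ℝ) ^ (α / 2) * (l ^ β * l ^ ((1 : ℝ) / 2)) := by
    rw [← Real.rpow_mul (by positivity), Real.mul_rpow (by norm_num) (by positivity),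
      ← Real.rpow_natCast l 3, ← Real.rpow_mul hlpos.le, ← Real.rpow_add hlpos]
    have x1 : (1 : ℝ) / 2 * α = α / 2 := by ring
    have x2 : ((3 : ℕ) : ℝ) * (α / 2) = β + 1 / 2 := by
      rw [hβ]
      push_cast
      ring
    rw [x1, x2]
  have e2 : (l / 32) ^ ((1 : ℝ) / 2) = l ^ ((1 : ℝ) / 2) / (32 : ℝ) ^ ((1 : ℝ) / 2) :=
    Real.div_rpow hlpos.le (by norm_num) _
  rw [e1, e2, hlβ]
  have h32 : 0 < (32 : ℝ) ^ ((1 : ℝ) / 2) := by positivity
  have hl2 : 0 < l ^ ((1 : ℝ) / 2) := by positivity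
  rw [lt_div_iff₀ h32]
  have hPq : P * q < 1 := by
    rw [hq, mul_one_div, div_lt_one (by positivity)]
    linarith
  have hC : C * A * q ≤ P * q := by
    apply mul_le_mul_of_nonneg_right _ hqpos.le
    rw [hP]
    exact mul_le_mul_of_nonneg_right (le_max_left _ _) hApos.le
  calc C * ((2 : ℝ) ^ (α / 2) * (q * l ^ ((1 : ℝ) / 2))) * (32 : ℝ) ^ ((1 : ℝ) / 2)
      = (C * A * q) * l ^ ((1 : ℝ) / 2) := by
        rw [hA]
        ring
    _ ≤ (P * q) * l ^ ((1 : ℝ) / 2) := mul_le_mul_of_nonneg_right hC hl2.le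
    _ < 1 * l ^ ((1 : ℝ) / 2) := mul_lt_mul_of_pos_right hPq hl2
    _ = l ^ ((1 : ℝ) / 2) := one_mul _

/-- For every `d ≥ 2` there are a compact convex `K` with nonempty interior and a compact `Y`
such that for each exponent `α > 1/3` and each constant `C` there are targets on `Y` and
optimal maps violating the `α`-Hölder bound with constant `C`. -/
theorem third_upper_aux (d : ℕ) (hd : 2 ≤ d) :
    ∃ K Y : Set (EuclideanSpace ℝ (Fin d)),
      IsCompact K ∧ Convex ℝ K ∧ (interior K).Nonempty ∧ IsCompact Y ∧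
      ∀ α : ℝ, 1 / 3 < α → ∀ C : ℝ,
        ∃ (μ ν : Measure (EuclideanSpace ℝ (Fin d)))
          (T S : EuclideanSpace ℝ (Fin d) → EuclideanSpace ℝ (Fin d)),
          IsProbabilityMeasure μ ∧ IsProbabilityMeasure ν ∧
          (∀ᵐ y ∂μ, y ∈ Y) ∧ (∀ᵐ y ∂ν, y ∈ Y) ∧
          IsOptimalMap (ProbabilityTheory.cond volume K) μ T ∧
          IsOptimalMap (ProbabilityTheory.cond volume K) ν S ∧
          IsBrenierMap (ProbabilityTheory.cond volume K) T ∧
          IsBrenierMap (ProbabilityTheory.cond volume K) S ∧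
          ENNReal.ofReal C * W2 μ ν ^ α
            < eLpNorm (fun x => T x - S x) 2 (ProbabilityTheory.cond volume K) := by
  obtain ⟨i0, hi0⟩ : ∃ i0 : Fin d, i0 = ⟨0, by omega⟩ := ⟨_, rfl⟩
  obtain ⟨i1, hi1⟩ : ∃ i1 : Fin d, i1 = ⟨1, by omega⟩ := ⟨_, rfl⟩
  have h01 : i0 ≠ i1 := by
    rw [hi0, hi1]
    intro h
    have := congrArg Fin.val h
    simp at this
  refine ⟨boxK i0, Metric.closedBall 0 2, isCompact_box _ _, convex_box _ _,
    interior_box_nonempty _ _ (fun i => by linarith), isCompact_closedBall 0 2, ?_⟩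
  intro α hα C
  obtain ⟨l, hl0, hl1, hlt⟩ := exists_small_param α hα C
  have habs : |l| ≤ 1 := by
    rw [abs_of_pos hl0]
    exact hl1
  have habs' : |-l| ≤ 1 := by
    rw [abs_neg]
    exact habs
  rw [cond_boxK]
  have hprob : IsProbabilityMeasure (volume.restrict (boxK i0)) := by
    constructor
    rw [Measure.restrict_apply MeasurableSet.univ, univ_inter, volume_boxK]
  have hY : ∀ (m : ℝ), |m| ≤ 1 → ∀ᵐ y ∂((volume.restrict (boxK i0)).map (wedgeMap i0 i1 m)),
      y ∈ Metric.closedBall (0 : EuclideanSpace ℝ (Fin d)) 2 := by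
    intro m hm
    rw [ae_map_iff (p := fun y => y ∈ Metric.closedBall (0 : EuclideanSpace ℝ (Fin d)) 2)
      (measurable_wedgeMap i0 i1 m).aemeasurable measurableSet_closedBall]
    apply Filter.Eventually.of_forall
    intro x
    rw [mem_closedBall_zero_iff]
    unfold wedgeMap
    split_ifs
    · exact norm_atomPt_le i0 i1 m hm
    · simp
  refine ⟨(volume.restrict (boxK i0)).map (wedgeMap i0 i1 l),
    (volume.restrict (boxK i0)).map (wedgeMap i0 i1 (-l)),
    wedgeMap i0 i1 l, wedgeMap i0 i1 (-l),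
    Measure.isProbabilityMeasure_map (measurable_wedgeMap i0 i1 l).aemeasurable,
    Measure.isProbabilityMeasure_map (measurable_wedgeMap i0 i1 (-l)).aemeasurable,
    hY l habs, hY (-l) habs',
    isOptimalMap_wedgeMap _ i0 i1 l habs, isOptimalMap_wedgeMap _ i0 i1 (-l) habs',
    isBrenierMap_wedgeMap _ i0 i1 l, isBrenierMap_wedgeMap _ i0 i1 (-l), ?_⟩
  have hW := W2_wedge_le i0 i1 h01 l hl0.le
  have hN := eLpNorm_wedge_ge i0 i1 h01 l hl0 hl1
  have hα0 : 0 ≤ α := by linarith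
  calc ENNReal.ofReal C * W2 ((volume.restrict (boxK i0)).map (wedgeMap i0 i1 l))
          ((volume.restrict (boxK i0)).map (wedgeMap i0 i1 (-l))) ^ α
      ≤ ENNReal.ofReal C * ((ENNReal.ofReal (2 * l ^ 3)) ^ ((1 : ℝ) / 2)) ^ α := by
        gcongr
    _ = ENNReal.ofReal (C * ((2 * l ^ 3) ^ ((1 : ℝ) / 2)) ^ α) := by
        rw [ENNReal.ofReal_rpow_of_nonneg (by positivity) (by norm_num),
          ENNReal.ofReal_rpow_of_nonneg (by positivity) hα0,
          ENNReal.ofReal_mul' (by positivity)]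
    _ < ENNReal.ofReal ((l / 32) ^ ((1 : ℝ) / 2)) :=
        (ENNReal.ofReal_lt_ofReal_iff (by positivity)).2 hlt
    _ = (ENNReal.ofReal (l / 32)) ^ ((1 : ℝ) / 2) := by
        rw [ENNReal.ofReal_rpow_of_nonneg (by positivity) (by norm_num)]
    _ ≤ _ := hN

end Vale.Agent.H20
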