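import Mathlib

/-!
# The dyadic model of the triangular Hilbert form

The dyadic intervals `[2^k n, 2^k (n+1))`, their Haar functions, the forms `L_I` and
`Λ^d_{S,ε}`, and the norm of `L^3 ([0, ∞)^2)`.
-/

namespace Vale.Agent.H20.TriCont

open MeasureTheory

/-- The dyadic interval `[2^k n, 2^k (n + 1))`, the element of `D_k` with index `n`. -/
def dyadicIvl (k : ℤ) (n : ℕ) : Set ℝ := Set.Ico ((2 : ℝ) ^ k * n) ((2 : ℝ) ^ k * (n + 1))

/-- The Haar function of the dyadic interval with index `n` at scale `k`: `1` on its left half,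
`-1` on its right half and `0` elsewhere. -/
noncomputable def haar (k : ℤ) (n : ℕ) (x : ℝ) : ℝ :=
  if (2 : ℝ) ^ k * n ≤ x ∧ x < (2 : ℝ) ^ k * (n + 1 / 2) then 1
  else if (2 : ℝ) ^ k * (n + 1 / 2) ≤ x ∧ x < (2 : ℝ) ^ k * (n + 1) then -1
  else 0

/-- `L_I (F0, F1, F2)` for the triple `I` of dyadic intervals of scale `k` with indices
`n0, n1, n2`; the integral over `I_0 × I_1 × I_2` is written as an iterated integral. -/
noncomputable def tripleTerm (k : ℤ) (n0 n1 n2 : ℕ) (F0 F1 F2 : ℝ → ℝ → ℝ) : ℝ :=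
  (2 : ℝ) ^ (-k) * ∫ x0 in dyadicIvl k n0, ∫ x1 in dyadicIvl k n1, ∫ x2 in dyadicIvl k n2,
    F0 x0 x1 * F1 x1 x2 * F2 x2 x0 * (haar k n0 x0 * haar k n1 x1 * haar k n2 x2)

/-- `Λ^d_{S,ε} (F0, F1, F2)`: the sum over the scales `k ∈ S` of `ε k` times the sum of `L_I`
over all triples of dyadic intervals of scale `k` whose indices have bitwise XOR zero. -/
noncomputable def dyadicLambda (S : Finset ℤ) (ε : ℤ → ℝ) (F0 F1 F2 : ℝ → ℝ → ℝ) : ℝ :=
  ∑ k ∈ S, ε k *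
    ∑' t : {t : ℕ × ℕ × ℕ // t.1 ^^^ t.2.1 ^^^ t.2.2 = 0},
      tripleTerm k t.1.1 t.1.2.1 t.1.2.2 F0 F1 F2

/-- The norm of `L^3 ([0, ∞)^2)`. -/
noncomputable def normL3 (F : ℝ → ℝ → ℝ) : ℝ :=
  (∫ x in Set.Ici (0 : ℝ), ∫ y in Set.Ici (0 : ℝ), |F x y| ^ 3) ^ (1 / 3 : ℝ)

end Vale.Agent.H20.TriCont
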