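import Vale.Agent.H20.TriDyadic
import Vale.Agent.H20.TriContDefs

/-!
# The dyadic triangular form on step functions: from integrals to finite sums
-/

namespace Vale.Agent.H20.TriCont

open MeasureTheory Finset

/-! ### Integrals of functions of the integer part -/

theorem floor_integral (g : ℕ → ℝ) (A B : ℕ) (h : A ≤ B) :
    IntegrableOn (fun x : ℝ => g ⌊x⌋₊) (Set.Ico (A : ℝ) (B : ℝ)) ∧
      ∫ x in Set.Ico (A : ℝ) (B : ℝ), g ⌊x⌋₊ = ∑ i ∈ Finset.Ico A B, g i := by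
  induction B, h using Nat.le_induction with
  | base => simp
  | succ B hAB ih =>
    have hu : Set.Ico (A : ℝ) ((B + 1 : ℕ) : ℝ) =
        Set.Ico (A : ℝ) (B : ℝ) ∪ Set.Ico (B : ℝ) ((B : ℝ) + 1) := by
      push_cast
      exact (Set.Ico_union_Ico_eq_Ico (by exact_mod_cast hAB) (by linarith)).symm
    have hd : Disjoint (Set.Ico (A : ℝ) (B : ℝ)) (Set.Ico (B : ℝ) ((B : ℝ) + 1)) :=
      Set.disjoint_left.mpr (fun x hx hx' => by linarith [hx.2, hx'.1])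
    have hc : Set.EqOn (fun x : ℝ => g ⌊x⌋₊) (fun _ => g B) (Set.Ico (B : ℝ) ((B : ℝ) + 1)) := by
      intro x hx
      simp only
      rw [Nat.floor_eq_on_Ico B x hx]
    have hfin : volume (Set.Ico (B : ℝ) ((B : ℝ) + 1)) ≠ ⊤ := by
      rw [Real.volume_Ico]
      exact ENNReal.ofReal_ne_top
    have hi2 : IntegrableOn (fun x : ℝ => g ⌊x⌋₊) (Set.Ico (B : ℝ) ((B : ℝ) + 1)) :=
      (integrableOn_const hfin).congr_fun hc.symm measurableSet_Ico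
    have hv : ∫ x in Set.Ico (B : ℝ) ((B : ℝ) + 1), g ⌊x⌋₊ = g B := by
      rw [setIntegral_congr_fun measurableSet_Ico hc, setIntegral_const]
      simp [Measure.real, Real.volume_Ico]
    refine ⟨by rw [hu]; exact ih.1.union hi2, ?_⟩
    rw [hu, setIntegral_union hd measurableSet_Ico ih.1 hi2, ih.2, hv,
      Finset.sum_Ico_succ_top hAB]

theorem floor_integral_eq (g : ℕ → ℝ) (A B : ℕ) (h : A ≤ B) :
    ∫ x in Set.Ico (A : ℝ) (B : ℝ), g ⌊x⌋₊ = ∑ i ∈ Finset.Ico A B, g i :=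
  (floor_integral g A B h).2

theorem triple_floor_integral (Φ : ℕ → ℕ → ℕ → ℝ) (A0 B0 A1 B1 A2 B2 : ℕ)
    (h0 : A0 ≤ B0) (h1 : A1 ≤ B1) (h2 : A2 ≤ B2) :
    ∫ x0 in Set.Ico (A0 : ℝ) (B0 : ℝ), ∫ x1 in Set.Ico (A1 : ℝ) (B1 : ℝ),
        ∫ x2 in Set.Ico (A2 : ℝ) (B2 : ℝ), Φ ⌊x0⌋₊ ⌊x1⌋₊ ⌊x2⌋₊ =
      ∑ i0 ∈ Finset.Ico A0 B0, ∑ i1 ∈ Finset.Ico A1 B1, ∑ i2 ∈ Finset.Ico A2 B2, Φ i0 i1 i2 := by
  have e2 : ∀ x0 x1 : ℝ, ∫ x2 in Set.Ico (A2 : ℝ) (B2 : ℝ), Φ ⌊x0⌋₊ ⌊x1⌋₊ ⌊x2⌋₊ =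
      ∑ i2 ∈ Finset.Ico A2 B2, Φ ⌊x0⌋₊ ⌊x1⌋₊ i2 :=
    fun x0 x1 => floor_integral_eq (Φ ⌊x0⌋₊ ⌊x1⌋₊) A2 B2 h2
  simp only [e2]
  have e1 : ∀ x0 : ℝ, ∫ x1 in Set.Ico (A1 : ℝ) (B1 : ℝ),
      ∑ i2 ∈ Finset.Ico A2 B2, Φ ⌊x0⌋₊ ⌊x1⌋₊ i2 =
      ∑ i1 ∈ Finset.Ico A1 B1, ∑ i2 ∈ Finset.Ico A2 B2, Φ ⌊x0⌋₊ i1 i2 :=
    fun x0 => floor_integral_eq (fun m => ∑ i2 ∈ Finset.Ico A2 B2, Φ ⌊x0⌋₊ m i2) A1 B1 h1
  simp only [e1]
  exact floor_integral_eq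
    (fun m => ∑ i1 ∈ Finset.Ico A1 B1, ∑ i2 ∈ Finset.Ico A2 B2, Φ m i1 i2) A0 B0 h0

/-! ### Step functions -/

/-- The step function with value `f i j` on the unit square `[i, i+1) × [j, j+1)` for
`i, j < N`, and zero elsewhere. -/
noncomputable def stepFun (N : ℕ) (f : ℕ → ℕ → ℝ) (x y : ℝ) : ℝ :=
  if 0 ≤ x ∧ 0 ≤ y ∧ ⌊x⌋₊ < N ∧ ⌊y⌋₊ < N then f ⌊x⌋₊ ⌊y⌋₊ else 0

/-- the cut-off of `f` to `i, j < N` -/
noncomputable def cut (N : ℕ) (f : ℕ → ℕ → ℝ) (i j : ℕ) : ℝ :=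
  if i < N ∧ j < N then f i j else 0

theorem stepFun_eq (N : ℕ) (f : ℕ → ℕ → ℝ) (x y : ℝ) (hx : 0 ≤ x) (hy : 0 ≤ y) :
    stepFun N f x y = cut N f ⌊x⌋₊ ⌊y⌋₊ := by
  unfold stepFun cut
  simp [hx, hy]

/-- Haar sign on integer points: `1` on the left half of the block `[2^k a, 2^k (a+1))`. -/
noncomputable def hs (k a i : ℕ) : ℝ := if i < 2 ^ k * a + 2 ^ (k - 1) then 1 else -1

theorem haar_eq (k a : ℕ) (hk : 1 ≤ k) (x : ℝ)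
    (hx : x ∈ Set.Ico ((2 ^ k * a : ℕ) : ℝ) ((2 ^ k * (a + 1) : ℕ) : ℝ)) :
    haar (k : ℤ) a x = hs k a ⌊x⌋₊ := by
  obtain ⟨k', rfl⟩ : ∃ k', k = k' + 1 := ⟨k - 1, by omega⟩
  have hx0 : 0 ≤ x := le_trans (Nat.cast_nonneg _) hx.1
  have h1 := hx.1
  have h2 := hx.2
  push_cast at h1 h2
  have hz : (2 : ℝ) ^ ((k' + 1 : ℕ) : ℤ) = (2 : ℝ) ^ (k' + 1) := zpow_natCast 2 (k' + 1)
  have hmid : (2 : ℝ) ^ (k' + 1) * ((a : ℝ) + 1 / 2) =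
      ((2 ^ (k' + 1) * a + 2 ^ (k' + 1 - 1) : ℕ) : ℝ) := by
    have e : k' + 1 - 1 = k' := by omega
    rw [e]
    push_cast
    ring
  unfold haar hs
  rw [hz, hmid]
  have hfl : (⌊x⌋₊ < 2 ^ (k' + 1) * a + 2 ^ (k' + 1 - 1)) ↔
      x < ((2 ^ (k' + 1) * a + 2 ^ (k' + 1 - 1) : ℕ) : ℝ) := Nat.floor_lt hx0
  by_cases hc : x < ((2 ^ (k' + 1) * a + 2 ^ (k' + 1 - 1) : ℕ) : ℝ)
  · rw [if_pos ⟨h1, hc⟩, if_pos (hfl.mpr hc)]
  · rw [if_neg (fun h => hc h.2), if_pos ⟨not_lt.mp hc, h2⟩, if_neg (fun h => hc (hfl.mp h))]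

/-- the integrand of `L_I` on integer points -/
noncomputable def cell (N k : ℕ) (f0 f1 f2 : ℕ → ℕ → ℝ) (a0 a1 a2 i0 i1 i2 : ℕ) : ℝ :=
  cut N f0 i0 i1 * cut N f1 i1 i2 * cut N f2 i2 i0 * (hs k a0 i0 * hs k a1 i1 * hs k a2 i2)

theorem tripleTerm_step (N k : ℕ) (hk : 1 ≤ k) (f0 f1 f2 : ℕ → ℕ → ℝ) (a0 a1 a2 : ℕ) :
    tripleTerm (k : ℤ) a0 a1 a2 (stepFun N f0) (stepFun N f1) (stepFun N f2) =
      (1 / 2 : ℝ) ^ k * ∑ i0 ∈ Finset.Ico (2 ^ k * a0) (2 ^ k * (a0 + 1)),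
        ∑ i1 ∈ Finset.Ico (2 ^ k * a1) (2 ^ k * (a1 + 1)),
          ∑ i2 ∈ Finset.Ico (2 ^ k * a2) (2 ^ k * (a2 + 1)),
            cell N k f0 f1 f2 a0 a1 a2 i0 i1 i2 := by
  have hA : ∀ a : ℕ, (2 : ℝ) ^ (k : ℤ) * (a : ℝ) = ((2 ^ k * a : ℕ) : ℝ) := by
    intro a
    rw [zpow_natCast]
    push_cast
    ring
  have hB : ∀ a : ℕ, (2 : ℝ) ^ (k : ℤ) * ((a : ℝ) + 1) = ((2 ^ k * (a + 1) : ℕ) : ℝ) := by
    intro a
    rw [zpow_natCast]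
    push_cast
    ring
  have hpow : (2 : ℝ) ^ (-(k : ℤ)) = (1 / 2 : ℝ) ^ k := by
    rw [zpow_neg, zpow_natCast, one_div, inv_pow]
  unfold tripleTerm dyadicIvl
  rw [hpow, hA a0, hB a0, hA a1, hB a1, hA a2, hB a2]
  congr 1
  rw [← triple_floor_integral (cell N k f0 f1 f2 a0 a1 a2) _ _ _ _ _ _
    (Nat.mul_le_mul_left _ (Nat.le_succ a0)) (Nat.mul_le_mul_left _ (Nat.le_succ a1))
    (Nat.mul_le_mul_left _ (Nat.le_succ a2))]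
  refine setIntegral_congr_fun measurableSet_Ico (fun x0 hx0 => ?_)
  refine setIntegral_congr_fun measurableSet_Ico (fun x1 hx1 => ?_)
  refine setIntegral_congr_fun measurableSet_Ico (fun x2 hx2 => ?_)
  have p0 : 0 ≤ x0 := le_trans (Nat.cast_nonneg _) hx0.1
  have p1 : 0 ≤ x1 := le_trans (Nat.cast_nonneg _) hx1.1
  have p2 : 0 ≤ x2 := le_trans (Nat.cast_nonneg _) hx2.1
  show stepFun N f0 x0 x1 * stepFun N f1 x1 x2 * stepFun N f2 x2 x0 *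
      (haar (k : ℤ) a0 x0 * haar (k : ℤ) a1 x1 * haar (k : ℤ) a2 x2) =
    cell N k f0 f1 f2 a0 a1 a2 ⌊x0⌋₊ ⌊x1⌋₊ ⌊x2⌋₊
  rw [stepFun_eq N f0 x0 x1 p0 p1, stepFun_eq N f1 x1 x2 p1 p2, stepFun_eq N f2 x2 x0 p2 p0,
    haar_eq k a0 hk x0 hx0, haar_eq k a1 hk x1 hx1, haar_eq k a2 hk x2 hx2]
  rfl

/-! ### Combinatorics of dyadic blocks -/

theorem sum_blocks (M D : ℕ) (W : ℕ → ℕ → ℝ) :
    ∑ a ∈ range D, ∑ i ∈ Finset.Ico (M * a) (M * (a + 1)), W a i =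
      ∑ i ∈ range (M * D), W (i / M) i := by
  induction D with
  | zero => simp
  | succ D ih =>
    rw [sum_range_succ, ih, Finset.range_eq_Ico (M * (D + 1)),
      ← Finset.sum_Ico_consecutive _ (Nat.zero_le (M * D)) (Nat.mul_le_mul_left M (Nat.le_succ D)),
      ← Finset.range_eq_Ico]
    congr 1
    refine sum_congr rfl (fun i hi => ?_)
    have h := Finset.mem_Ico.mp hi
    have hdiv : i / M = D :=
      Nat.div_eq_of_lt_le (by rw [mul_comm]; exact h.1) (by rw [mul_comm]; exact h.2)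
    rw [hdiv]

theorem block_to_range (M D c : ℕ) (hM : 0 < M) (hc : c < D) (φ : ℕ → ℝ) :
    ∑ i ∈ Finset.Ico (M * c) (M * (c + 1)), φ i =
      ∑ i ∈ range (M * D), if i / M = c then φ i else 0 := by
  rw [← sum_filter]
  refine sum_congr ?_ (fun _ _ => rfl)
  ext i
  simp only [Finset.mem_Ico, mem_filter, mem_range]
  constructor
  · intro h
    refine ⟨lt_of_lt_of_le h.2 (Nat.mul_le_mul_left M hc), ?_⟩
    exact Nat.div_eq_of_lt_le (by rw [mul_comm]; exact h.1) (by rw [mul_comm]; exact h.2)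
  · intro h
    rw [← h.2]
    refine ⟨?_, Nat.lt_mul_div_succ i hM⟩
    rw [mul_comm]
    exact Nat.div_mul_le_self i M

theorem hs_testBit (k i : ℕ) (hk : 1 ≤ k) :
    hs k (i / 2 ^ k) i = if i.testBit (k - 1) then (-1 : ℝ) else 1 := by
  obtain ⟨k', rfl⟩ : ∃ k', k = k' + 1 := ⟨k - 1, by omega⟩
  have e : k' + 1 - 1 = k' := by omega
  unfold hs
  rw [e, Nat.testBit_eq_decide_div_mod_eq, pow_succ]
  have hm : 0 < 2 ^ k' := by positivity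
  have h1 : i % (2 ^ k' * 2) = i % 2 ^ k' + 2 ^ k' * (i / 2 ^ k' % 2) := Nat.mod_mul
  have h2 : 2 ^ k' * 2 * (i / (2 ^ k' * 2)) + i % (2 ^ k' * 2) = i := Nat.div_add_mod i _
  have h3 : i % 2 ^ k' < 2 ^ k' := Nat.mod_lt i hm
  rcases Nat.mod_two_eq_zero_or_one (i / 2 ^ k') with hb | hb
  · rw [hb] at h1
    rw [hb]
    simp only [Nat.mul_zero, Nat.add_zero] at h1
    have hlt : i < 2 ^ k' * 2 * (i / (2 ^ k' * 2)) + 2 ^ k' := by omega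
    simp [hlt]
  · rw [hb] at h1
    rw [hb]
    simp only [Nat.mul_one] at h1
    have hlt : ¬ (i < 2 ^ k' * 2 * (i / (2 ^ k' * 2)) + 2 ^ k') := by omega
    simp [hlt]

theorem xor_div (k i0 i1 i2 : ℕ) :
    (i2 / 2 ^ k = (i0 / 2 ^ k) ^^^ (i1 / 2 ^ k)) ↔ i0 ^^^ i1 ^^^ i2 < 2 ^ k := by
  have hpos : 0 < 2 ^ k := by positivity
  have h1 : (i0 ^^^ i1 ^^^ i2) / 2 ^ k = (i0 / 2 ^ k) ^^^ (i1 / 2 ^ k) ^^^ (i2 / 2 ^ k) := by
    rw [← Nat.shiftRight_eq_div_pow, ← Nat.shiftRight_eq_div_pow, ← Nat.shiftRight_eq_div_pow,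
      ← Nat.shiftRight_eq_div_pow, Nat.shiftRight_xor_distrib, Nat.shiftRight_xor_distrib]
  have h2 : i0 ^^^ i1 ^^^ i2 < 2 ^ k ↔ (i0 ^^^ i1 ^^^ i2) / 2 ^ k = 0 := by
    rw [Nat.div_eq_zero_iff]
    constructor
    · exact fun h => Or.inr h
    · rintro (h | h)
      · omega
      · exact h
  rw [h2, h1, xor_eq_zero_iff]
  exact eq_comm

theorem sign_mul (b0 b1 b2 : Bool) :
    (if b0 then (-1 : ℝ) else 1) * (if b1 then (-1 : ℝ) else 1) * (if b2 then (-1 : ℝ) else 1) =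
      if xor (xor b0 b1) b2 then (-1 : ℝ) else 1 := by
  cases b0 <;> cases b1 <;> cases b2 <;> simp

theorem cut_eq (N : ℕ) (f : ℕ → ℕ → ℝ) (i j : ℕ) (hi : i < N) (hj : j < N) :
    cut N f i j = f i j := by
  unfold cut
  rw [if_pos ⟨hi, hj⟩]

theorem scale_sum (n k : ℕ) (hk1 : 1 ≤ k) (hkn : k ≤ n) (f0 f1 f2 : ℕ → ℕ → ℝ) :
    ∑ a0 ∈ range (2 ^ (n - k)), ∑ a1 ∈ range (2 ^ (n - k)),
      ∑ i0 ∈ Finset.Ico (2 ^ k * a0) (2 ^ k * (a0 + 1)),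
        ∑ i1 ∈ Finset.Ico (2 ^ k * a1) (2 ^ k * (a1 + 1)),
          ∑ i2 ∈ Finset.Ico (2 ^ k * (a0 ^^^ a1)) (2 ^ k * ((a0 ^^^ a1) + 1)),
            cell (2 ^ n) k f0 f1 f2 a0 a1 (a0 ^^^ a1) i0 i1 i2 =
    ∑ x0 ∈ range (2 ^ n), ∑ x1 ∈ range (2 ^ n), ∑ x2 ∈ range (2 ^ n),
      if x0 ^^^ x1 ^^^ x2 < 2 ^ k then
        (if (x0 ^^^ x1 ^^^ x2).testBit (k - 1) then (-1 : ℝ) else 1) *
          (f0 x0 x1 * f1 x1 x2 * f2 x2 x0)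
      else 0 := by
  have hN : 2 ^ n = 2 ^ k * 2 ^ (n - k) := by
    rw [← pow_add]
    congr 1
    omega
  have hM : 0 < 2 ^ k := by positivity
  refine (sum_congr rfl (fun a0 _ => Finset.sum_comm)).trans ?_
  rw [sum_blocks (2 ^ k) (2 ^ (n - k)) (fun a0 i0 => ∑ a1 ∈ range (2 ^ (n - k)),
    ∑ i1 ∈ Finset.Ico (2 ^ k * a1) (2 ^ k * (a1 + 1)),
      ∑ i2 ∈ Finset.Ico (2 ^ k * (a0 ^^^ a1)) (2 ^ k * ((a0 ^^^ a1) + 1)),
        cell (2 ^ n) k f0 f1 f2 a0 a1 (a0 ^^^ a1) i0 i1 i2), ← hN]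
  refine sum_congr rfl (fun i0 h0 => ?_)
  have h0' : i0 < 2 ^ n := mem_range.mp h0
  rw [sum_blocks (2 ^ k) (2 ^ (n - k)) (fun a1 i1 =>
    ∑ i2 ∈ Finset.Ico (2 ^ k * ((i0 / 2 ^ k) ^^^ a1)) (2 ^ k * (((i0 / 2 ^ k) ^^^ a1) + 1)),
      cell (2 ^ n) k f0 f1 f2 (i0 / 2 ^ k) a1 ((i0 / 2 ^ k) ^^^ a1) i0 i1 i2), ← hN]
  refine sum_congr rfl (fun i1 h1 => ?_)
  have h1' : i1 < 2 ^ n := mem_range.mp h1
  have hd0 : i0 / 2 ^ k < 2 ^ (n - k) := Nat.div_lt_of_lt_mul (by rw [← hN]; exact h0')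
  have hd1 : i1 / 2 ^ k < 2 ^ (n - k) := Nat.div_lt_of_lt_mul (by rw [← hN]; exact h1')
  rw [block_to_range (2 ^ k) (2 ^ (n - k)) _ hM (Nat.xor_lt_two_pow hd0 hd1), ← hN]
  refine sum_congr rfl (fun i2 h2 => ?_)
  have h2' : i2 < 2 ^ n := mem_range.mp h2
  by_cases hc : i2 / 2 ^ k = (i0 / 2 ^ k) ^^^ (i1 / 2 ^ k)
  · rw [if_pos hc, if_pos ((xor_div k i0 i1 i2).mp hc)]
    unfold cell
    rw [← hc, cut_eq _ _ _ _ h0' h1', cut_eq _ _ _ _ h1' h2', cut_eq _ _ _ _ h2' h0',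
      hs_testBit k i0 hk1, hs_testBit k i1 hk1, hs_testBit k i2 hk1, sign_mul,
      Nat.testBit_xor, Nat.testBit_xor]
    ring
  · rw [if_neg hc, if_neg (fun h => hc ((xor_div k i0 i1 i2).mpr h))]

/-- the triples with XOR zero are parametrised by their first two entries -/
def triEquiv : ℕ × ℕ ≃ {t : ℕ × ℕ × ℕ // t.1 ^^^ t.2.1 ^^^ t.2.2 = 0} where
  toFun p := ⟨(p.1, p.2, p.1 ^^^ p.2), Nat.xor_self _⟩
  invFun t := (t.1.1, t.1.2.1)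
  left_inv _ := rfl
  right_inv t := by
    have h : t.1.1 ^^^ t.1.2.1 = t.1.2.2 := xor_eq_zero_iff.mp t.2
    apply Subtype.ext
    show (t.1.1, t.1.2.1, t.1.1 ^^^ t.1.2.1) = t.1
    rw [h]

theorem tsum_step (n k : ℕ) (hk1 : 1 ≤ k) (hkn : k ≤ n) (f0 f1 f2 : ℕ → ℕ → ℝ) :
    ∑' t : {t : ℕ × ℕ × ℕ // t.1 ^^^ t.2.1 ^^^ t.2.2 = 0},
      tripleTerm (k : ℤ) t.1.1 t.1.2.1 t.1.2.2
        (stepFun (2 ^ n) f0) (stepFun (2 ^ n) f1) (stepFun (2 ^ n) f2) =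
    TriDyadic.scaleTerm n k f0 f1 f2 := by
  have hN : 2 ^ n = 2 ^ k * 2 ^ (n - k) := by
    rw [← pow_add]
    congr 1
    omega
  rw [← Equiv.tsum_eq triEquiv]
  show ∑' p : ℕ × ℕ, tripleTerm (k : ℤ) p.1 p.2 (p.1 ^^^ p.2)
        (stepFun (2 ^ n) f0) (stepFun (2 ^ n) f1) (stepFun (2 ^ n) f2) = _
  have hzero : ∀ p : ℕ × ℕ, p ∉ (range (2 ^ (n - k)) ×ˢ range (2 ^ (n - k))) →
      tripleTerm (k : ℤ) p.1 p.2 (p.1 ^^^ p.2)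
        (stepFun (2 ^ n) f0) (stepFun (2 ^ n) f1) (stepFun (2 ^ n) f2) = 0 := by
    intro p hp
    rw [tripleTerm_step _ k hk1]
    refine mul_eq_zero_of_right _ ?_
    refine sum_eq_zero (fun i0 h0 => sum_eq_zero (fun i1 h1 => sum_eq_zero (fun i2 _ => ?_)))
    have hnot : ¬ (i0 < 2 ^ n ∧ i1 < 2 ^ n) := by
      intro hh
      apply hp
      rw [mem_product, mem_range, mem_range]
      constructor
      · have hlo := (Finset.mem_Ico.mp h0).1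
        exact Nat.lt_of_mul_lt_mul_left (a := 2 ^ k) (by rw [← hN]; exact lt_of_le_of_lt hlo hh.1)
      · have hlo := (Finset.mem_Ico.mp h1).1
        exact Nat.lt_of_mul_lt_mul_left (a := 2 ^ k) (by rw [← hN]; exact lt_of_le_of_lt hlo hh.2)
    unfold cell cut
    rw [if_neg hnot]
    ring
  rw [tsum_eq_sum hzero, Finset.sum_product]
  simp only [tripleTerm_step _ k hk1]
  unfold TriDyadic.scaleTerm
  rw [← scale_sum n k hk1 hkn, mul_sum]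
  refine sum_congr rfl (fun a0 _ => ?_)
  rw [mul_sum]

theorem lambda_step (n : ℕ) (ε : ℕ → ℝ) (f0 f1 f2 : ℕ → ℕ → ℝ) :
    dyadicLambda (Finset.Icc (1 : ℤ) (n : ℤ)) (fun z => ε z.toNat)
        (stepFun (2 ^ n) f0) (stepFun (2 ^ n) f1) (stepFun (2 ^ n) f2) =
      TriDyadic.dyadicForm n ε f0 f1 f2 := by
  unfold dyadicLambda TriDyadic.dyadicForm
  refine Finset.sum_nbij' (fun z : ℤ => z.toNat) (fun k : ℕ => (k : ℤ)) ?_ ?_ ?_ ?_ ?_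
  · intro z hz
    rw [Finset.mem_Icc] at hz ⊢
    omega
  · intro k hk
    rw [Finset.mem_Icc] at hk ⊢
    omega
  · intro z hz
    rw [Finset.mem_Icc] at hz
    show ((z.toNat : ℕ) : ℤ) = z
    omega
  · intro k _
    show ((k : ℤ)).toNat = k
    simp
  · intro z hz
    rw [Finset.mem_Icc] at hz
    obtain ⟨k, rfl⟩ : ∃ k : ℕ, z = (k : ℤ) := ⟨z.toNat, by omega⟩
    simp only [Int.toNat_natCast]
    rw [tsum_step n k (by omega) (by omega)]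

/-! ### The `L^3` norm of a step function -/

theorem integral_Ici_floor (N : ℕ) (G : ℝ → ℝ) (g : ℕ → ℝ)
    (hG : ∀ x : ℝ, 0 ≤ x → G x = if ⌊x⌋₊ < N then g ⌊x⌋₊ else 0) :
    ∫ x in Set.Ici (0 : ℝ), G x = ∑ i ∈ range N, g i := by
  have hsub : Set.Ico (0 : ℝ) (N : ℝ) ⊆ Set.Ici (0 : ℝ) := fun y hy => hy.1
  have hvan : ∀ x ∈ Set.Ici (0 : ℝ) \ Set.Ico (0 : ℝ) (N : ℝ), G x = 0 := by
    intro x hx
    have hx0 : (0 : ℝ) ≤ x := hx.1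
    have hxN : ¬ x < (N : ℝ) := fun h => hx.2 ⟨hx0, h⟩
    rw [hG x hx0, if_neg (fun h => hxN ((Nat.floor_lt hx0).mp h))]
  rw [setIntegral_eq_of_subset_of_forall_sdiff_eq_zero measurableSet_Ici hsub hvan]
  have hcongr : Set.EqOn G (fun x : ℝ => g ⌊x⌋₊) (Set.Ico (0 : ℝ) (N : ℝ)) := by
    intro x hx
    rw [hG x hx.1, if_pos ((Nat.floor_lt hx.1).mpr hx.2)]
  rw [setIntegral_congr_fun measurableSet_Ico hcongr]
  have e := floor_integral_eq g 0 N (Nat.zero_le N)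
  rw [Nat.cast_zero] at e
  rw [e, Finset.range_eq_Ico]

theorem normL3_step (N : ℕ) (f : ℕ → ℕ → ℝ) :
    ∫ x in Set.Ici (0 : ℝ), ∫ y in Set.Ici (0 : ℝ), |stepFun N f x y| ^ 3 =
      ∑ i ∈ range N, ∑ j ∈ range N, |f i j| ^ 3 := by
  have hin : ∀ x : ℝ, ∫ y in Set.Ici (0 : ℝ), |stepFun N f x y| ^ 3 =
      ∑ j ∈ range N, if 0 ≤ x ∧ ⌊x⌋₊ < N then |f ⌊x⌋₊ j| ^ 3 else 0 := by
    intro x
    refine integral_Ici_floor N _ _ (fun y hy => ?_)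
    unfold stepFun
    by_cases h1 : 0 ≤ x ∧ ⌊x⌋₊ < N
    · by_cases h2 : ⌊y⌋₊ < N
      · rw [if_pos ⟨h1.1, hy, h1.2, h2⟩, if_pos h2, if_pos h1]
      · rw [if_neg (fun h => h2 h.2.2.2), if_neg h2]
        simp
    · rw [if_neg (fun h => h1 ⟨h.1, h.2.2.1⟩), if_neg h1]
      simp
  simp only [hin]
  refine integral_Ici_floor N _ (fun i => ∑ j ∈ range N, |f i j| ^ 3) (fun x hx => ?_)
  by_cases h : ⌊x⌋₊ < N
  · rw [if_pos h]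
    refine sum_congr rfl (fun j _ => ?_)
    rw [if_pos ⟨hx, h⟩]
  · rw [if_neg h]
    refine sum_eq_zero (fun j _ => ?_)
    rw [if_neg (fun hh => h hh.2)]

theorem normL3_stepFun (n : ℕ) (f : ℕ → ℕ → ℝ) :
    normL3 (stepFun (2 ^ n) f) = TriDyadic.norm3 n f := by
  unfold normL3 TriDyadic.norm3
  rw [normL3_step]

theorem measurable_stepFun (N : ℕ) (f : ℕ → ℕ → ℝ) :
    Measurable (Function.uncurry (stepFun N f)) := by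
  have hfl1 : Measurable (fun p : ℝ × ℝ => ⌊p.1⌋₊) := Nat.measurable_floor.comp measurable_fst
  have hfl2 : Measurable (fun p : ℝ × ℝ => ⌊p.2⌋₊) := Nat.measurable_floor.comp measurable_snd
  have hset : MeasurableSet {p : ℝ × ℝ | 0 ≤ p.1 ∧ 0 ≤ p.2 ∧ ⌊p.1⌋₊ < N ∧ ⌊p.2⌋₊ < N} := by
    have s1 : MeasurableSet {p : ℝ × ℝ | 0 ≤ p.1} := measurableSet_le measurable_const measurable_fst
    have s2 : MeasurableSet {p : ℝ × ℝ | 0 ≤ p.2} := measurableSet_le measurable_const measurable_snd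
    have s3 : MeasurableSet {p : ℝ × ℝ | ⌊p.1⌋₊ < N} := measurableSet_lt hfl1 measurable_const
    have s4 : MeasurableSet {p : ℝ × ℝ | ⌊p.2⌋₊ < N} := measurableSet_lt hfl2 measurable_const
    exact s1.inter (s2.inter (s3.inter s4))
  have hf : Measurable (fun p : ℝ × ℝ => f ⌊p.1⌋₊ ⌊p.2⌋₊) :=
    (measurable_of_countable (fun q : ℕ × ℕ => f q.1 q.2)).comp (hfl1.prodMk hfl2)
  exact Measurable.ite hset hf measurable_const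

theorem abs_stepFun_le (N : ℕ) (f : ℕ → ℕ → ℝ) (hf : ∀ i j, |f i j| ≤ 1) (x y : ℝ) :
    |stepFun N f x y| ≤ 1 := by
  unfold stepFun
  split_ifs
  · exact hf _ _
  · simp

theorem stepFun_support (N : ℕ) (f : ℕ → ℕ → ℝ) (x y : ℝ) (h : stepFun N f x y ≠ 0) :
    0 ≤ x ∧ x < (N : ℝ) ∧ 0 ≤ y ∧ y < (N : ℝ) := by
  unfold stepFun at h
  by_cases hc : 0 ≤ x ∧ 0 ≤ y ∧ ⌊x⌋₊ < N ∧ ⌊y⌋₊ < N
  · exact ⟨hc.1, (Nat.floor_lt hc.1).mp hc.2.2.1, hc.2.1, (Nat.floor_lt hc.2.1).mp hc.2.2.2⟩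
  · rw [if_neg hc] at h
    exact absurd rfl h

/-! ### The lower bound for the problem's form -/

/-- The problem's dyadic form with the `2 j` consecutive scales `1, …, 2 j` reaches
`3 (1 - 2 ^ (-j))` times the product of the `L^3` norms on a sign-valued step function;
hence no constant below `3` is admissible. -/
theorem lambda_ge_three :
    (∀ j : ℕ, ∃ (ε : ℤ → ℝ) (F : ℝ → ℝ → ℝ) (R : ℝ),
        (∀ k, |ε k| ≤ 1) ∧ Measurable (Function.uncurry F) ∧ (∀ x y, |F x y| ≤ 1) ∧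
        (∀ x y, F x y ≠ 0 → 0 ≤ x ∧ x < R ∧ 0 ≤ y ∧ y < R) ∧ 0 < normL3 F ∧
        dyadicLambda (Finset.Icc (1 : ℤ) (2 * (j : ℤ))) ε F F F =
          3 * (1 - (1 / 2 : ℝ) ^ j) * (normL3 F * normL3 F * normL3 F)) ∧
    (∀ C : ℝ, C < 3 → ∃ (S : Finset ℤ) (ε : ℤ → ℝ) (F : ℝ → ℝ → ℝ) (R : ℝ),
        (∀ k, |ε k| ≤ 1) ∧ Measurable (Function.uncurry F) ∧ (∀ x y, |F x y| ≤ 1) ∧
        (∀ x y, F x y ≠ 0 → 0 ≤ x ∧ x < R ∧ 0 ≤ y ∧ y < R) ∧ 0 < normL3 F ∧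
        C * (normL3 F * normL3 F * normL3 F) < dyadicLambda S ε F F F) := by
  have key : ∀ j : ℕ, ∃ (ε : ℤ → ℝ) (F : ℝ → ℝ → ℝ) (R : ℝ),
      (∀ k, |ε k| ≤ 1) ∧ Measurable (Function.uncurry F) ∧ (∀ x y, |F x y| ≤ 1) ∧
      (∀ x y, F x y ≠ 0 → 0 ≤ x ∧ x < R ∧ 0 ≤ y ∧ y < R) ∧ 0 < normL3 F ∧
      dyadicLambda (Finset.Icc (1 : ℤ) (2 * (j : ℤ))) ε F F F =
        3 * (1 - (1 / 2 : ℝ) ^ j) * (normL3 F * normL3 F * normL3 F) := by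
    intro j
    have hn3 := TriDyadic.norm3_qF j
    have hnn : 0 ≤ TriDyadic.norm3 (2 * j) (TriDyadic.qF j) := by
      unfold TriDyadic.norm3
      exact Real.rpow_nonneg (sum_nonneg (fun x _ => sum_nonneg (fun y _ => by positivity))) _
    have hpos : 0 < TriDyadic.norm3 (2 * j) (TriDyadic.qF j) := by
      rcases hnn.lt_or_eq with h | h
      · exact h
      · exfalso
        rw [← h] at hn3
        have : (0 : ℝ) < (2 : ℝ) ^ (2 * j) * (2 : ℝ) ^ (2 * j) := by positivity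
        rw [← hn3] at this
        simp at this
    refine ⟨fun z => TriDyadic.qeps z.toNat, stepFun (2 ^ (2 * j)) (TriDyadic.qF j),
      ((2 ^ (2 * j) : ℕ) : ℝ), fun k => TriDyadic.abs_qeps _, measurable_stepFun _ _,
      abs_stepFun_le _ _ (fun i j' => le_of_eq (TriDyadic.abs_qF j i j')),
      stepFun_support _ _, ?_, ?_⟩
    · rw [normL3_stepFun]
      exact hpos
    · have hcast : (2 * (j : ℤ)) = ((2 * j : ℕ) : ℤ) := by push_cast; ring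
      rw [hcast, lambda_step (2 * j) TriDyadic.qeps, normL3_stepFun, TriDyadic.form_qF]
  refine ⟨key, ?_⟩
  intro C hC
  have h0 : (0 : ℝ) < (3 - C) / 3 := by linarith
  obtain ⟨j, hj⟩ := exists_pow_lt_of_lt_one h0 (by norm_num : (1 / 2 : ℝ) < 1)
  obtain ⟨ε, F, R, h1, h2, h3, h4, h5, h6⟩ := key j
  refine ⟨Finset.Icc (1 : ℤ) (2 * (j : ℤ)), ε, F, R, h1, h2, h3, h4, h5, ?_⟩
  rw [h6]
  have hpos : 0 < normL3 F * normL3 F * normL3 F := by positivity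
  have hlt : C < 3 * (1 - (1 / 2 : ℝ) ^ j) := by linarith
  exact mul_lt_mul_of_pos_right hlt hpos

end Vale.Agent.H20.TriCont
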