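import Vale.Agent.H20.TriDyadicDefs

/-!
# A lower bound for the constant of the dyadic triangular Hilbert form

Quadratic phase sign functions on `2 j` consecutive scales reach the ratio `3 (1 - 2 ^ (-j))`.
-/

namespace Vale.Agent.H20.TriDyadic

open Finset

/-! ### The quadratic phase example -/

/-- sign attached to a base-4 digit with low bit `a` and high bit `b` -/
def sg (a b : Bool) : ℝ := if a && !b then -1 else 1

/-- two-digit factor of the quadratic phase -/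
def ph (a1 a2 b1 b2 : Bool) : ℝ := sg a1 a2 * (if xor (a1 && b2) (a2 && b1) then -1 else 1)

/-- the quadratic phase sign function on `ℕ × ℕ` built from `j` base-4 digits -/
noncomputable def qF (j : ℕ) (x y : ℕ) : ℝ :=
  ∏ i ∈ range j,
    ph (x.testBit (2 * i)) (x.testBit (2 * i + 1)) (y.testBit (2 * i)) (y.testBit (2 * i + 1))

/-- the corner function of the example -/
noncomputable def qc (j : ℕ) (t : ℕ) : ℝ :=
  ∏ i ∈ range j, sg (t.testBit (2 * i)) (t.testBit (2 * i + 1))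

theorem ph_mul (a1 a2 b1 b2 c1 c2 : Bool) :
    ph a1 a2 b1 b2 * ph b1 b2 c1 c2 * ph c1 c2 a1 a2 =
      sg (xor (xor a1 b1) c1) (xor (xor a2 b2) c2) := by
  cases a1 <;> cases a2 <;> cases b1 <;> cases b2 <;> cases c1 <;> cases c2 <;>
    norm_num [ph, sg]

theorem abs_ph (a1 a2 b1 b2 : Bool) : |ph a1 a2 b1 b2| = 1 := by
  cases a1 <;> cases a2 <;> cases b1 <;> cases b2 <;> norm_num [ph, sg]

theorem abs_qF (j x y : ℕ) : |qF j x y| = 1 := by
  unfold qF
  rw [abs_prod]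
  exact prod_eq_one (fun i _ => abs_ph _ _ _ _)

theorem qF_mul (j x0 x1 x2 : ℕ) :
    qF j x0 x1 * qF j x1 x2 * qF j x2 x0 = qc j (x0 ^^^ x1 ^^^ x2) := by
  unfold qF qc
  rw [← prod_mul_distrib, ← prod_mul_distrib]
  refine prod_congr rfl (fun i _ => ?_)
  rw [ph_mul]
  simp [Nat.testBit_xor]

theorem sum_xor (n : ℕ) (Ψ : ℕ → ℝ) (a : ℕ) (ha : a < 2 ^ n) :
    ∑ x ∈ range (2 ^ n), Ψ (a ^^^ x) = ∑ t ∈ range (2 ^ n), Ψ t := by
  refine Finset.sum_nbij' (fun x => a ^^^ x) (fun t => a ^^^ t) ?_ ?_ ?_ ?_ ?_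
  · intro x hx
    exact mem_range.mpr (Nat.xor_lt_two_pow ha (mem_range.mp hx))
  · intro x hx
    exact mem_range.mpr (Nat.xor_lt_two_pow ha (mem_range.mp hx))
  · intro x _
    show a ^^^ (a ^^^ x) = x
    rw [← Nat.xor_assoc, Nat.xor_self, Nat.zero_xor]
  · intro x _
    show a ^^^ (a ^^^ x) = x
    rw [← Nat.xor_assoc, Nat.xor_self, Nat.zero_xor]
  · intro x _
    rfl

theorem triple_sum (n : ℕ) (Ψ : ℕ → ℝ) :
    ∑ x0 ∈ range (2 ^ n), ∑ x1 ∈ range (2 ^ n), ∑ x2 ∈ range (2 ^ n), Ψ (x0 ^^^ x1 ^^^ x2) =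
      (2 : ℝ) ^ n * ((2 : ℝ) ^ n * ∑ t ∈ range (2 ^ n), Ψ t) := by
  have hin : ∀ x0 ∈ range (2 ^ n), ∀ x1 ∈ range (2 ^ n),
      ∑ x2 ∈ range (2 ^ n), Ψ (x0 ^^^ x1 ^^^ x2) = ∑ t ∈ range (2 ^ n), Ψ t := by
    intro x0 h0 x1 h1
    exact sum_xor n Ψ (x0 ^^^ x1) (Nat.xor_lt_two_pow (mem_range.mp h0) (mem_range.mp h1))
  rw [sum_congr rfl (fun x0 h0 => sum_congr rfl (fun x1 h1 => hin x0 h0 x1 h1))]
  simp only [sum_const, card_range, nsmul_eq_mul]
  push_cast
  ring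

theorem scaleTerm_qF (j k : ℕ) :
    scaleTerm (2 * j) k (qF j) (qF j) (qF j) =
      (1 / 2 : ℝ) ^ k * ((2 : ℝ) ^ (2 * j) * ((2 : ℝ) ^ (2 * j) *
        ∑ t ∈ range (2 ^ (2 * j)),
          if t < 2 ^ k then (if t.testBit (k - 1) then (-1 : ℝ) else 1) * qc j t else 0)) := by
  unfold scaleTerm
  rw [← triple_sum (2 * j)
    (fun t => if t < 2 ^ k then (if t.testBit (k - 1) then (-1 : ℝ) else 1) * qc j t else 0)]
  congr 1
  refine sum_congr rfl (fun x0 _ => sum_congr rfl (fun x1 _ => sum_congr rfl (fun x2 _ => ?_)))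
  rw [qF_mul]

/-! ### Gauss sums -/

theorem sum_digit (M D : ℕ) (g : ℕ → ℝ) :
    ∑ t ∈ range (M * D), g t = ∑ d ∈ range D, ∑ t ∈ range M, g (M * d + t) := by
  induction D with
  | zero => simp
  | succ D ih => rw [Nat.mul_succ, sum_range_add, ih, sum_range_succ]

theorem qc_split (i d t : ℕ) (ht : t < 2 ^ (2 * i)) :
    qc (i + 1) (2 ^ (2 * i) * d + t) = qc i t * sg (d.testBit 0) (d.testBit 1) := by
  unfold qc
  rw [prod_range_succ]
  congr 1
  · refine prod_congr rfl (fun i' hi' => ?_)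
    have hi : i' < i := mem_range.mp hi'
    rw [Nat.testBit_two_pow_mul_add d ht, Nat.testBit_two_pow_mul_add d ht,
      if_pos (by omega), if_pos (by omega)]
  · rw [Nat.testBit_two_pow_mul_add d ht, Nat.testBit_two_pow_mul_add d ht,
      if_neg (by omega), if_neg (by omega)]
    have e1 : 2 * i - 2 * i = 0 := by omega
    have e2 : 2 * i + 1 - 2 * i = 1 := by omega
    rw [e1, e2]

theorem qc_of_lt (i j t : ℕ) (hij : i ≤ j) (ht : t < 2 ^ (2 * i)) : qc j t = qc i t := by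
  unfold qc
  rw [← prod_range_mul_prod_Ico _ hij]
  have h1 : ∏ i' ∈ Ico i j, sg (t.testBit (2 * i')) (t.testBit (2 * i' + 1)) = 1 := by
    refine prod_eq_one (fun i' hi' => ?_)
    have hi : i ≤ i' := (mem_Ico.mp hi').1
    have b1 : t.testBit (2 * i') = false :=
      Nat.testBit_lt_two_pow (lt_of_lt_of_le ht (Nat.pow_le_pow_right (by norm_num) (by omega)))
    have b2 : t.testBit (2 * i' + 1) = false :=
      Nat.testBit_lt_two_pow (lt_of_lt_of_le ht (Nat.pow_le_pow_right (by norm_num) (by omega)))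
    rw [b1, b2]
    simp [sg]
  rw [h1, mul_one]

/-- the full Gauss sum over `i` base-4 digits -/
noncomputable def gT (i : ℕ) : ℝ := ∑ t ∈ range (2 ^ (2 * i)), qc i t

theorem tb00 : (0 : ℕ).testBit 0 = false := by decide
theorem tb01 : (0 : ℕ).testBit 1 = false := by decide
theorem tb10 : (1 : ℕ).testBit 0 = true := by decide
theorem tb11 : (1 : ℕ).testBit 1 = false := by decide
theorem tb20 : (2 : ℕ).testBit 0 = false := by decide
theorem tb21 : (2 : ℕ).testBit 1 = true := by decide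
theorem tb30 : (3 : ℕ).testBit 0 = true := by decide
theorem tb31 : (3 : ℕ).testBit 1 = true := by decide

theorem gT_succ (i : ℕ) : gT (i + 1) = 2 * gT i := by
  unfold gT
  have e : 2 ^ (2 * (i + 1)) = 2 ^ (2 * i) * 4 := by
    rw [show 2 * (i + 1) = 2 * i + 2 by ring, pow_add]
    norm_num
  rw [e, sum_digit]
  have h : ∀ d, ∑ t ∈ range (2 ^ (2 * i)), qc (i + 1) (2 ^ (2 * i) * d + t) =
      (∑ t ∈ range (2 ^ (2 * i)), qc i t) * sg (d.testBit 0) (d.testBit 1) := by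
    intro d
    rw [sum_mul]
    exact sum_congr rfl (fun t ht => qc_split i d t (mem_range.mp ht))
  simp only [h]
  simp only [sum_range_succ, sum_range_zero, tb00, tb01, tb10, tb11, tb20, tb21, tb30, tb31]
  norm_num [sg]
  ring

theorem gT_eq (i : ℕ) : gT i = 2 ^ i := by
  induction i with
  | zero => simp [gT, qc]
  | succ i ih => rw [gT_succ, ih, pow_succ]; ring

theorem gU_eq (i : ℕ) :
    ∑ t ∈ range (2 ^ (2 * i + 1)), (if t.testBit (2 * i) then (-1 : ℝ) else 1) * qc (i + 1) t =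
      2 * gT i := by
  unfold gT
  have e : 2 ^ (2 * i + 1) = 2 ^ (2 * i) * 2 := by rw [pow_succ]
  rw [e, sum_digit]
  have h : ∀ d, ∑ t ∈ range (2 ^ (2 * i)),
      (if (2 ^ (2 * i) * d + t).testBit (2 * i) then (-1 : ℝ) else 1) *
        qc (i + 1) (2 ^ (2 * i) * d + t) =
      (∑ t ∈ range (2 ^ (2 * i)), qc i t) *
        ((if d.testBit 0 then (-1 : ℝ) else 1) * sg (d.testBit 0) (d.testBit 1)) := by
    intro d
    rw [sum_mul]
    refine sum_congr rfl (fun t ht => ?_)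
    have ht' : t < 2 ^ (2 * i) := mem_range.mp ht
    have hb : (2 ^ (2 * i) * d + t).testBit (2 * i) = d.testBit 0 := by
      rw [Nat.testBit_two_pow_mul_add d ht', if_neg (by omega : ¬ (2 * i < 2 * i))]
      have e1 : 2 * i - 2 * i = 0 := by omega
      rw [e1]
    rw [qc_split i d t ht', hb]
    ring
  simp only [h]
  simp only [sum_range_succ, sum_range_zero, tb00, tb01, tb10, tb11]
  norm_num [sg]
  ring

theorem gW_eq (i : ℕ) :
    ∑ t ∈ range (2 ^ (2 * i + 2)),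
        (if t.testBit (2 * i + 1) then (-1 : ℝ) else 1) * qc (i + 1) t =
      -2 * gT i := by
  unfold gT
  have e : 2 ^ (2 * i + 2) = 2 ^ (2 * i) * 4 := by
    rw [pow_add]
    norm_num
  rw [e, sum_digit]
  have h : ∀ d, ∑ t ∈ range (2 ^ (2 * i)),
      (if (2 ^ (2 * i) * d + t).testBit (2 * i + 1) then (-1 : ℝ) else 1) *
        qc (i + 1) (2 ^ (2 * i) * d + t) =
      (∑ t ∈ range (2 ^ (2 * i)), qc i t) *
        ((if d.testBit 1 then (-1 : ℝ) else 1) * sg (d.testBit 0) (d.testBit 1)) := by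
    intro d
    rw [sum_mul]
    refine sum_congr rfl (fun t ht => ?_)
    have ht' : t < 2 ^ (2 * i) := mem_range.mp ht
    have hb : (2 ^ (2 * i) * d + t).testBit (2 * i + 1) = d.testBit 1 := by
      rw [Nat.testBit_two_pow_mul_add d ht', if_neg (by omega : ¬ (2 * i + 1 < 2 * i))]
      have e1 : 2 * i + 1 - 2 * i = 1 := by omega
      rw [e1]
    rw [qc_split i d t ht', hb]
    ring
  simp only [h]
  simp only [sum_range_succ, sum_range_zero, tb00, tb01, tb10, tb11, tb20, tb21, tb30, tb31]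
  norm_num [sg]
  ring

theorem filter_lt_range (a b : ℕ) (h : a ≤ b) :
    (range b).filter (fun t => t < a) = range a := by
  ext t
  simp only [mem_filter, mem_range]
  constructor
  · exact fun h' => h'.2
  · exact fun h' => ⟨lt_of_lt_of_le h' h, h'⟩

theorem gauss_odd (i j : ℕ) (hij : i < j) :
    ∑ t ∈ range (2 ^ (2 * j)),
        (if t < 2 ^ (2 * i + 1) then
          (if t.testBit (2 * i + 1 - 1) then (-1 : ℝ) else 1) * qc j t else 0) =
      2 * 2 ^ i := by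
  rw [← sum_filter, filter_lt_range _ _ (Nat.pow_le_pow_right (by norm_num) (by omega)),
    ← gT_eq, ← gU_eq]
  refine sum_congr rfl (fun t ht => ?_)
  have ht' : t < 2 ^ (2 * (i + 1)) :=
    lt_of_lt_of_le (mem_range.mp ht) (Nat.pow_le_pow_right (by norm_num) (by omega))
  rw [qc_of_lt (i + 1) j t (by omega) ht']
  have e1 : 2 * i + 1 - 1 = 2 * i := by omega
  rw [e1]

theorem gauss_even (i j : ℕ) (hij : i < j) :
    ∑ t ∈ range (2 ^ (2 * j)),
        (if t < 2 ^ (2 * i + 2) then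
          (if t.testBit (2 * i + 2 - 1) then (-1 : ℝ) else 1) * qc j t else 0) =
      -2 * 2 ^ i := by
  rw [← sum_filter, filter_lt_range _ _ (Nat.pow_le_pow_right (by norm_num) (by omega)),
    ← gT_eq, ← gW_eq]
  refine sum_congr rfl (fun t ht => ?_)
  have ht' : t < 2 ^ (2 * (i + 1)) :=
    lt_of_lt_of_le (mem_range.mp ht) (Nat.pow_le_pow_right (by norm_num) (by omega))
  rw [qc_of_lt (i + 1) j t (by omega) ht']
  have e1 : 2 * i + 2 - 1 = 2 * i + 1 := by omega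
  rw [e1]

/-! ### Assembly -/

/-- the coefficients: `+1` on odd scales, `-1` on even scales -/
noncomputable def qeps (k : ℕ) : ℝ := if k % 2 = 1 then 1 else -1

theorem abs_qeps (k : ℕ) : |qeps k| ≤ 1 := by
  unfold qeps
  split_ifs <;> norm_num

theorem term_eq (j k : ℕ) (hk : k ∈ Icc 1 (2 * j)) :
    qeps k * scaleTerm (2 * j) k (qF j) (qF j) (qF j) =
      (2 : ℝ) ^ (2 * j) * (2 : ℝ) ^ (2 * j) * (1 / 2 : ℝ) ^ (k / 2) := by
  obtain ⟨h1, h2⟩ := mem_Icc.mp hk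
  rw [scaleTerm_qF]
  rcases Nat.even_or_odd' k with ⟨m, rfl | rfl⟩
  · obtain ⟨i, rfl⟩ : ∃ i, m = i + 1 := ⟨m - 1, by omega⟩
    have e : 2 * (i + 1) = 2 * i + 2 := by ring
    rw [e, gauss_even i j (by omega)]
    have e2 : (2 * i + 2) / 2 = i + 1 := by omega
    have e3 : qeps (2 * i + 2) = -1 := by
      unfold qeps
      rw [if_neg (by omega)]
    have p1 : (1 / 2 : ℝ) ^ (2 * i + 2) = ((1 / 2 : ℝ) ^ 2) ^ i * (1 / 2 : ℝ) ^ 2 := by
      rw [pow_add, pow_mul]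
    have p2 : (1 / 2 : ℝ) ^ (i + 1) = (1 / 2 : ℝ) ^ i * (1 / 2 : ℝ) := pow_succ _ _
    rw [e2, e3, p1, p2]
    have h4 : ((1 / 2 : ℝ) ^ 2) ^ i * (2 : ℝ) ^ i = (1 / 2 : ℝ) ^ i := by
      rw [← mul_pow]
      norm_num
    linear_combination ((2 : ℝ) ^ (2 * j) * (2 : ℝ) ^ (2 * j) * (1 / 2)) * h4
  · have e2 : (2 * m + 1) / 2 = m := by omega
    have e3 : qeps (2 * m + 1) = 1 := by
      unfold qeps
      rw [if_pos (by omega)]
    have p1 : (1 / 2 : ℝ) ^ (2 * m + 1) = ((1 / 2 : ℝ) ^ 2) ^ m * (1 / 2 : ℝ) := by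
      rw [pow_succ, pow_mul]
    rw [gauss_odd m j (by omega), e2, e3, p1]
    have h4 : ((1 / 2 : ℝ) ^ 2) ^ m * (2 : ℝ) ^ m = (1 / 2 : ℝ) ^ m := by
      rw [← mul_pow]
      norm_num
    linear_combination ((2 : ℝ) ^ (2 * j) * (2 : ℝ) ^ (2 * j)) * h4

theorem sum_half (j : ℕ) :
    ∑ k ∈ Icc 1 (2 * j), (1 / 2 : ℝ) ^ (k / 2) = 3 * (1 - (1 / 2 : ℝ) ^ j) := by
  induction j with
  | zero => simp
  | succ j ih =>
    have e : 2 * (j + 1) = 2 * j + 1 + 1 := by ring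
    rw [e, sum_Icc_succ_top (by omega), sum_Icc_succ_top (by omega), ih]
    have e1 : (2 * j + 1) / 2 = j := by omega
    have e2 : (2 * j + 1 + 1) / 2 = j + 1 := by omega
    rw [e1, e2, pow_succ]
    ring

theorem norm3_qF (j : ℕ) :
    norm3 (2 * j) (qF j) * norm3 (2 * j) (qF j) * norm3 (2 * j) (qF j) =
      (2 : ℝ) ^ (2 * j) * (2 : ℝ) ^ (2 * j) := by
  unfold norm3
  have h : ∑ x ∈ range (2 ^ (2 * j)), ∑ y ∈ range (2 ^ (2 * j)), |qF j x y| ^ 3 =
      (2 : ℝ) ^ (2 * j) * (2 : ℝ) ^ (2 * j) := by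
    simp only [abs_qF, one_pow, sum_const, card_range, nsmul_eq_mul]
    push_cast
    ring
  rw [h]
  have hpos : (0 : ℝ) < (2 : ℝ) ^ (2 * j) * (2 : ℝ) ^ (2 * j) := by positivity
  rw [← Real.rpow_add hpos, ← Real.rpow_add hpos]
  norm_num

theorem form_qF (j : ℕ) :
    dyadicForm (2 * j) qeps (qF j) (qF j) (qF j) =
      3 * (1 - (1 / 2 : ℝ) ^ j) *
        (norm3 (2 * j) (qF j) * norm3 (2 * j) (qF j) * norm3 (2 * j) (qF j)) := by
  unfold dyadicForm
  rw [sum_congr rfl (fun k hk => term_eq j k hk), ← mul_sum, sum_half, norm3_qF]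
  ring

/-- Main statement: the quadratic phase sign functions on `2 j` scales reach the ratio
`3 (1 - 2 ^ (-j))`, hence no constant below `3` bounds the dyadic form by the product of the
three `L^3` norms. -/
theorem constant_ge_three :
    (∀ j : ℕ, ∃ (ε : ℕ → ℝ) (F0 F1 F2 : ℕ → ℕ → ℝ), (∀ k, |ε k| ≤ 1) ∧
        dyadicForm (2 * j) ε F0 F1 F2 =
          3 * (1 - (1 / 2 : ℝ) ^ j) *
            (norm3 (2 * j) F0 * norm3 (2 * j) F1 * norm3 (2 * j) F2)) ∧
    (∀ C : ℝ, C < 3 → ∃ (n : ℕ) (ε : ℕ → ℝ) (F0 F1 F2 : ℕ → ℕ → ℝ), (∀ k, |ε k| ≤ 1) ∧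
        0 < norm3 n F0 * norm3 n F1 * norm3 n F2 ∧
        C * (norm3 n F0 * norm3 n F1 * norm3 n F2) < dyadicForm n ε F0 F1 F2) := by
  refine ⟨fun j => ⟨qeps, qF j, qF j, qF j, abs_qeps, form_qF j⟩, ?_⟩
  intro C hC
  have h0 : (0 : ℝ) < (3 - C) / 3 := by linarith
  obtain ⟨j, hj⟩ := exists_pow_lt_of_lt_one h0 (by norm_num : (1 / 2 : ℝ) < 1)
  refine ⟨2 * j, qeps, qF j, qF j, qF j, abs_qeps, ?_, ?_⟩
  · rw [norm3_qF]
    positivity
  · rw [form_qF, norm3_qF]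
    have hpos : (0 : ℝ) < (2 : ℝ) ^ (2 * j) * (2 : ℝ) ^ (2 * j) := by positivity
    have hlt : C < 3 * (1 - (1 / 2 : ℝ) ^ j) := by linarith
    exact mul_lt_mul_of_pos_right hlt hpos

end Vale.Agent.H20.TriDyadic
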