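import Mathlib

/-!
# The dyadic triangular Hilbert form on step functions

Finite form of the dyadic model of the triangular Hilbert transform: the three functions are
constant on unit squares, `F_v i j` being the value on `[i, i+1) × [j, j+1)` for `i, j < 2 ^ n`
(and zero outside `[0, 2^n)^2`), and the scales are `k = 1, …, n`.
-/

namespace Vale.Agent.H20.TriDyadic

open Finset

/-- Scale-`k` term: `2 ^ (-k)` times the sum over integer points `(x0, x1, x2)` of `[0, 2^n)^3`
lying in a triple of dyadic intervals of length `2 ^ k` whose indices have bitwise XOR zero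
(that is `x0 XOR x1 XOR x2 < 2 ^ k`) of the product of the three Haar signs (which is
`-1` exactly when bit `k - 1` of `x0 XOR x1 XOR x2` is set) times
`F0 (x0, x1) * F1 (x1, x2) * F2 (x2, x0)`. -/
noncomputable def scaleTerm (n k : ℕ) (F0 F1 F2 : ℕ → ℕ → ℝ) : ℝ :=
  (1 / 2 : ℝ) ^ k * ∑ x0 ∈ range (2 ^ n), ∑ x1 ∈ range (2 ^ n), ∑ x2 ∈ range (2 ^ n),
    if x0 ^^^ x1 ^^^ x2 < 2 ^ k then
      (if (x0 ^^^ x1 ^^^ x2).testBit (k - 1) then (-1 : ℝ) else 1) *
        (F0 x0 x1 * F1 x1 x2 * F2 x2 x0)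
    else 0

/-- The dyadic triangular form with scales `1, …, n` and coefficients `ε k`. -/
noncomputable def dyadicForm (n : ℕ) (ε : ℕ → ℝ) (F0 F1 F2 : ℕ → ℕ → ℝ) : ℝ :=
  ∑ k ∈ Icc 1 n, ε k * scaleTerm n k F0 F1 F2

/-- The `L^3` norm of the step function with values `F x y` on the unit squares of `[0, 2^n)^2`. -/
noncomputable def norm3 (n : ℕ) (F : ℕ → ℕ → ℝ) : ℝ :=
  (∑ x ∈ range (2 ^ n), ∑ y ∈ range (2 ^ n), |F x y| ^ 3) ^ (1 / 3 : ℝ)

end Vale.Agent.H20.TriDyadic
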